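import Vale.Agent.P335.Graph

/-! Any two realisations are joined by switches. -/

namespace Vale.Agent.P335

open Finset
open scoped Classical

variable {n : ℕ} {d : Fin n → ℕ}

noncomputable def dset (G H : Omega n d) : Finset (Fin n × Fin n) :=
  univ.filter fun q => ¬ (G.1.Adj q.1 q.2 ↔ H.1.Adj q.1 q.2)

lemma mem_dset {G H : Omega n d} {p q : Fin n} :
    (p, q) ∈ dset G H ↔ ¬ (G.1.Adj p q ↔ H.1.Adj p q) := by
  simp only [dset, mem_filter, mem_univ, true_and]

lemma dset_comm (G H : Omega n d) : dset G H = dset H G := by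
  ext ⟨p, q⟩; rw [mem_dset, mem_dset]; exact not_congr iff_comm

lemma balanced (G H : Omega n d) (p : Fin n) :
    (univ.filter fun q => G.1.Adj p q ∧ ¬ H.1.Adj p q).card =
      (univ.filter fun q => H.1.Adj p q ∧ ¬ G.1.Adj p q).card := by
  have h : ∑ q, ((if G.1.Adj p q ∧ ¬ H.1.Adj p q then 1 else 0) + ad H.1 p q) =
      ∑ q, ((if H.1.Adj p q ∧ ¬ G.1.Adj p q then 1 else 0) + ad G.1 p q) := by
    refine sum_congr rfl fun q _ => ?_
    unfold ad
    by_cases h1 : G.1.Adj p q <;> by_cases h2 : H.1.Adj p q <;> simp [h1, h2]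
  rw [sum_add_distrib, sum_add_distrib, G.deg, H.deg] at h
  rw [card_filter, card_filter]
  omega

lemma sw_lt (G H : Omega n d) {c x y z : Fin n} (g1 : G.1.Adj c y) (g2 : ¬ G.1.Adj c x)
    (g3 : G.1.Adj x z) (g4 : ¬ G.1.Adj y z) (hzy : z ≠ y) (h1 : ¬ H.1.Adj c y) (h2 : H.1.Adj c x)
    (h3 : ¬ H.1.Adj x z ∨ H.1.Adj y z) :
    ∃ G' : Omega n d, c ≠ z ∧ kap c z G' = kap c z G ∧ (dset G' H).card < (dset G H).card := by
  have hcz : c ≠ z := by rintro rfl; exact g2 g3.symm
  have hcx : c ≠ x := h2.ne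
  have hcy : c ≠ y := g1.ne
  have hxz : x ≠ z := g3.ne
  have hxy : x ≠ y := by rintro rfl; exact g2 g1
  have g3' := g3.symm
  have g4' : ¬ G.1.Adj z y := fun h => g4 h.symm
  have hD : Dp c z G x ∧ Dp c z G y ∧ x ≠ y :=
    ⟨⟨hcx.symm, hxz, by simp [g2, g3']⟩, ⟨hcy.symm, hzy.symm, by simp [g1, g4']⟩, hxy⟩
  refine ⟨tau hcz x y G, hcz, kap_tau hcz x y G, ?_⟩
  obtain ⟨t, ht⟩ : ∃ t, dset (tau hcz x y G) H ⊆
      insert (z, t) (insert (t, z) ((((dset G H).erase (c, x)).erase (x, c)).erase (c, y))) := by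
    have s1 := H.1.adj_comm c x
    have s2 := H.1.adj_comm c y
    have s3 := H.1.adj_comm z x
    have s4 := H.1.adj_comm z y
    have w1 : Equiv.swap x y x = y := Equiv.swap_apply_left _ _
    have w2 : Equiv.swap x y y = x := Equiv.swap_apply_right _ _
    rcases h3 with h3 | h3
    · refine ⟨y, ?_⟩
      rintro ⟨p, q⟩ hpq
      rw [mem_dset, tau_adj hcz hD, mixG_adj] at hpq
      simp only [mem_insert, mem_erase, mem_dset, Prod.mk.injEq, ne_eq]
      grind
    · refine ⟨x, ?_⟩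
      rintro ⟨p, q⟩ hpq
      rw [mem_dset, tau_adj hcz hD, mixG_adj] at hpq
      simp only [mem_insert, mem_erase, mem_dset, Prod.mk.injEq, ne_eq]
      grind
  have c1 := card_le_card ht
  have c2 := card_insert_le (z, t) (insert (t, z) ((((dset G H).erase (c, x)).erase (x, c)).erase (c, y)))
  have c3 := card_insert_le (t, z) ((((dset G H).erase (c, x)).erase (x, c)).erase (c, y))
  have m1 : (c, x) ∈ dset G H := by rw [mem_dset]; simp [g2, h2]
  have m2 : (x, c) ∈ (dset G H).erase (c, x) := by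
    rw [mem_erase, mem_dset, G.1.adj_comm, H.1.adj_comm]; simp [g2, h2, hcx]
  have m3 : (c, y) ∈ ((dset G H).erase (c, x)).erase (x, c) := by
    rw [mem_erase, mem_erase, mem_dset]; simp [g1, h1, hcx, hxy.symm]
  have e1 := card_erase_add_one m1
  have e2 := card_erase_add_one m2
  have e3 := card_erase_add_one m3
  omega

lemma card_lt_aux {A B : Finset (Fin n)} {c x y : Fin n} (hc : c ∈ B) (hc' : c ∉ A) (hcx : c ≠ x)
    (hx : x ∉ A) (hxy : y ∈ A ↔ x ∈ B) (h : ∀ z ∈ A, z ≠ y → z ∈ B) : A.card < B.card := by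
  have h1 : A.erase y ⊆ (B.erase x).erase c := by
    intro z hz
    rw [mem_erase] at hz
    simp only [mem_erase]
    exact ⟨fun e => hc' (e ▸ hz.2), fun e => hx (e ▸ hz.2), h z hz.2 hz.1⟩
  have h2 := card_le_card h1
  have h3 := card_erase_add_one (mem_erase.2 ⟨hcx, hc⟩)
  by_cases hy : y ∈ A
  · have := card_erase_add_one hy
    have := card_erase_add_one (hxy.1 hy)
    omega
  · rw [erase_eq_of_notMem hy] at h2
    have := card_erase_le (s := B) (a := x)
    omega

theorem connected (f : Omega n d → ℝ) (hf : ∀ u v, u ≠ v → Meas (kap u v) f) (G H : Omega n d) :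
    f G = f H := by
  suffices S : ∀ m : ℕ, ∀ G H : Omega n d, (dset G H).card = m → f G = f H from S _ G H rfl
  intro m
  induction m using Nat.strong_induction_on with
  | _ m ih =>
    intro G H hm
    by_cases hGH : ∀ p q, H.1.Adj p q ↔ G.1.Adj p q
    · rw [Omega.ext' hGH]
    obtain ⟨c, x, y, g1, h1, h2, g2⟩ : ∃ c x y, G.1.Adj c y ∧ ¬ H.1.Adj c y ∧ H.1.Adj c x ∧
        ¬ G.1.Adj c x := by
      push Not at hGH
      obtain ⟨c, q, hq⟩ := hGH
      have hb := balanced G H c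
      rcases hq with ⟨a, b⟩ | ⟨a, b⟩
      · have : 0 < (univ.filter fun q => G.1.Adj c q ∧ ¬ H.1.Adj c q).card := by
          rw [hb]; exact card_pos.2 ⟨q, by simp [a, b]⟩
        obtain ⟨y, hy⟩ := card_pos.1 this
        simp only [mem_filter, mem_univ, true_and] at hy
        exact ⟨c, q, y, hy.1, hy.2, a, b⟩
      · have : 0 < (univ.filter fun q => H.1.Adj c q ∧ ¬ G.1.Adj c q).card := by
          rw [← hb]; exact card_pos.2 ⟨q, by simp [a, b]⟩
        obtain ⟨x, hx⟩ := card_pos.1 this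
        simp only [mem_filter, mem_univ, true_and] at hx
        exact ⟨c, x, q, b, a, hx.1, hx.2⟩
    by_cases hA : ∃ z, z ≠ y ∧ G.1.Adj x z ∧ ¬ G.1.Adj y z ∧ (¬ H.1.Adj x z ∨ H.1.Adj y z)
    · obtain ⟨z, a1, a2, a3, a4⟩ := hA
      obtain ⟨G', b1, b2, b3⟩ := sw_lt G H g1 g2 a2 a3 a1 h1 h2 a4
      rw [← hf c z b1 _ _ b2]
      exact ih _ (hm ▸ b3) G' H rfl
    by_cases hB : ∃ z, z ≠ x ∧ H.1.Adj y z ∧ ¬ H.1.Adj x z ∧ (¬ G.1.Adj y z ∨ G.1.Adj x z)
    · obtain ⟨z, a1, a2, a3, a4⟩ := hB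
      obtain ⟨H', b1, b2, b3⟩ := sw_lt H G h2 h1 a2 a3 a1 g2 g1 a4
      rw [← hf c z b1 _ _ b2]
      rw [dset_comm H', dset_comm H] at b3
      exact ih _ (hm ▸ b3) G H' rfl
    exfalso
    push Not at hA hB
    have k1 : (univ.filter fun q => G.1.Adj x q ∧ ¬ H.1.Adj x q).card <
        (univ.filter fun q => G.1.Adj y q ∧ ¬ H.1.Adj y q).card := by
      refine card_lt_aux (c := c) (x := x) (y := y) ?_ ?_ h2.ne ?_ ?_ ?_
      · exact mem_filter.2 ⟨mem_univ _, g1.symm, fun h => h1 h.symm⟩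
      · simp [h2.symm]
      · simp
      · simp only [mem_filter, mem_univ, true_and]
        rw [G.1.adj_comm x y, H.1.adj_comm x y]
      · intro z hz hzy
        simp only [mem_filter, mem_univ, true_and] at hz ⊢
        have a := hA z hzy hz.1
        have b := hB z hz.1.ne.symm
        tauto
    have k2 : (univ.filter fun q => H.1.Adj y q ∧ ¬ G.1.Adj y q).card <
        (univ.filter fun q => H.1.Adj x q ∧ ¬ G.1.Adj x q).card := by
      refine card_lt_aux (c := c) (x := y) (y := x) ?_ ?_ g1.ne ?_ ?_ ?_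
      · exact mem_filter.2 ⟨mem_univ _, h2.symm, fun h => g2 h.symm⟩
      · simp [g1.symm]
      · simp
      · simp only [mem_filter, mem_univ, true_and]
        rw [G.1.adj_comm x y, H.1.adj_comm x y]
      · intro z hz hzx
        simp only [mem_filter, mem_univ, true_and] at hz ⊢
        have a := hB z hzx hz.1
        have b := hA z hz.1.ne.symm
        tauto
    have := balanced G H x
    have := balanced G H y
    omega

end Vale.Agent.P335
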