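import Vale.Agent.P335.Three

/-! The three-row inequality, conclusion. -/

namespace Vale.Agent.P335

open Finset
open scoped Classical

namespace ThreeStr

variable {Ω β C : Type*} (p : ThreeStr Ω β C) [Fintype Ω] [Fintype C]

lemma meas_of_mv {g : Ω → ℝ} {i j : Fin 3} (hij : i ≠ j) (hm : Meas (p.key j) g)
    (h : ∀ ζ ζ' a b, p.Mv j ζ ζ' a b → g ζ' = g ζ) : Meas (p.key i) g := by
  obtain ⟨k, hik, hjk⟩ : ∃ k : Fin 3, i ≠ k ∧ j ≠ k := by clear h hm; revert i j; decide
  intro ω
  suffices H : ∀ m : ℕ, ∀ η, p.key i η = p.key i ω → (p.R η j \ p.R ω j).card = m → g η = g ω from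
    fun η hη => H _ η hη rfl
  intro m
  induction m using Nat.strong_induction_on with
  | _ m ih =>
    intro η hη hm'
    have hK := (p.key_iff.1 hη).1
    have hc := p.rowc ω η hK j
    by_cases hex : p.R η j ⊆ p.R ω j
    · exact hm _ _ (p.key_iff.2 ⟨hK, eq_of_subset_of_card_le hex hc.ge⟩)
    · obtain ⟨a, ha1, ha2⟩ := not_subset.1 hex
      have : ¬ p.R ω j ⊆ p.R η j := by
        intro hs
        exact ha2 (eq_of_subset_of_card_le hs hc.le ▸ ha1)
      obtain ⟨b, hb1, hb2⟩ := not_subset.1 this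
      have e1 := p.mem_Cm hij hik hjk (ω := ω) rfl
      have e2 := p.mem_Ds hij hik hjk (ω := ω) rfl
      have e3 := p.mem_Cm hij hik hjk hη
      have e4 := p.mem_Ds hij hik hjk hη
      have haD : a ∈ p.Ds i ω := by
        have := e1 a; have := e3 a; have := e4 a; tauto
      have hbD : b ∈ p.Ds i ω := by
        have := e1 b; have := e3 b; have := e2 b; tauto
      have hJ : insert b ((p.R η j ∩ p.Ds i ω).erase a) ∈ powersetCard (p.kk i j ω) (p.Ds i ω) := by
        refine mem_powersetCard.2 ⟨insert_subset hbD ((erase_subset _ _).trans inter_subset_right), ?_⟩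
        rw [card_insert_of_notMem (by simp [hb2]), card_erase_add_one (by simp [ha1, haD])]
        have e5 := p.card_row_j hij hik hjk hη
        have e6 := p.card_row_j hij hik hjk (ω := ω) rfl
        unfold kk; omega
      obtain ⟨ζ, z1, z2, -⟩ := p.exists_build hij hik hjk ω _ hJ
      have hrow : p.R ζ j = insert b ((p.R η j).erase a) := by
        rw [z2]
        ext t
        have := e3 t; have := e4 t; have := e1 a
        simp only [mem_union, mem_insert, mem_erase, mem_inter]
        grind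
      have hmv : p.Mv j η ζ a b := ⟨by rw [(p.key_iff.1 z1).1, hK], ha1, hb2, hrow⟩
      rw [← h _ _ _ _ hmv]
      refine ih _ ?_ ζ z1 rfl
      rw [← hm', hrow]
      apply card_lt_card
      rw [ssubset_iff_of_subset]
      · refine ⟨a, by simp [ha1, ha2], ?_⟩
        have : a ≠ b := by rintro rfl; exact ha2 hb1
        simp [this]
      · intro t ht
        simp only [mem_sdiff, mem_insert, mem_erase] at ht ⊢
        obtain ⟨rfl | ht1, ht2⟩ := ht
        · exact absurd hb1 ht2
        · exact ⟨ht1.2, ht2⟩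

/-- The three-row inequality. -/
theorem three (F : Ω → ℝ) :
    ip F (∑ i, Q (p.key i) F) ≤ ip (∑ i, Q (p.key i) F) (∑ i, Q (p.key i) F) := by
  refine form_le_sq_of_eig (fun F => ∑ i, Q (p.key i) F) ?_ ?_ F
  · intro f g
    simp only [ip_sum_left, ip_sum_right, Q_symm]
  intro θ v hv hT
  by_contra hθ
  push Not at hθ
  have h0 : 0 < θ := by nlinarith
  have h1 : θ < 1 := by nlinarith
  have hne : Nonempty Ω := by
    by_contra h
    apply hv; funext ω; exact absurd ⟨ω⟩ h
  set f : Fin 3 → Ω → ℝ := fun i => E (p.key i) v with hf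
  have hm : ∀ i, Meas (p.key i) (f i) := fun i => meas_E _ _
  have hsum : ∑ i, f i = (3 - θ) • v := by
    have : ∑ i, Q (p.key i) v = θ • v := hT
    simp only [Q, sum_sub_distrib, sum_const, card_univ, Fintype.card_fin] at this
    rw [sub_smul, ← this]
    funext ω
    simp [hf]
  have he : ∀ i j k, i ≠ j → i ≠ k → j ≠ k → (2 - θ) • f i = E (p.key i) (f j + f k) := by
    intro i j k hij hik hjk
    have h2 := congrArg (E (p.key i)) hsum
    rw [sum3 _ hij hik hjk, add_assoc, E_add, E_smul, E_of_meas (hm i)] at h2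
    change f i + _ = (3 - θ) • f i at h2
    rw [← add_right_inj (f i), h2]
    funext ω; simp only [Pi.add_apply, Pi.smul_apply, smul_eq_mul]; ring
  have s1 := p.step1 f hm (2 - θ) (by linarith) he
  have hinv : ∀ l ζ ζ' a b, p.Mv l ζ ζ' a b → cs (p.R ζ) a = cs (p.R ζ) b → f l ζ' = f l ζ := by
    intro l ζ ζ' a b hmv hc
    rw [← s1 a b l ζ]
    apply hm l
    rw [key_iff]
    refine ⟨by rw [p.sw_K, hmv.1], ?_⟩
    obtain ⟨-, m2, m3, m4⟩ := hmv
    ext z
    rw [p.mem_sw, m4, perm, if_pos hc]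
    have hab : a ≠ b := by rintro rfl; exact m3 m2
    by_cases e1 : z = a
    · subst e1; simp [hab, m3]
    by_cases e2 : z = b
    · subst e2; simp [m2]
    rw [Equiv.swap_apply_of_ne_of_ne e1 e2]; simp [e1, e2]
  have s2 : ∀ l ζ ζ' a b, p.Mv l ζ ζ' a b → f l ζ' - f l ζ ≤ 0 := by
    intro l0 ζ0 ζ0' a0 b0 hmv0
    obtain ⟨⟨i, ω, η, x, y⟩, hq, hmax⟩ := exists_max_image
      ((univ : Finset (Fin 3 × Ω × Ω × C × C)).filter
        fun q => p.Mv q.1 q.2.1 q.2.2.1 q.2.2.2.1 q.2.2.2.2)
      (fun q => f q.1 q.2.2.1 - f q.1 q.2.1) ⟨(l0, ζ0, ζ0', a0, b0), by simpa using hmv0⟩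
    have hmv : p.Mv i ω η x y := by simpa using hq
    have hmax' : ∀ l ζ ζ' a b, p.Mv l ζ ζ' a b → f l ζ' - f l ζ ≤ f i η - f i ω :=
      fun l ζ ζ' a b h => hmax (l, ζ, ζ', a, b) (by simpa using h)
    refine (hmax' _ _ _ _ _ hmv0).trans ?_
    by_contra hM
    push Not at hM
    set M := f i η - f i ω with hMdef
    have g1 : ∀ l, p.Good l (f l) M := fun l => ⟨hm l, fun ζ ζ' a b h =>
      ⟨by linarith [hmax' l ζ ζ' a b h], hinv l ζ ζ' a b h⟩⟩
    have g2 : ∀ l, p.Good l ((-1 : ℝ) • f l) M := fun l =>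
      ⟨fun ζ ζ' h => by simp [hm l ζ ζ' h], fun ζ ζ' a b h =>
      ⟨by have := hmax' l ζ' ζ b a h.symm; simp only [Pi.smul_apply, smul_eq_mul]; linarith,
        fun hc => by simp [hinv l ζ ζ' a b h hc]⟩⟩
    obtain ⟨j, k, hij, hik, hjk⟩ := exists_others i
    have hne' : cs (p.R ω) x ≠ cs (p.R ω) y := by
      intro hc
      have := hinv i ω η x y hmv hc
      linarith
    have hcs := p.colc ω η hmv.1
    have hsy := hmv.symm
    have bx : cs (p.R ω) x = 1 ∨ cs (p.R ω) x = 2 := by
      have a1 := hcs x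
      have a2 : cs (p.R ω) x = 1 + ind x (p.R ω j) + ind x (p.R ω k) := by
        rw [cs, sum3 _ hij hik hjk]; simp [ind, hmv.2.1]
      have a3 : cs (p.R η) x = 0 + ind x (p.R η j) + ind x (p.R η k) := by
        rw [cs, sum3 _ hij hik hjk]; simp [ind, hsy.2.2.1]
      unfold ind at a2 a3
      split_ifs at a2 a3 <;> omega
    have by' : cs (p.R ω) y = 1 ∨ cs (p.R ω) y = 2 := by
      have a1 := hcs y
      have a2 : cs (p.R ω) y = 0 + ind y (p.R ω j) + ind y (p.R ω k) := by
        rw [cs, sum3 _ hij hik hjk]; simp [ind, hmv.2.2.1]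
      have a3 : cs (p.R η) y = 1 + ind y (p.R η j) + ind y (p.R η k) := by
        rw [cs, sum3 _ hij hik hjk]; simp [ind, hsy.2.1]
      unfold ind at a2 a3
      split_ifs at a2 a3 <;> omega
    have e1 := congrFun (he i j k hij hik hjk) ω
    have e2 := congrFun (he i j k hij hik hjk) η
    simp only [Pi.smul_apply, smul_eq_mul] at e1 e2
    have hfin : (2 - θ) * f i η ≤ (2 - θ) * f i ω + M := by
      rcases bx with bx | bx
      · have := p.step2 hij hik hjk (g1 j) (g1 k) hmv bx (by omega)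
        rw [e1, e2]; exact this
      · have := p.step2 hij hik hjk (g2 j) (g2 k) hsy (by rw [hcs]; omega) (by rw [hcs]; omega)
        rw [← smul_add, E_smul] at this
        simp only [Pi.smul_apply, smul_eq_mul] at this
        rw [e1, e2]; linarith
    nlinarith
  have hall : ∀ i l, Meas (p.key i) (f l) := by
    intro i l
    by_cases hil : i = l
    · subst hil; exact hm i
    · refine p.meas_of_mv hil (hm l) fun ζ ζ' a b h => ?_
      have := s2 l ζ ζ' a b h
      have := s2 l ζ' ζ b a h.symm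
      linarith
  have hv' : ∀ i, Meas (p.key i) v := by
    intro i ω η h
    have e1 := congrFun hsum ω
    have e2 := congrFun hsum η
    simp only [Finset.sum_apply, Pi.smul_apply, smul_eq_mul] at e1 e2
    rw [sum_congr rfl fun l _ => hall i l ω η h, e1] at e2
    have : (3 - θ) ≠ 0 := by linarith
    exact (mul_left_cancel₀ this e2).symm
  have : θ • v = 0 := by
    rw [← hT]
    exact sum_eq_zero fun i _ => Q_of_meas (hv' i)
  exact hv ((smul_eq_zero.1 this).resolve_left h0.ne')

end ThreeStr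

end Vale.Agent.P335
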