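import Vale.Agent.P335.Graph
import Vale.Agent.P335.Three2

/-! The three-row structure of a vertex triple. -/

namespace Vale.Agent.P335

open Finset
open scoped Classical

variable {n : ℕ} {d : Fin n → ℕ}

lemma f3a : ∀ i : Fin 3, i = 0 ∨ i = 1 ∨ i = 2 := by decide
lemma f3b : ∀ i : Fin 3, i + 1 ≠ i + 2 := by decide
lemma f3c : ∀ i : Fin 3, i ≠ i + 1 := by decide
lemma f3d : ∀ i : Fin 3, i ≠ i + 2 := by decide

def Out (t : Fin 3 → Fin n) (x : Fin n) : Prop := ∀ l, x ≠ t l

def inRow (t : Fin 3 → Fin n) (G : SimpleGraph (Fin n)) (i : Fin 3) : Option (Fin n) → Prop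
  | none => ¬ G.Adj (t (i + 1)) (t (i + 2))
  | some x => Out t x ∧ G.Adj (t i) x

noncomputable def Rg (t : Fin 3 → Fin n) (G : SimpleGraph (Fin n)) (i : Fin 3) :
    Finset (Option (Fin n)) := univ.filter (inRow t G i)

lemma mem_Rg {t : Fin 3 → Fin n} {G : SimpleGraph (Fin n)} {i : Fin 3} {z : Option (Fin n)} :
    z ∈ Rg t G i ↔ inRow t G i z := by simp [Rg]

def Kg (t : Fin 3 → Fin n) (G : SimpleGraph (Fin n)) : Fin n → Fin n → Prop :=
  fun p q => Out t p ∧ Out t q ∧ G.Adj p q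

lemma Kg_iff {t : Fin 3 → Fin n} {G H : SimpleGraph (Fin n)} :
    Kg t H = Kg t G ↔ ∀ p q, Out t p → Out t q → (H.Adj p q ↔ G.Adj p q) := by
  simp only [Kg, funext_iff, eq_iff_iff, and_congr_right_iff]

lemma sum_split3 {t : Fin 3 → Fin n} (ht : Function.Injective t) (F : Fin n → ℕ) :
    ∑ q, F q = ∑ l, F (t l) + ∑ q, if Out t q then F q else 0 := by
  rw [← sum_filter, ← sum_image (s := univ) (g := t) (f := F) (fun a _ b _ h => ht h),
    ← sum_filter_add_sum_filter_not univ (fun q => q ∈ univ.image t)]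
  congr 1
  · congr 1; ext q; simp
  · congr 1; ext q
    simp only [mem_filter, mem_univ, true_and, mem_image, not_exists]
    exact forall_congr' fun l => not_congr eq_comm

lemma card_Rg (t : Fin 3 → Fin n) (G : SimpleGraph (Fin n)) (i : Fin 3) :
    (Rg t G i).card + ad G (t (i + 1)) (t (i + 2)) =
      1 + ∑ q, if Out t q then ad G (t i) q else 0 := by
  rw [Rg, card_filter, Fintype.sum_option]
  have : ∀ q, (if inRow t G i (some q) then 1 else 0) = if Out t q then ad G (t i) q else 0 := by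
    intro q
    unfold ad
    by_cases h1 : Out t q <;> by_cases h2 : G.Adj (t i) q <;> simp [inRow, h1, h2]
  simp only [this]
  unfold ad
  by_cases h : G.Adj (t (i + 1)) (t (i + 2)) <;> simp [inRow, h, add_comm]

lemma cs_none (t : Fin 3 → Fin n) (G : SimpleGraph (Fin n)) :
    cs (Rg t G) none + ∑ i, ad G (t (i + 1)) (t (i + 2)) = 3 := by
  unfold cs
  rw [← sum_add_distrib]
  have : ∀ i, ind none (Rg t G i) + ad G (t (i + 1)) (t (i + 2)) = 1 := by
    intro i
    unfold ind ad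
    by_cases h : G.Adj (t (i + 1)) (t (i + 2)) <;> simp [mem_Rg, inRow, h]
  simp [this]

lemma cs_some (t : Fin 3 → Fin n) (G : SimpleGraph (Fin n)) (x : Fin n) :
    cs (Rg t G) (some x) = if Out t x then ∑ i, ad G (t i) x else 0 := by
  unfold cs ind ad
  by_cases h : Out t x <;> simp [mem_Rg, inRow, h]

lemma deg_in {t : Fin 3 → Fin n} (ht : Function.Injective t) (G : SimpleGraph (Fin n)) (i : Fin 3) :
    ∑ q, ad G (t i) q + cs (Rg t G) none = (Rg t G i).card + 2 := by
  have h1 := card_Rg t G i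
  have h2 := cs_none t G
  rw [sum_split3 ht]
  have h3 : ∀ p, ad G p p = 0 := fun p => by simp [ad]
  have c1 := ad_comm G (t 0) (t 1)
  have c2 := ad_comm G (t 0) (t 2)
  have c3 := ad_comm G (t 1) (t 2)
  rw [Fin.sum_univ_three] at h2 ⊢
  have e1 : (0 : Fin 3) + 1 = 1 := rfl
  have e2 : (0 : Fin 3) + 2 = 2 := rfl
  have e3 : (1 : Fin 3) + 1 = 2 := rfl
  have e4 : (1 : Fin 3) + 2 = 0 := rfl
  have e5 : (2 : Fin 3) + 1 = 0 := rfl
  have e6 : (2 : Fin 3) + 2 = 1 := rfl
  rw [e1, e2, e3, e4, e5, e6] at h2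
  have hi : i = 0 ∨ i = 1 ∨ i = 2 := f3a i
  rcases hi with rfl | rfl | rfl
  · rw [e1, e2] at h1; rw [h3]; omega
  · rw [e3, e4] at h1; rw [h3]; omega
  · rw [e5, e6] at h1; rw [h3]; omega

lemma deg_out {t : Fin 3 → Fin n} (ht : Function.Injective t) (G : SimpleGraph (Fin n)) {x : Fin n}
    (hx : Out t x) :
    ∑ q, ad G x q = cs (Rg t G) (some x) + ∑ q, if Out t q then ad G x q else 0 := by
  rw [sum_split3 ht, cs_some, if_pos hx]
  simp only [ad_comm G x]

lemma sum_card_eq {C : Type*} [Fintype C] (R : Fin 3 → Finset C) :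
    ∑ i, (R i).card = ∑ z, cs R z := by
  unfold cs ind
  rw [sum_comm]
  refine sum_congr rfl fun i _ => ?_
  rw [← card_filter]; simp

def buildG (t : Fin 3 → Fin n) (ht : Function.Injective t) (G : SimpleGraph (Fin n))
    (R : Fin 3 → Finset (Option (Fin n))) : SimpleGraph (Fin n) where
  Adj p q := (Out t p ∧ Out t q ∧ G.Adj p q) ∨ (∃ i, p = t i ∧ Out t q ∧ some q ∈ R i) ∨
    (∃ i, q = t i ∧ Out t p ∧ some p ∈ R i) ∨
    (∃ i, none ∉ R i ∧ ((p = t (i + 1) ∧ q = t (i + 2)) ∨ (q = t (i + 1) ∧ p = t (i + 2))))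
  symm := ⟨by
    intro p q h
    rcases h with h | h | h | ⟨i, h1, h2⟩
    · exact Or.inl ⟨h.2.1, h.1, h.2.2.symm⟩
    · exact Or.inr (Or.inr (Or.inl h))
    · exact Or.inr (Or.inl h)
    · exact Or.inr (Or.inr (Or.inr ⟨i, h1, h2.symm⟩))⟩
  loopless := ⟨by
    intro p h
    rcases h with h | ⟨i, h1, h2, -⟩ | ⟨i, h1, h2, -⟩ | ⟨i, -, h2⟩
    · exact G.irrefl h.2.2
    · exact h2 i h1
    · exact h2 i h1
    · have : t (i + 1) = t (i + 2) := by rcases h2 with ⟨a, b⟩ | ⟨a, b⟩ <;> rw [← a, ← b]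
      exact f3b i (ht this)⟩

lemma Kg_buildG (t : Fin 3 → Fin n) (ht : Function.Injective t) (G : SimpleGraph (Fin n))
    (R : Fin 3 → Finset (Option (Fin n))) : Kg t (buildG t ht G R) = Kg t G := by
  rw [Kg_iff]
  intro p q hp hq
  constructor
  · rintro (h | ⟨i, h1, -⟩ | ⟨i, h1, -⟩ | ⟨i, -, ⟨h1, -⟩ | ⟨h1, -⟩⟩)
    · exact h.2.2
    · exact absurd h1 (hp i)
    · exact absurd h1 (hq i)
    · exact absurd h1 (hp _)
    · exact absurd h1 (hq _)
  · intro h; exact Or.inl ⟨hp, hq, h⟩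

lemma Rg_buildG (t : Fin 3 → Fin n) (ht : Function.Injective t) (G : SimpleGraph (Fin n))
    (R : Fin 3 → Finset (Option (Fin n))) (hR : ∀ x i, some x ∈ R i → Out t x) :
    Rg t (buildG t ht G R) = R := by
  funext i
  ext z
  rw [mem_Rg]
  cases z with
  | none =>
    change ¬ (buildG t ht G R).Adj _ _ ↔ _
    rw [not_iff_comm]
    constructor
    · intro h; exact Or.inr (Or.inr (Or.inr ⟨i, h, Or.inl ⟨rfl, rfl⟩⟩))
    · rintro (h | ⟨j, -, h1, -⟩ | ⟨j, -, h1, -⟩ | ⟨j, h0, ⟨h1, h2⟩ | ⟨h1, h2⟩⟩)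
      · exact absurd rfl (h.1 _)
      · exact absurd rfl (h1 _)
      · exact absurd rfl (h1 _)
      · have : i = j := add_right_cancel (ht h1)
        rw [this]; exact h0
      · exfalso
        have a1 := ht h1
        have a2 := ht h2
        clear h0 h1 h2
        revert i j; decide
  | some x =>
    change (Out t x ∧ (buildG t ht G R).Adj _ _) ↔ _
    constructor
    · rintro ⟨hx, h | ⟨j, h1, -, h2⟩ | ⟨j, h1, -⟩ | ⟨j, -, ⟨-, h2⟩ | ⟨h1, -⟩⟩⟩
      · exact absurd rfl (h.1 _)
      · rw [ht h1]; exact h2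
      · exact absurd h1 (hx _)
      · exact absurd h2 (hx _)
      · exact absurd h1 (hx _)
    · intro h
      exact ⟨hR x i h, Or.inr (Or.inl ⟨i, rfl, hR x i h, h⟩)⟩

lemma colc_some {t : Fin 3 → Fin n} (ht : Function.Injective t) {G H : Omega n d}
    (h : Kg t H.1 = Kg t G.1) (x : Fin n) : cs (Rg t H.1) (some x) = cs (Rg t G.1) (some x) := by
  by_cases hx : Out t x
  · have e1 := deg_out ht G.1 hx
    have e2 := deg_out ht H.1 hx
    have e3 : (∑ q, if Out t q then ad H.1 x q else 0) = ∑ q, if Out t q then ad G.1 x q else 0 := by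
      refine sum_congr rfl fun q _ => ?_
      split_ifs with hq
      · exact ad_congr (Kg_iff.1 h x q hx hq)
      · rfl
    rw [G.deg] at e1
    rw [H.deg] at e2
    omega
  · rw [cs_some, cs_some, if_neg hx, if_neg hx]

lemma colc_none {t : Fin 3 → Fin n} (ht : Function.Injective t) {G H : Omega n d}
    (h : Kg t H.1 = Kg t G.1) : cs (Rg t H.1) none = cs (Rg t G.1) none := by
  have e1 := sum_card_eq (Rg t G.1)
  have e2 := sum_card_eq (Rg t H.1)
  rw [Fintype.sum_option, Fin.sum_univ_three] at e1 e2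
  rw [sum_congr rfl fun x _ => colc_some ht h x] at e2
  have a0 := deg_in ht G.1 0
  have a1 := deg_in ht G.1 1
  have a2 := deg_in ht G.1 2
  have b0 := deg_in ht H.1 0
  have b1 := deg_in ht H.1 1
  have b2 := deg_in ht H.1 2
  rw [G.deg] at a0 a1 a2
  rw [H.deg] at b0 b1 b2
  omega

lemma adj_eq_of_rows {t : Fin 3 → Fin n} {G H : SimpleGraph (Fin n)} (hK : Kg t H = Kg t G)
    {p q : Fin n} (i : Fin 3) (hR : Rg t H i = Rg t G i)
    (hpq : (Out t p ∧ Out t q) ∨ (p = t i ∧ Out t q) ∨ (q = t i ∧ Out t p) ∨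
      (p = t (i + 1) ∧ q = t (i + 2)) ∨ (q = t (i + 1) ∧ p = t (i + 2)) ∨ p = q) :
    H.Adj p q ↔ G.Adj p q := by
  have e := fun z => Finset.ext_iff.1 hR z
  simp only [mem_Rg] at e
  rcases hpq with ⟨a, b⟩ | ⟨rfl, b⟩ | ⟨rfl, b⟩ | ⟨rfl, rfl⟩ | ⟨rfl, rfl⟩ | rfl
  · exact Kg_iff.1 hK p q a b
  · simpa [inRow, b] using e (some q)
  · rw [H.adj_comm, G.adj_comm]; simpa [inRow, b] using e (some p)
  · exact not_iff_not.1 (e none)
  · rw [H.adj_comm, G.adj_comm]; exact not_iff_not.1 (e none)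
  · simp

noncomputable def threeStr {t : Fin 3 → Fin n} (ht : Function.Injective t) :
    ThreeStr (Omega n d) (Fin n → Fin n → Prop) (Option (Fin n)) where
  K G := Kg t G.1
  R G := Rg t G.1
  inj := by
    intro G H hK hR
    apply Omega.ext'
    intro p q
    by_cases hp : Out t p
    · by_cases hq : Out t q
      · exact adj_eq_of_rows hK 0 (congrFun hR 0) (Or.inl ⟨hp, hq⟩)
      · obtain ⟨i, hi⟩ := not_forall.1 hq
        exact adj_eq_of_rows hK i (congrFun hR i) (Or.inr (Or.inr (Or.inl ⟨not_not.1 hi, hp⟩)))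
    · obtain ⟨i, hi⟩ := not_forall.1 hp
      obtain rfl := not_not.1 hi
      by_cases hq : Out t q
      · exact adj_eq_of_rows hK i (congrFun hR i) (Or.inr (Or.inl ⟨rfl, hq⟩))
      · obtain ⟨j, hj⟩ := not_forall.1 hq
        obtain rfl := not_not.1 hj
        have : i = j ∨ ∃ k : Fin 3, (i = k + 1 ∧ j = k + 2) ∨ (j = k + 1 ∧ i = k + 2) := by
          clear hi hj hp hq; revert i j; decide
        rcases this with rfl | ⟨k, ⟨rfl, rfl⟩ | ⟨rfl, rfl⟩⟩
        · simp
        · exact adj_eq_of_rows hK k (congrFun hR k) (by simp)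
        · exact adj_eq_of_rows hK k (congrFun hR k) (by simp)
  rowc := by
    intro G H h i
    have a := deg_in ht G.1 i
    have b := deg_in ht H.1 i
    have c := colc_none ht h
    rw [G.deg] at a
    rw [H.deg] at b
    omega
  colc := by
    intro G H h z
    cases z with
    | none => exact colc_none ht h
    | some x => exact colc_some ht h x
  ext := by
    intro G R h1 h2
    have hR : ∀ x i, some x ∈ R i → Out t x := by
      intro x i hx
      by_contra hc
      have := h2 (some x)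
      rw [cs_some, if_neg hc, cs, sum_eq_zero_iff] at this
      have := this i (mem_univ _)
      simp [ind, hx] at this
    have e1 := Kg_buildG t ht G.1 R
    have e2 := Rg_buildG t ht G.1 R hR
    refine ⟨Omega.mk' (buildG t ht G.1 R) ?_, e1, e2⟩
    intro p
    by_cases hp : Out t p
    · rw [← G.deg p, deg_out ht _ hp, deg_out ht _ hp, e2, h2]
      congr 1
      refine sum_congr rfl fun q _ => ?_
      split_ifs with hq
      · exact ad_congr (Kg_iff.1 e1 p q hp hq)
      · rfl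
    · obtain ⟨i, hi⟩ := not_forall.1 hp
      obtain rfl := not_not.1 hi
      have a := deg_in ht G.1 i
      have b := deg_in ht (buildG t ht G.1 R) i
      rw [e2, h1, h2] at b
      rw [G.deg] at a
      omega

lemma key_kap {t : Fin 3 → Fin n} (ht : Function.Injective t) (i : Fin 3) :
    E ((threeStr (d := d) ht).key i) = E (kap (t (i + 1)) (t (i + 2))) := by
  apply E_congr_key
  intro G H
  rw [ThreeStr.key_iff, kap_iff]
  have n1 : t i ≠ t (i + 1) := fun h => f3c i (ht h)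
  have n2 : t i ≠ t (i + 2) := fun h => f3d i (ht h)
  have hout : ∀ p, Out t p ∨ p = t i ∨ p = t (i + 1) ∨ p = t (i + 2) := by
    intro p
    by_cases hp : Out t p
    · exact Or.inl hp
    · obtain ⟨j, hj⟩ := not_forall.1 hp
      obtain rfl := not_not.1 hj
      have : j = i ∨ j = i + 1 ∨ j = i + 2 := by clear hj hp n1 n2; revert i j; decide
      rcases this with rfl | rfl | rfl <;> simp
  constructor
  · rintro ⟨hK, hR⟩ p q hpq
    refine adj_eq_of_rows hK i hR ?_
    have a1 := hout p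
    have a2 := hout q
    have b1 : Out t p → p ≠ t (i + 1) ∧ p ≠ t (i + 2) := fun h => ⟨h _, h _⟩
    have b2 : Out t q → q ≠ t (i + 1) ∧ q ≠ t (i + 2) := fun h => ⟨h _, h _⟩
    grind
  · intro h
    refine ⟨Kg_iff.2 fun p q hp hq => h p q (by simp [hp _, hq _]), ?_⟩
    ext z
    change z ∈ Rg t H.1 i ↔ z ∈ Rg t G.1 i
    rw [mem_Rg, mem_Rg]
    cases z with
    | none => exact not_congr (h _ _ (by simp))
    | some x => exact and_congr_right fun hx => h _ _ (by simp [n1, n2, hx _])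

theorem graph_three {u v w : Fin n} (huv : u ≠ v) (huw : u ≠ w) (hvw : v ≠ w)
    (f : Omega n d → ℝ) :
    0 ≤ ip (Q (kap u v) f) (Q (kap u w) f) + ip (Q (kap v w) f) (Q (kap v u) f) +
      ip (Q (kap w u) f) (Q (kap w v) f) := by
  have ht : Function.Injective ![u, v, w] := by
    intro i j
    fin_cases i <;> fin_cases j <;> simp [huv, huw, hvw, huv.symm, huw.symm, hvw.symm]
  have h := (threeStr (d := d) ht).three f
  have q : ∀ i, Q ((threeStr (d := d) ht).key i) f = Q (kap (![u, v, w] (i + 1)) (![u, v, w] (i + 2))) f := by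
    intro i; unfold Q; rw [key_kap]
  simp only [q, Fin.sum_univ_three] at h
  change ip f (Q (kap v w) f + Q (kap w u) f + Q (kap u v) f) ≤
    ip (Q (kap v w) f + Q (kap w u) f + Q (kap u v) f)
      (Q (kap v w) f + Q (kap w u) f + Q (kap u v) f) at h
  simp only [ip_add_left, ip_add_right, ip_Q_Q] at h
  have s1 : (kap u w : Omega n d → _) = kap w u := funext (kap_swap u w)
  have s2 : (kap v u : Omega n d → _) = kap u v := funext (kap_swap v u)
  have s3 : (kap w v : Omega n d → _) = kap v w := funext (kap_swap w v)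
  rw [s1, s2, s3]
  have c1 := ip_comm (Q (kap v w) f) (Q (kap w u) f)
  have c2 := ip_comm (Q (kap v w) f) (Q (kap u v) f)
  have c3 := ip_comm (Q (kap w u) f) (Q (kap u v) f)
  linarith

end Vale.Agent.P335
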