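import Vale.Agent.P335.GraphDisj
import Vale.Agent.P335.GraphThree
import Vale.Agent.P335.Conn

/-! The Bochner inequality and the Poincare inequality for switches. -/

namespace Vale.Agent.P335

open Finset
open scoped Classical

variable {n : ℕ} {d : Fin n → ℕ}

noncomputable def Qp (u v : Fin n) (f : Omega n d → ℝ) : Omega n d → ℝ :=
  if u = v then 0 else Q (kap u v) f

noncomputable def L (f : Omega n d → ℝ) : Omega n d → ℝ := ∑ u, ∑ v, Qp u v f

lemma Qp_swap (u v : Fin n) (f : Omega n d → ℝ) : Qp u v f = Qp v u f := by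
  unfold Qp
  rw [show (kap u v : Omega n d → _) = kap v u from funext (kap_swap u v)]
  simp only [eq_comm]

lemma Qp_symm (u v : Fin n) (f g : Omega n d → ℝ) : ip (Qp u v f) g = ip f (Qp u v g) := by
  unfold Qp; split_ifs
  · simp
  · exact Q_symm _ _ _

lemma ip_Qp_Qp (u v : Fin n) (f : Omega n d → ℝ) : ip (Qp u v f) (Qp u v f) = ip f (Qp u v f) := by
  unfold Qp; split_ifs
  · simp
  · exact ip_Q_Q _ _ _

lemma ip_Qp_nonneg (u v : Fin n) (f : Omega n d → ℝ) : 0 ≤ ip f (Qp u v f) := by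
  rw [← ip_Qp_Qp]; exact ip_self_nonneg _

lemma L_symm (f g : Omega n d → ℝ) : ip (L f) g = ip f (L g) := by
  simp only [L, ip_sum_left, ip_sum_right, Qp_symm]

lemma ip_L (f : Omega n d → ℝ) : ip f (L f) = ∑ u, ∑ v, ip f (Qp u v f) := by
  simp only [L, ip_sum_right]

noncomputable def tauP (u v x y : Fin n) (G : Omega n d) : Omega n d :=
  if h : u ≠ v then tau h x y G else G

noncomputable def aa (u v x y : Fin n) (f : Omega n d → ℝ) : ℝ :=
  ∑ G, ((f G - f (tauP u v x y G)) / 2) ^ 2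

noncomputable def ww (u v x y : Fin n) (f : Omega n d → ℝ) : ℝ :=
  if h : u ≠ v then
    ip ((pairStr h).W x y (Q (kap u v) f)) ((pairStr h).W x y (Q (kap u v) f)) else 0

lemma aa_eq {u v : Fin n} (h : u ≠ v) (x y : Fin n) (f : Omega n d → ℝ) :
    aa u v x y f = ip ((pairStr h).A x y f) ((pairStr h).A x y f) := by
  unfold aa tauP ip
  simp only [dif_pos h, sq]
  rfl

lemma ww_nonneg (u v x y : Fin n) (f : Omega n d → ℝ) : 0 ≤ ww u v x y f := by
  unfold ww; split_ifs
  · exact ip_self_nonneg _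
  · exact le_rfl

lemma not_diff {u v x y : Fin n} (h : u ≠ v) (hD : ¬ Dist u v x y) (G : Omega n d) :
    ¬ (pairStr h).diff G x y := by
  rintro ⟨h1, h2, h3⟩
  exact hD (dist_of_Dp h h1 h2 (by rintro rfl; exact h3 Iff.rfl))

lemma tauP_of_not_dist {u v x y : Fin n} (hD : ¬ Dist u v x y) (G : Omega n d) :
    tauP u v x y G = G := by
  unfold tauP
  split_ifs with h
  · exact (pairStr h).τ_of_not_diff (not_diff h hD G)
  · rfl

lemma aa_of_not_dist {u v x y : Fin n} (hD : ¬ Dist u v x y) (f : Omega n d → ℝ) :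
    aa u v x y f = 0 := by
  simp [aa, tauP_of_not_dist hD]

lemma ww_of_not_dist {u v x y : Fin n} (hD : ¬ Dist u v x y) (f : Omega n d → ℝ) :
    ww u v x y f = 0 := by
  unfold ww
  split_ifs with h
  · have : (pairStr h).W x y (Q (kap u v) f) = 0 := by
      funext G; simp [PairStr.W, not_diff h hD G]
    rw [this]; simp
  · rfl

lemma johnson_graph (u v : Fin n) (f : Omega n d → ℝ) :
    2 * ip f (Qp u v f) ≤ ∑ x, ∑ y, (aa u v x y f - ww u v x y f) := by
  by_cases h : u = v
  · have : ∀ x y, ¬ Dist u v x y := fun x y hd => hd.uv h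
    simp [Qp, h, aa_of_not_dist (h ▸ this _ _), ww_of_not_dist (h ▸ this _ _)]
  · have := (pairStr (d := d) h).johnson f
    simp only [sum_sub_distrib, aa_eq h, ww, dif_pos (show u ≠ v from h), Qp, if_neg h]
    change _ + 2 * ip f (Q (kap u v) f) ≤ _ at this
    have e : ∀ x y, (pairStr (d := d) h).W x y (Q (pairStr (d := d) h).κ f) =
      (pairStr h).W x y (Q (kap u v) f) := fun _ _ => rfl
    simp only [e] at this
    linarith

lemma disj_term (u v x y : Fin n) (f : Omega n d → ℝ) :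
    aa u v x y f - (ww u v x y f + ww x y u v f) / 2 ≤
      if Dist u v x y then ip (Qp u v f) (Qp x y f) else 0 := by
  split_ifs with h
  · have := graph_disj h f
    simp only [aa_eq h.uv, ww, dif_pos h.uv, dif_pos h.xy, Qp, if_neg h.uv, if_neg h.xy]
    exact this
  · rw [aa_of_not_dist h, ww_of_not_dist h, ww_of_not_dist (fun h' => h h'.flip)]; simp

lemma sum4_flip (F : Fin n → Fin n → Fin n → Fin n → ℝ) :
    ∑ u, ∑ v, ∑ x, ∑ y, F x y u v = ∑ u, ∑ v, ∑ x, ∑ y, F u v x y := by
  simp only [← Fintype.sum_prod_type']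
  have := Fintype.sum_prod_type_right' (fun (a : Fin n × Fin n) (b : Fin n × Fin n) => F a.1 a.2 b.1 b.2)
  have h2 := Fintype.sum_prod_type' (fun (a : Fin n × Fin n) (b : Fin n × Fin n) => F a.1 a.2 b.1 b.2)
  rw [h2] at this
  simp only [Fintype.sum_prod_type] at this ⊢
  exact this.symm

lemma disj_sum (f : Omega n d → ℝ) :
    2 * ip f (L f) ≤ ∑ u, ∑ v, ∑ x, ∑ y, if Dist u v x y then ip (Qp u v f) (Qp x y f) else 0 := by
  refine le_trans ?_ (sum_le_sum fun u _ => sum_le_sum fun v _ => sum_le_sum fun x _ =>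
    sum_le_sum fun y _ => disj_term u v x y f)
  have h1 := sum4_flip (fun u v x y => ww u v x y f)
  have h2 : 2 * ip f (L f) ≤ ∑ u, ∑ v, ∑ x, ∑ y, (aa u v x y f - ww u v x y f) := by
    rw [ip_L, mul_sum]
    refine sum_le_sum fun u _ => ?_
    rw [mul_sum]
    exact sum_le_sum fun v _ => johnson_graph u v f
  simp only [sum_sub_distrib, ← sum_div, sum_add_distrib] at h2 ⊢
  linarith

noncomputable def cen (f : Omega n d → ℝ) (u v w : Fin n) : ℝ :=
  if v = w then 0 else ip (Qp u v f) (Qp u w f)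

lemma cen_sum (f : Omega n d → ℝ) : 0 ≤ ∑ u, ∑ v, ∑ w, cen f u v w := by
  have h1 : ∑ u, ∑ v, ∑ w, cen f v w u = ∑ u, ∑ v, ∑ w, cen f u v w := by
    rw [sum_comm]
    exact sum_congr rfl fun v _ => sum_comm
  have h2 : ∑ u, ∑ v, ∑ w, cen f w v u = ∑ u, ∑ v, ∑ w, cen f u v w := by
    rw [← h1]
    exact sum_congr rfl fun v _ => sum_comm
  have h3 : 0 ≤ ∑ u, ∑ v, ∑ w, (cen f u v w + cen f v w u + cen f w v u) := by
    refine sum_nonneg fun u _ => sum_nonneg fun v _ => sum_nonneg fun w _ => ?_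
    by_cases huv : u = v
    · subst huv; simp [cen, Qp]
    by_cases huw : u = w
    · subst huw; simp [cen, Qp]
    by_cases hvw : v = w
    · subst hvw; simp [cen, Qp]
    have := graph_three huv huw hvw f
    simp only [cen, Qp, if_neg huv, if_neg huw, if_neg hvw, if_neg (Ne.symm huv),
      if_neg (Ne.symm huw), if_neg (Ne.symm hvw)]
    rw [ip_comm (Q (kap w v) f)]
    exact this
  simp only [sum_add_distrib] at h3
  linarith

lemma expand (u v : Fin n) (f : Omega n d → ℝ) :
    ∑ x, ∑ y, ip (Qp u v f) (Qp x y f) = 2 * ip f (Qp u v f) + 2 * ∑ w, cen f u v w +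
      2 * ∑ w, cen f v u w + ∑ x, ∑ y, if Dist u v x y then ip (Qp u v f) (Qp x y f) else 0 := by
  by_cases h : u = v
  · subst h; simp [cen, Qp]
  have z : ∀ x, Qp x x f = 0 := fun x => by simp [Qp]
  have e1 : ∀ x y, ip (Qp u v f) (Qp x y f) =
      (if x = u then if y = v then ip f (Qp u v f) else 0 else 0) +
      (if x = v then if y = u then ip f (Qp u v f) else 0 else 0) +
      (if x = u then cen f u v y else 0) + (if y = u then cen f u v x else 0) +
      (if x = v then cen f v u y else 0) + (if y = v then cen f v u x else 0) +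
      if Dist u v x y then ip (Qp u v f) (Qp x y f) else 0 := by
    intro x y
    have h' : ¬ v = u := fun e => h e.symm
    by_cases a1 : x = u
    · subst a1
      have nd : ¬ Dist x v x y := fun hd => hd.ux rfl
      by_cases a2 : y = v
      · subst a2; simp [cen, h, h', nd, ip_Qp_Qp]
      by_cases a3 : y = x
      · subst a3; simp [cen, h, h', nd, z]
      simp [cen, h, nd, a2, a3, Ne.symm a2]
    by_cases a4 : x = v
    · subst a4
      have nd : ¬ Dist u x x y := fun hd => hd.vx rfl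
      by_cases a2 : y = u
      · subst a2; simp [cen, h, h', nd, Qp_swap x y, ip_Qp_Qp]
      by_cases a3 : y = x
      · subst a3; simp [cen, h, h', nd, z]
      simp [cen, h', nd, a2, a3, Ne.symm a2, Qp_swap x u]
    by_cases a5 : y = u
    · subst a5
      have nd : ¬ Dist y v x y := fun hd => hd.uy rfl
      simp [cen, h, nd, a1, a4, Ne.symm a4, Qp_swap x y]
    by_cases a6 : y = v
    · subst a6
      have nd : ¬ Dist u y x y := fun hd => hd.vy rfl
      simp [cen, h', nd, a1, a4, Ne.symm a1, Qp_swap x y, Qp_swap y u]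
    by_cases a7 : x = y
    · subst a7; simp [a1, a4, z]
    have hd : Dist u v x y := ⟨h, Ne.symm a1, Ne.symm a5, Ne.symm a4, Ne.symm a6, a7⟩
    simp [a1, a4, a5, a6, hd]
  rw [sum_congr rfl fun x _ => sum_congr rfl fun y _ => e1 x y]
  simp only [sum_add_distrib, sum_ite_irrel, sum_ite_eq', mem_univ, if_true, sum_const_zero]
  ring

theorem bochner (f : Omega n d → ℝ) : 4 * ip f (L f) ≤ ip (L f) (L f) := by
  have h1 : ip (L f) (L f) = ∑ u, ∑ v, ∑ x, ∑ y, ip (Qp u v f) (Qp x y f) := by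
    conv_lhs => rw [L, ip_sum_left]
    refine sum_congr rfl fun u _ => ?_
    rw [ip_sum_left]
    refine sum_congr rfl fun v _ => ?_
    simp only [ip_sum_right]
  have h2 := disj_sum f
  have h3 := cen_sum f
  have h4 : ∑ u, ∑ v, ∑ w, cen f v u w = ∑ u, ∑ v, ∑ w, cen f u v w := sum_comm
  rw [h1]
  simp only [expand, sum_add_distrib, ← mul_sum, ← ip_L]
  linarith

theorem poincare (f : Omega n d → ℝ) (hf : ∑ G, f G = 0) :
    8 * ip f f ≤ ∑ u, ∑ v, ∑ x, ∑ y, aa u v x y f := by
  have h0 : ∀ f : Omega n d → ℝ, 0 ≤ ip f (L f) := fun f => by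
    rw [ip_L]; exact sum_nonneg fun u _ => sum_nonneg fun v _ => ip_Qp_nonneg u v f
  have h1 := gap_of_bochner L L_symm 4 h0 bochner (by
    intro g hg
    apply connected
    intro u v huv
    have a1 : ∑ u, ∑ v, ip g (Qp u v g) = 0 := by rw [← ip_L, hg]; simp
    have a2 := (sum_eq_zero_iff_of_nonneg
      (fun u _ => sum_nonneg fun v _ => ip_Qp_nonneg u v g)).1 a1 u (mem_univ _)
    have a3 := (sum_eq_zero_iff_of_nonneg (fun v _ => ip_Qp_nonneg u v g)).1 a2 v (mem_univ _)
    rw [← ip_Qp_Qp] at a3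
    have a4 := eq_zero_of_ip_self a3
    rw [Qp, if_neg huv, Q, sub_eq_zero] at a4
    rw [a4]; exact meas_E _ _) f hf
  have h2 : 2 * ip f (L f) ≤ ∑ u, ∑ v, ∑ x, ∑ y, aa u v x y f := by
    rw [ip_L, mul_sum]
    refine sum_le_sum fun u _ => ?_
    rw [mul_sum]
    refine sum_le_sum fun v _ => (johnson_graph u v f).trans ?_
    exact sum_le_sum fun x _ => sum_le_sum fun y _ => by linarith [ww_nonneg u v x y f]
  linarith

end Vale.Agent.P335
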