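import Vale.Agent.P335.Spec
import Mathlib.Algebra.Order.Chebyshev

/-! From a Poincare inequality to total variation mixing for a lazy symmetric chain. -/

namespace Vale.Agent.P335

open Finset
open scoped Classical

variable {Ω : Type*} [Fintype Ω]

theorem markov_bound (K P : Matrix Ω Ω ℝ) (hP : ∀ G H, P G H = (1 / 2) * (if G = H then 1 else 0) +
      (1 / 2) * K G H)
    (hs : ∀ G H, K G H = K H G) (h0 : ∀ G H, 0 ≤ K G H) (h1 : ∀ G, ∑ H, K G H = 1) (γ : ℝ)
    (hγ : γ ≤ 1)
    (hgap : ∀ f : Ω → ℝ, ∑ G, f G = 0 → γ * ip f f ≤ (1 / 4) * ∑ G, ∑ H, K G H * (f G - f H) ^ 2)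
    (t : ℕ) (G : Ω) :
    (∑ H, |(P ^ t) G H - 1 / (Fintype.card Ω : ℝ)|) ^ 2 ≤ Fintype.card Ω * (1 - γ) ^ (2 * t) := by
  have hN : (0 : ℝ) < Fintype.card Ω := by
    exact_mod_cast Fintype.card_pos_iff.2 ⟨G⟩
  set N : ℝ := (Fintype.card Ω : ℝ) with hNdef
  have h1' : ∀ H, ∑ G, K G H = 1 := fun H => by simp only [hs _ H, h1]
  have Ps : ∀ G H, P G H = P H G := fun G H => by rw [hP, hP, hs G H]; simp only [eq_comm]
  have Pm : ∀ f : Ω → ℝ, ∀ G, P.mulVec f G = (1 / 2) * f G + (1 / 2) * ∑ H, K G H * f H := by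
    intro f G
    simp only [Matrix.mulVec, dotProduct, hP, add_mul, sum_add_distrib, mul_assoc, ← mul_sum]
    simp
  have quad : ∀ (f : Ω → ℝ) (ε : ℝ), ε ^ 2 = 1 → ∑ G, ∑ H, K G H * (f G + ε * f H) ^ 2 =
      2 * ip f f + 2 * ε * ∑ G, f G * ∑ H, K G H * f H := by
    intro f ε hε
    have e : ∀ G H, K G H * (f G + ε * f H) ^ 2 =
        K G H * (f G * f G) + K G H * (f H * f H) + 2 * ε * (f G * (K G H * f H)) := by
      intro G H
      have : (f G + ε * f H) ^ 2 = f G * f G + ε ^ 2 * (f H * f H) + 2 * ε * (f G * f H) := by ring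
      rw [this, hε]; ring
    simp only [e, sum_add_distrib, ← mul_sum, ← sum_mul, h1, one_mul]
    rw [sum_comm (f := fun G H => K G H * (f H * f H))]
    simp only [← sum_mul, h1', one_mul, ip]
    ring
  have ipP : ∀ f : Ω → ℝ, ip f (P.mulVec f) =
      (1 / 2) * ip f f + (1 / 2) * ∑ G, f G * ∑ H, K G H * f H := by
    intro f
    simp only [ip, Pm, mul_add, sum_add_distrib, mul_sum]
    congr 1
    · exact sum_congr rfl fun _ _ => by ring
    · exact sum_congr rfl fun _ _ => sum_congr rfl fun _ _ => by ring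
  have Psym : ∀ f g : Ω → ℝ, ip (P.mulVec f) g = ip f (P.mulVec g) := by
    intro f g
    simp only [ip, Matrix.mulVec, dotProduct, sum_mul, mul_sum]
    rw [sum_comm]
    exact sum_congr rfl fun a _ => sum_congr rfl fun b _ => by rw [Ps b a]; ring
  have Pc : ∀ c : ℝ, P.mulVec (fun _ => c) = fun _ => c := by
    intro c; funext G; rw [Pm, ← sum_mul, h1]; ring
  have ipc : ∀ (f : Ω → ℝ) (c : ℝ), ip f (fun _ => c) = (∑ G, f G) * c := by
    intro f c; simp only [ip, sum_mul]
  let T : (Ω → ℝ) → (Ω → ℝ) := fun f => P.mulVec f - fun _ => (∑ G, f G) / N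
  have Tsym : ∀ f g, ip (T f) g = ip f (T g) := by
    intro f g
    simp only [T, ip_sub_left, ip_sub_right, Psym]
    rw [ip_comm (fun _ => _) g, ipc, ipc]; ring
  have Tform : ∀ f : Ω → ℝ, ∃ f0 : Ω → ℝ, ∑ G, f0 G = 0 ∧ ip f (T f) = ip f0 (P.mulVec f0) ∧
      ip f0 f0 ≤ ip f f := by
    intro f
    refine ⟨f - fun _ => (∑ G, f G) / N, ?_, ?_, ?_⟩
    · simp only [Pi.sub_apply, sum_sub_distrib, sum_const, card_univ, nsmul_eq_mul]
      rw [← hNdef]; field_simp; ring
    · simp only [T, Matrix.mulVec_sub, ip_sub_left, ip_sub_right, Pc]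
      rw [← Psym (fun _ => (∑ G, f G) / N) f, Pc, ip_comm (fun _ => (∑ G, f G) / N) f, ipc, ipc]
      simp only [sum_const, card_univ, nsmul_eq_mul]
      rw [← hNdef]; field_simp; ring
    · simp only [ip_sub_left, ip_sub_right]
      rw [ip_comm (fun _ => (∑ G, f G) / N) f, ipc, ipc]
      simp only [sum_const, card_univ, nsmul_eq_mul]
      rw [← hNdef]
      have : (∑ G, f G) * ((∑ G, f G) / N) = N * ((∑ G, f G) / N) * ((∑ G, f G) / N) := by
        field_simp
      have h2 : 0 ≤ N * ((∑ G, f G) / N) * ((∑ G, f G) / N) := by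
        rw [mul_assoc]; exact mul_nonneg hN.le (mul_self_nonneg _)
      linarith
  have contr := contraction_of_form T Tsym (1 - γ) (by
      intro f
      obtain ⟨f0, -, a2, -⟩ := Tform f
      rw [a2, ipP]
      have q := quad f0 1 (by norm_num)
      have : 0 ≤ ∑ G, ∑ H, K G H * (f0 G + 1 * f0 H) ^ 2 :=
        sum_nonneg fun G _ => sum_nonneg fun H _ => mul_nonneg (h0 G H) (sq_nonneg _)
      linarith) (by
      intro f
      obtain ⟨f0, a1, a2, a3⟩ := Tform f
      rw [a2, ipP]
      have q := quad f0 (-1) (by norm_num)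
      have g := hgap f0 a1
      simp only [neg_mul, one_mul, ← sub_eq_add_neg] at q
      have : (1 - γ) * ip f0 f0 ≤ (1 - γ) * ip f f := mul_le_mul_of_nonneg_left a3 (by linarith)
      linarith)
  have main : ∀ t : ℕ, ∑ H, ((P ^ t) G H - 1 / N) = 0 ∧
      ip (fun H => (P ^ t) G H - 1 / N) (fun H => (P ^ t) G H - 1 / N) ≤ (1 - γ) ^ (2 * t) := by
    intro t
    induction t with
    | zero =>
      have e : ∑ H, ((P ^ 0) G H - 1 / N) = 0 := by
        simp only [pow_zero, sum_sub_distrib, Matrix.one_apply, sum_ite_eq, mem_univ, if_true,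
          sum_const, card_univ, nsmul_eq_mul]
        rw [← hNdef]; field_simp; ring
      refine ⟨e, ?_⟩
      have : ip (fun H => (P ^ 0) G H - 1 / N) (fun H => (P ^ 0) G H - 1 / N) =
          ∑ H, (if G = H then ((P ^ 0) G H - 1 / N) else 0) -
            (∑ H, ((P ^ 0) G H - 1 / N)) * (1 / N) := by
        rw [sum_mul, ← sum_sub_distrib]
        refine sum_congr rfl fun H _ => ?_
        simp only [pow_zero, Matrix.one_apply]
        split_ifs <;> ring
      rw [this, e]
      simp only [sum_ite_eq, mem_univ, if_true, pow_zero, Matrix.one_apply_eq, mul_zero]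
      have : 0 < 1 / N := by positivity
      linarith
    | succ t ih =>
      have e : (fun H => (P ^ (t + 1)) G H - 1 / N) = T (fun H => (P ^ t) G H - 1 / N) := by
        simp only [T, ih.1, zero_div]
        rw [show (fun H => (P ^ t) G H - 1 / N) = (fun H => (P ^ t) G H) - fun _ => 1 / N from rfl,
          Matrix.mulVec_sub, Pc]
        funext H
        simp only [Pi.sub_apply, sub_zero, pow_succ, Matrix.mul_apply, Matrix.mulVec, dotProduct]
        congr 1
        exact sum_congr rfl fun a _ => by rw [Ps a H]; ring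
      constructor
      · have := Tsym (fun H => (P ^ t) G H - 1 / N) (fun _ => 1)
        rw [← e, ipc] at this
        simp only [T, Pc, ip_sub_right, ipc, ih.1] at this
        linarith
      · rw [e]
        refine (contr _).trans ?_
        rw [show 2 * (t + 1) = 2 + 2 * t by ring, pow_add]
        exact mul_le_mul_of_nonneg_left ih.2 (sq_nonneg _)
  refine (sq_sum_le_card_mul_sum_sq).trans ?_
  rw [card_univ]
  refine mul_le_mul_of_nonneg_left (le_trans (le_of_eq ?_) (main t).2) hN.le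
  exact sum_congr rfl fun H _ => by rw [sq_abs, sq]

end Vale.Agent.P335
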