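import Vale.Agent.P335.Bochner
import Vale.Agent.P335.Markov
import Mathlib.Data.Nat.Choose.Bounds
import Mathlib.Analysis.SpecialFunctions.Exp

/-! The switch chain mixes in at most `n ^ 6` steps. -/

namespace Vale.Agent.P335

open Finset
open scoped Classical

variable {n : ℕ} {d : Fin n → ℕ}

lemma PairStr.τ_comm {Ω β V : Type*} [Fintype V] [DecidableEq V] (p : PairStr Ω β V) (x y : V)
    (ω : Ω) : p.τ x y ω = p.τ y x ω := by
  by_cases hD : p.D ω x ∧ p.D ω y
  · apply p.inj _ _ (by rw [p.τ_key, p.τ_key])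
    intro z hz
    rw [p.D_τ] at hz
    rw [p.τ_S x y ω hD.1 hD.2 z hz, p.τ_S y x ω hD.2 hD.1 z hz, Equiv.swap_comm]
  · rw [p.τ_id x y ω hD, p.τ_id y x ω (fun h => hD h.symm)]

def FF (u v x y : Fin n) : Finset (Sym2 (Fin n)) := {s(u, x), s(v, y)}

lemma isPM_FF {u v x y : Fin n} (h : Dist u v x y) {S : Finset (Fin n)}
    (hS : ∀ t, t ∈ S ↔ t = u ∨ t = v ∨ t = x ∨ t = y) : IsPM S (FF u v x y) := by
  obtain ⟨h1, h2, h3, h4, h5, h6⟩ := h
  constructor
  · intro e he
    simp only [FF, mem_insert, mem_singleton] at he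
    rcases he with rfl | rfl
    · refine ⟨by simpa using h2, fun t ht => ?_⟩
      rw [hS]; simp only [Sym2.mem_iff] at ht; tauto
    · refine ⟨by simpa using h5, fun t ht => ?_⟩
      rw [hS]; simp only [Sym2.mem_iff] at ht; tauto
  · intro t ht
    rw [hS] at ht
    by_cases hc : t = u ∨ t = x
    · refine ⟨s(u, x), ⟨by simp [FF], by simpa using hc⟩, ?_⟩
      rintro e ⟨he, hte⟩
      simp only [FF, mem_insert, mem_singleton] at he
      rcases he with rfl | rfl
      · rfl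
      · simp only [Sym2.mem_iff] at hte; grind
    · refine ⟨s(v, y), ⟨by simp [FF], by simp only [Sym2.mem_iff]; tauto⟩, ?_⟩
      rintro e ⟨he, hte⟩
      simp only [FF, mem_insert, mem_singleton] at he
      rcases he with rfl | rfl
      · simp only [Sym2.mem_iff] at hte; exact absurd hte hc
      · rfl

lemma pm_partner {S : Finset (Fin n)} {F : Finset (Sym2 (Fin n))} (hF : IsPM S F) {a : Fin n}
    (ha : a ∈ S) : ∃ t, t ∈ S ∧ t ≠ a ∧ s(a, t) ∈ F := by
  obtain ⟨e, ⟨he, hae⟩, -⟩ := hF.2 a ha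
  obtain ⟨t, rfl⟩ := Sym2.mem_iff_exists.1 hae
  refine ⟨t, (hF.1 _ he).2 t (by simp), ?_, he⟩
  rintro rfl
  exact (hF.1 _ he).1 (by simp)

lemma pm_two {u v x y : Fin n} (h : Dist u v x y) {S : Finset (Fin n)}
    (hS : ∀ t, t ∈ S ↔ t = u ∨ t = v ∨ t = x ∨ t = y) {F : Finset (Sym2 (Fin n))}
    (hF : IsPM S F) (hux : s(u, x) ∈ F) : F = FF u v x y := by
  obtain ⟨h1, h2, h3, h4, h5, h6⟩ := h
  have uniq : ∀ t e e', e ∈ F → e' ∈ F → t ∈ e → t ∈ e' → e = e' := by
    intro t e e' a b c c'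
    exact (hF.2 t ((hF.1 e a).2 t c)).unique ⟨a, c⟩ ⟨b, c'⟩
  have hvy : s(v, y) ∈ F := by
    obtain ⟨t, t1, t2, t3⟩ := pm_partner hF ((hS v).2 (by simp))
    rw [hS] at t1
    rcases t1 with rfl | rfl | rfl | rfl
    · have := uniq t _ _ hux t3 (by simp) (by simp)
      simp only [Sym2.eq_iff] at this; grind
    · exact absurd rfl t2
    · have := uniq t _ _ hux t3 (by simp) (by simp)
      simp only [Sym2.eq_iff] at this; grind
    · exact t3
  ext e
  simp only [FF, mem_insert, mem_singleton]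
  constructor
  · intro he
    induction e using Sym2.ind with
    | _ a b =>
      have := (hS a).1 ((hF.1 _ he).2 a (by simp))
      rcases this with rfl | rfl | rfl | rfl
      · exact Or.inl (uniq a _ _ he hux (by simp) (by simp))
      · exact Or.inr (uniq a _ _ he hvy (by simp) (by simp))
      · exact Or.inl (uniq a _ _ he hux (by simp) (by simp))
      · exact Or.inr (uniq a _ _ he hvy (by simp) (by simp))
  · rintro (rfl | rfl)
    · exact hux
    · exact hvy

lemma mem_pmPairs {S : Finset (Fin n)} {p : Finset (Sym2 (Fin n)) × Finset (Sym2 (Fin n))} :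
    p ∈ pmPairs S ↔ IsPM S p.1 ∧ IsPM S p.2 ∧ p.1 ≠ p.2 := by
  simp only [pmPairs, mem_filter, mem_univ, true_and]

lemma FF_ne {u v x y : Fin n} (h : Dist u v x y) {v' x' y' : Fin n} (h' : Dist u v' x' y')
    (hx : x ≠ x') : FF u v x y ≠ FF u v' x' y' := by
  obtain ⟨h1, h2, h3, h4, h5, h6⟩ := h
  obtain ⟨k1, k2, k3, k4, k5, k6⟩ := h'
  intro e
  have : s(u, x) ∈ FF u v' x' y' := by rw [← e]; simp [FF]
  simp only [FF, mem_insert, mem_singleton, Sym2.eq_iff] at this
  grind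

lemma pm_struct {S : Finset (Fin n)} (hS : S.card = 4) : (pmPairs S).card = 6 ∧
    ∀ p ∈ pmPairs S, ∃ u v x y, Dist u v x y ∧ p.1 = FF u v x y ∧ p.2 = FF u v y x := by
  obtain ⟨a, b, c, e, h1, h2, h3, h4, h5, h6, rfl⟩ := card_eq_four.1 hS
  have D1 : Dist a c b e := ⟨h2, h1, h3, h4.symm, h6, h5⟩
  have D1' : Dist a e b c := ⟨h3, h1, h2, h5.symm, h6.symm, h4⟩
  have D2 : Dist a b c e := ⟨h1, h2, h3, h4, h5, h6⟩
  have D2' : Dist a e c b := ⟨h3, h2, h1, h6.symm, h5.symm, h4.symm⟩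
  have D3 : Dist a b e c := ⟨h1, h3, h2, h5, h4, h6.symm⟩
  have D3' : Dist a c e b := ⟨h2, h3, h1, h6, h4.symm, h5.symm⟩
  have key : ∀ F, IsPM {a, b, c, e} F ↔ F ∈ ({FF a c b e, FF a b c e, FF a b e c} : Finset _) := by
    intro F
    simp only [mem_insert, mem_singleton]
    constructor
    · intro hF
      obtain ⟨t, t1, t2, t3⟩ := pm_partner hF (a := a) (by simp)
      simp only [mem_insert, mem_singleton] at t1
      rcases t1 with rfl | rfl | rfl | rfl
      · exact absurd rfl t2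
      · exact Or.inl (pm_two D1 (by simp; tauto) hF t3)
      · exact Or.inr (Or.inl (pm_two D2 (by simp) hF t3))
      · exact Or.inr (Or.inr (pm_two D3 (by simp; tauto) hF t3))
    · rintro (rfl | rfl | rfl)
      · exact isPM_FF D1 (by simp; tauto)
      · exact isPM_FF D2 (by simp)
      · exact isPM_FF D3 (by simp; tauto)
  have n12 := FF_ne D1 D2 h4
  have n13 := FF_ne D1 D3 h5
  have n23 := FF_ne D2 D3 h6
  constructor
  · have : pmPairs {a, b, c, e} = ({FF a c b e, FF a b c e, FF a b e c} : Finset _).offDiag := by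
      ext p; rw [mem_pmPairs, mem_offDiag, key, key]
    rw [this, offDiag_card, card_eq_three.2 ⟨_, _, _, n12, n13, n23, rfl⟩]
  · rintro ⟨F, F'⟩ hp
    rw [mem_pmPairs, key, key] at hp
    simp only [mem_insert, mem_singleton] at hp
    have sw : ∀ u v x y : Fin n, FF u v x y = FF u y x v := by
      intro u v x y; unfold FF; rw [Sym2.eq_swap (a := v)]
    obtain ⟨rfl | rfl | rfl, rfl | rfl | rfl, hne⟩ := hp
    · exact absurd rfl hne
    · exact ⟨a, e, b, c, D1', sw _ _ _ _, sw _ _ _ _⟩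
    · exact ⟨a, c, b, e, D1, rfl, sw _ _ _ _⟩
    · exact ⟨a, e, c, b, D2', sw _ _ _ _, sw _ _ _ _⟩
    · exact absurd rfl hne
    · exact ⟨a, b, c, e, D2, rfl, rfl⟩
    · exact ⟨a, c, e, b, D3', sw _ _ _ _, rfl⟩
    · exact ⟨a, b, e, c, D3, rfl, rfl⟩
    · exact absurd rfl hne

def App (u v x y : Fin n) (G : Omega n d) : Prop :=
  G.1.Adj u x ∧ G.1.Adj v y ∧ ¬ G.1.Adj u y ∧ ¬ G.1.Adj v x

noncomputable def stp (u v x y : Fin n) (G : Omega n d) : Omega n d :=
  if App u v x y G then tauP u v x y G else G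

lemma switch_FF {u v x y : Fin n} (h : Dist u v x y) (G : Omega n d) :
    switch G.1 (FF u v x y) (FF u v y x) = (stp u v x y G).1 := by
  have hc : ((∀ e ∈ FF u v x y, e ∈ G.1.edgeSet) ∧ (∀ e ∈ FF u v y x, e ∉ G.1.edgeSet)) ↔
      App u v x y G := by
    simp [FF, App, and_assoc]
  unfold switch stp
  by_cases hA : App u v x y G
  · rw [if_pos (hc.2 hA), if_pos hA]
    obtain ⟨a1, a2, a3, a4⟩ := hA
    have hD : Dp u v G x ∧ Dp u v G y ∧ x ≠ y :=
      ⟨⟨h.ux.symm, h.vx.symm, by simp [a1, a4]⟩, ⟨h.uy.symm, h.vy.symm, by simp [a2, a3]⟩, h.xy⟩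
    unfold tauP
    rw [dif_pos h.uv, tau_adj h.uv hD]
    ext p q
    rw [mixG_adj, SimpleGraph.fromEdgeSet_adj]
    have w1 : Equiv.swap x y x = y := Equiv.swap_apply_left _ _
    have w2 : Equiv.swap x y y = x := Equiv.swap_apply_right _ _
    have s1 := G.1.adj_comm u x
    have s2 := G.1.adj_comm u y
    have s3 := G.1.adj_comm v x
    have s4 := G.1.adj_comm v y
    have s5 : G.1.Adj p q → p ≠ q := fun h => h.ne
    obtain ⟨h1, h2, h3, h4, h5, h6⟩ := h
    simp only [FF, coe_insert, coe_singleton, Set.mem_union, Set.mem_diff, SimpleGraph.mem_edgeSet,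
      Set.mem_insert_iff, Set.mem_singleton_iff, Sym2.eq_iff]
    grind
  · rw [if_neg (fun h => hA (hc.1 h)), if_neg hA]

lemma sum_switch {u v x y : Fin n} (h : Dist u v x y) (G : Omega n d) (F : Omega n d → ℝ) :
    ∑ H : Omega n d, (if switch G.1 (FF u v x y) (FF u v y x) = H.1 then F H else 0) =
      F (stp u v x y G) := by
  rw [switch_FF h]
  have : ∀ H : Omega n d, ((stp u v x y G).1 = H.1) ↔ (stp u v x y G = H) :=
    fun H => ⟨fun e => Subtype.ext e, fun e => by rw [e]⟩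
  simp only [this, sum_ite_eq, mem_univ, if_true]

lemma switch_rev {G H : SimpleGraph (Fin n)} {F F' : Finset (Sym2 (Fin n))}
    (hF' : ∀ e ∈ F', ¬ e.IsDiag) (hne : G ≠ H) (h : switch G F F' = H) : switch H F' F = G := by
  unfold switch at h
  split_ifs at h with hc
  · have hH : H.edgeSet = (G.edgeSet \ (F : Set _)) ∪ (F' : Set _) := by
      rw [← h, SimpleGraph.edgeSet_fromEdgeSet]
      ext e
      simp only [Set.mem_diff, Set.mem_union, mem_coe, Sym2.mem_diagSet]
      refine ⟨fun h => h.1, fun h => ⟨h, ?_⟩⟩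
      rcases h with h | h
      · exact G.not_isDiag_of_mem_edgeSet h.1
      · exact hF' e h
    unfold switch
    rw [if_pos, hH]
    · have : ((G.edgeSet \ (F : Set _)) ∪ (F' : Set _)) \ (F' : Set _) ∪ (F : Set _) = G.edgeSet := by
        ext e
        have a := hc.1 e
        have b := hc.2 e
        simp only [Set.mem_diff, Set.mem_union, mem_coe]
        tauto
      rw [this, SimpleGraph.fromEdgeSet_edgeSet]
    · rw [hH]
      refine ⟨fun e he => Or.inr he, fun e he h => ?_⟩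
      rcases h with h | h
      · exact h.2 he
      · exact hc.2 e h (hc.1 e he)
  · exact absurd h hne

noncomputable def Kmat (n : ℕ) (d : Fin n → ℕ) : Matrix (Omega n d) (Omega n d) ℝ :=
  Matrix.of fun G H => ∑ S ∈ powersetCard 4 (univ : Finset (Fin n)), (1 / (n.choose 4 : ℝ)) *
      ∑ p ∈ pmPairs S, (1 / 6) * (if switch G.1 p.1 p.2 = H.1 then 1 else 0)

lemma Kmat_symm (G H : Omega n d) : Kmat n d G H = Kmat n d H G := by
  by_cases hGH : G = H
  · rw [hGH]
  have hne : G.1 ≠ H.1 := fun e => hGH (Subtype.ext e)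
  simp only [Kmat, Matrix.of_apply]
  refine sum_congr rfl fun S _ => ?_
  congr 1
  refine sum_nbij' Prod.swap Prod.swap ?_ ?_ (by simp) (by simp) ?_
  · intro p hp; rw [mem_pmPairs] at hp ⊢; exact ⟨hp.2.1, hp.1, hp.2.2.symm⟩
  · intro p hp; rw [mem_pmPairs] at hp ⊢; exact ⟨hp.2.1, hp.1, hp.2.2.symm⟩
  · intro p hp
    rw [mem_pmPairs] at hp
    congr 2
    exact propext ⟨switch_rev (fun e he => (hp.2.1.1 e he).1) hne,
      switch_rev (fun e he => (hp.1.1 e he).1) hne.symm⟩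

lemma Kmat_nonneg (G H : Omega n d) : 0 ≤ Kmat n d G H := by
  simp only [Kmat, Matrix.of_apply]
  refine sum_nonneg fun S _ => mul_nonneg (by positivity) (sum_nonneg fun p _ => ?_)
  split_ifs <;> norm_num

lemma Kmat_row (hn : 4 ≤ n) (G : Omega n d) : ∑ H, Kmat n d G H = 1 := by
  have hC : (0 : ℝ) < n.choose 4 := by exact_mod_cast Nat.choose_pos hn
  simp only [Kmat, Matrix.of_apply]
  rw [sum_comm]
  have : ∀ S ∈ powersetCard 4 (univ : Finset (Fin n)), ∑ H : Omega n d, (1 / (n.choose 4 : ℝ)) *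
      ∑ p ∈ pmPairs S, (1 / 6 : ℝ) * (if switch G.1 p.1 p.2 = H.1 then 1 else 0) =
      1 / (n.choose 4 : ℝ) := by
    intro S hS
    obtain ⟨h6, hp⟩ := pm_struct (mem_powersetCard.1 hS).2
    rw [← mul_sum, sum_comm]
    have : ∀ p ∈ pmPairs S, ∑ H : Omega n d,
        (1 / 6 : ℝ) * (if switch G.1 p.1 p.2 = H.1 then 1 else 0) = 1 / 6 := by
      intro p hp'
      obtain ⟨u, v, x, y, hD, e1, e2⟩ := hp p hp'
      rw [← mul_sum, e1, e2, sum_switch hD G (fun _ => 1), mul_one]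
    rw [sum_congr rfl this, sum_const, h6]
    norm_num
  rw [sum_congr rfl this, sum_const, card_powersetCard, card_univ, Fintype.card_fin, nsmul_eq_mul]
  field_simp

noncomputable def Phi (f : Omega n d → ℝ) (p : Finset (Sym2 (Fin n)) × Finset (Sym2 (Fin n))) : ℝ :=
  ∑ G : Omega n d, ∑ H : Omega n d, if switch G.1 p.1 p.2 = H.1 then (f G - f H) ^ 2 else 0

lemma Phi_nonneg (f : Omega n d → ℝ) (p) : 0 ≤ Phi f p :=
  sum_nonneg fun _ _ => sum_nonneg fun _ _ => by split_ifs <;> positivity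

lemma dirichlet (f : Omega n d → ℝ) : ∑ G, ∑ H, Kmat n d G H * (f G - f H) ^ 2 =
    (1 / (6 * n.choose 4 : ℝ)) * ∑ S ∈ powersetCard 4 (univ : Finset (Fin n)),
      ∑ p ∈ pmPairs S, Phi f p := by
  simp only [Kmat, Matrix.of_apply, Phi, sum_mul, mul_sum]
  rw [sum_congr rfl fun G _ => sum_comm, sum_comm]
  refine sum_congr rfl fun S _ => ?_
  rw [sum_congr rfl fun G _ => sum_comm, sum_comm]
  refine sum_congr rfl fun p _ => sum_congr rfl fun G _ => sum_congr rfl fun H _ => ?_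
  split_ifs
  · ring
  · ring

lemma aa_Phi {u v x y : Fin n} (h : Dist u v x y) (f : Omega n d → ℝ) :
    aa u v x y f = (Phi f (FF u v x y, FF u v y x) + Phi f (FF u v y x, FF u v x y)) / 4 := by
  have h' : Dist u v y x := ⟨h.uv, h.uy, h.ux, h.vy, h.vx, h.xy.symm⟩
  unfold aa Phi
  rw [← sum_add_distrib, sum_div]
  refine sum_congr rfl fun G _ => ?_
  simp only
  rw [sum_switch h G (fun H => (f G - f H) ^ 2), sum_switch h' G (fun H => (f G - f H) ^ 2)]
  have hc : tauP u v y x G = tauP u v x y G := by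
    unfold tauP; rw [dif_pos h.uv, dif_pos h.uv]; exact (pairStr h.uv).τ_comm y x G
  unfold stp
  rw [hc]
  by_cases a1 : App u v x y G
  · have a2 : ¬ App u v y x G := fun a2 => a2.2.2.1 a1.1
    rw [if_pos a1, if_neg a2]; ring
  · by_cases a2 : App u v y x G
    · rw [if_neg a1, if_pos a2]; ring
    · rw [if_neg a1, if_neg a2]
      have : tauP u v x y G = G := by
        unfold tauP; rw [dif_pos h.uv]
        apply (pairStr h.uv).τ_of_not_diff
        rintro ⟨b1, b2, b3⟩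
        change ¬ (G.1.Adj u x ↔ G.1.Adj u y) at b3
        have c1 := b1.2.2
        have c2 := b2.2.2
        unfold App at a1 a2
        by_cases e1 : G.1.Adj u x <;> by_cases e2 : G.1.Adj u y <;> by_cases e3 : G.1.Adj v x <;>
          by_cases e4 : G.1.Adj v y <;> simp [e1, e2, e3, e4] at a1 a2 b3 c1 c2
      rw [this]; ring

lemma tuples_le (f : Omega n d → ℝ) :
    ∑ u, ∑ v, ∑ x, ∑ y, (if Dist u v x y then Phi f (FF u v x y, FF u v y x) else 0) ≤
      4 * ∑ S ∈ powersetCard 4 (univ : Finset (Fin n)), ∑ p ∈ pmPairs S, Phi f p := by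
  let T : Finset (Fin n × Fin n × Fin n × Fin n) := univ.filter fun q => Dist q.1 q.2.1 q.2.2.1 q.2.2.2
  let m : Fin n × Fin n × Fin n × Fin n →
      (Σ _ : Finset (Fin n), Finset (Sym2 (Fin n)) × Finset (Sym2 (Fin n))) :=
    fun q => ⟨{q.1, q.2.1, q.2.2.1, q.2.2.2},
      (FF q.1 q.2.1 q.2.2.1 q.2.2.2, FF q.1 q.2.1 q.2.2.2 q.2.2.1)⟩
  have e1 : ∑ u, ∑ v, ∑ x, ∑ y, (if Dist u v x y then Phi f (FF u v x y, FF u v y x) else 0) =
      ∑ q ∈ T, Phi f (m q).2 := by
    simp only [T, sum_filter, Fintype.sum_prod_type, m]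
  rw [e1, sum_sigma', ← sum_fiberwise_of_maps_to (s := T)
    (t := (powersetCard 4 (univ : Finset (Fin n))).sigma pmPairs) (g := m), mul_sum]
  · refine sum_le_sum fun s hs => ?_
    rw [sum_congr rfl (g := fun _ => Phi f s.2) (fun q hq => by rw [(mem_filter.1 hq).2]),
      sum_const, nsmul_eq_mul]
    refine mul_le_mul_of_nonneg_right ?_ (Phi_nonneg _ _)
    have h4 : s.1.card = 4 := (mem_powersetCard.1 (mem_sigma.1 hs).1).2
    have : (T.filter fun q => m q = s).card ≤ s.1.card := by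
      refine card_le_card_of_injOn (fun q => q.1) ?_ ?_
      · intro q hq
        rw [mem_coe, mem_filter] at hq
        rw [← hq.2]; simp [m]
      · rintro ⟨u, v, x, y⟩ hq ⟨u', v', x', y'⟩ hq' e
        simp only [coe_filter, T, mem_filter, mem_univ, true_and, Set.mem_setOf_eq] at hq hq' e
        subst e
        have e2 := hq.2.trans hq'.2.symm
        simp only [m, Sigma.mk.injEq, heq_eq_eq, Prod.mk.injEq] at e2
        obtain ⟨-, e3, e4⟩ := e2
        have D := hq.1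
        have D' := hq'.1
        have hx : x = x' := by
          by_contra hx; exact FF_ne D D' hx e3
        have hy : y = y' := by
          by_contra hy
          exact FF_ne ⟨D.uv, D.uy, D.ux, D.vy, D.vx, D.xy.symm⟩
            ⟨D'.uv, D'.uy, D'.ux, D'.vy, D'.vx, D'.xy.symm⟩ hy e4
        subst hx hy
        have : s(v, y) ∈ FF u v' x y := by rw [← e3]; simp [FF]
        obtain ⟨h1, h2, h3, h4, h5, h6⟩ := D
        simp only [FF, mem_insert, mem_singleton, Sym2.eq_iff] at this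
        have hv : v = v' := by grind
        rw [hv]
    rw [h4] at this
    exact_mod_cast this
  · rintro ⟨u, v, x, y⟩ hq
    have D : Dist u v x y := (mem_filter.1 hq).2
    have D' : Dist u v y x := ⟨D.uv, D.uy, D.ux, D.vy, D.vx, D.xy.symm⟩
    refine mem_sigma.2 ⟨mem_powersetCard.2 ⟨subset_univ _, ?_⟩, mem_pmPairs.2 ⟨?_, ?_, ?_⟩⟩
    · exact card_eq_four.2 ⟨u, v, x, y, D.uv, D.ux, D.uy, D.vx, D.vy, D.xy, rfl⟩
    · exact isPM_FF D (by simp [m])
    · exact isPM_FF D' (by simp [m]; tauto)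
    · exact FF_ne D D' D.xy

lemma gap (f : Omega n d → ℝ) (hf : ∑ G, f G = 0) :
    (1 / (6 * n.choose 4 : ℝ)) * ip f f ≤ (1 / 4) * ∑ G, ∑ H, Kmat n d G H * (f G - f H) ^ 2 := by
  have h1 := poincare f hf
  have h2 := tuples_le f
  have h3 : ∑ u, ∑ v, ∑ x, ∑ y, aa u v x y f = (1 / 2) *
      ∑ u, ∑ v, ∑ x, ∑ y, (if Dist u v x y then Phi f (FF u v x y, FF u v y x) else 0) := by
    have e : ∀ u v x y : Fin n, aa u v x y f =
        (if Dist u v x y then Phi f (FF u v x y, FF u v y x) else 0) / 4 +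
        (if Dist u v y x then Phi f (FF u v y x, FF u v x y) else 0) / 4 := by
      intro u v x y
      by_cases h : Dist u v x y
      · have h' : Dist u v y x := ⟨h.uv, h.uy, h.ux, h.vy, h.vx, h.xy.symm⟩
        rw [if_pos h, if_pos h', aa_Phi h]; ring
      · have h' : ¬ Dist u v y x := fun h' => h ⟨h'.uv, h'.uy, h'.ux, h'.vy, h'.vx, h'.xy.symm⟩
        rw [if_neg h, if_neg h', aa_of_not_dist h]; ring
    have e2 : ∀ u v : Fin n, ∑ x, ∑ y, (if Dist u v y x then Phi f (FF u v y x, FF u v x y) else 0) =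
        ∑ x, ∑ y, (if Dist u v x y then Phi f (FF u v x y, FF u v y x) else 0) :=
      fun u v => sum_comm
    simp only [e, sum_add_distrib, ← sum_div, e2]
    ring
  rw [dirichlet]
  have hc : (0 : ℝ) ≤ 1 / (6 * n.choose 4 : ℝ) := by positivity
  have : ip f f ≤ (1 / 4) * ∑ S ∈ powersetCard 4 (univ : Finset (Fin n)),
      ∑ p ∈ pmPairs S, Phi f p := by linarith
  nlinarith [mul_le_mul_of_nonneg_left this hc]

lemma card_Omega_le : Fintype.card (Omega n d) ≤ 2 ^ (n * n) := by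
  have : Fintype.card (Omega n d) ≤ Fintype.card (Fin n → Fin n → Prop) :=
    Fintype.card_le_of_injective (fun G => G.1.Adj) fun G H e => Subtype.ext (SimpleGraph.ext e)
  simpa [← pow_mul] using this

theorem tv_le (hn : 4 ≤ n) (t : ℕ) (ht : n ^ 6 ≤ t) (G : Omega n d) : tv n d t G ≤ 1 / 4 := by
  have hC : (1 : ℝ) ≤ n.choose 4 := by exact_mod_cast Nat.choose_pos hn
  set γ : ℝ := 1 / (6 * n.choose 4 : ℝ) with hγ
  have hγ1 : γ ≤ 1 := by rw [hγ, div_le_one (by linarith)]; linarith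
  have hγ0 : 0 ≤ γ := by positivity
  have h := markov_bound (Kmat n d) (P n d) (fun G H => rfl) Kmat_symm Kmat_nonneg
    (Kmat_row hn) γ hγ1 gap t G
  have hn4 : (1 : ℝ) ≤ (n : ℝ) ^ 4 * γ := by
    have := Nat.choose_le_pow_div (α := ℝ) 4 n
    norm_num [Nat.factorial] at this
    rw [hγ, mul_one_div, le_div_iff₀ (by linarith)]
    have : (0 : ℝ) ≤ (n : ℝ) ^ 4 := by positivity
    linarith
  have b1 : (1 - γ) ^ (n ^ 4) ≤ 1 / 2 := by
    have a1 : 1 + ((n ^ 4 : ℕ) : ℝ) * γ ≤ (1 + γ) ^ (n ^ 4) := one_add_mul_le_pow (by linarith) _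
    have a2 : (1 - γ) ^ (n ^ 4) * (1 + γ) ^ (n ^ 4) ≤ 1 := by
      rw [← mul_pow]
      exact pow_le_one₀ (by nlinarith) (by nlinarith)
    push_cast at a1
    have a3 : 0 ≤ (1 - γ) ^ (n ^ 4) := pow_nonneg (by linarith) _
    nlinarith
  have b2 : (1 - γ) ^ (2 * t) ≤ (1 / 2) ^ (2 * (n * n)) := by
    calc (1 - γ) ^ (2 * t) ≤ (1 - γ) ^ (n ^ 4 * (2 * (n * n))) := by
          apply pow_le_pow_of_le_one (by linarith) (by linarith)
          calc n ^ 4 * (2 * (n * n)) = 2 * n ^ 6 := by ring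
            _ ≤ 2 * t := by omega
      _ ≤ (1 / 2) ^ (2 * (n * n)) := by
          rw [pow_mul]; exact pow_le_pow_left₀ (pow_nonneg (by linarith) _) b1 _
  have b3 : (Fintype.card (Omega n d) : ℝ) ≤ 2 ^ (n * n) := by exact_mod_cast card_Omega_le
  have b4 : (2 : ℝ) ^ (n * n) * (1 / 2) ^ (2 * (n * n)) ≤ (1 / 2) ^ 2 := by
    rw [two_mul, pow_add, ← mul_assoc, ← mul_pow]
    norm_num
    calc ((1 : ℝ) / 2) ^ (n * n) ≤ (1 / 2) ^ 2 :=
          pow_le_pow_of_le_one (by norm_num) (by norm_num) (by nlinarith)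
      _ = 1 / 4 := by norm_num
  have b5 : (Fintype.card (Omega n d) : ℝ) * (1 - γ) ^ (2 * t) ≤ (1 / 2) ^ 2 :=
    le_trans (mul_le_mul b3 b2 (pow_nonneg (by linarith) _) (by positivity)) b4
  have b6 := abs_le_of_sq_le_sq' (h.trans b5) (by norm_num)
  unfold tv
  linarith [b6.2]

theorem tmix_le (hn : 4 ≤ n) : tmix n d ≤ ((n ^ 6 : ℕ) : ℕ∞) :=
  iInf₂_le_of_le (n ^ 6) (fun G => tv_le hn _ le_rfl G) le_rfl

end Vale.Agent.P335
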