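import Mathlib.Combinatorics.SimpleGraph.Finite
import Mathlib.Data.Matrix.Mul
import Mathlib.Data.Real.Basic
import Mathlib.Data.ENat.Lattice
import Mathlib.Algebra.BigOperators.Ring.Finset

/-! Definitions for the switch chain on simple graphs with a given degree vector. -/

namespace Vale.Agent.P335

open Finset
open scoped Classical

/-- The state space: labelled simple graphs on `Fin n` whose degree at each vertex `v` is `d v`. -/
def Omega (n : ℕ) (d : Fin n → ℕ) : Type :=
  {G : SimpleGraph (Fin n) // ∀ v, G.degree v = d v}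

noncomputable instance (n : ℕ) (d : Fin n → ℕ) : Fintype (Omega n d) :=
  inferInstanceAs (Fintype {G : SimpleGraph (Fin n) // ∀ v, G.degree v = d v})

/-- `F` is a perfect matching of the complete graph on the vertex set `S`: its members are
non-loop unordered pairs of vertices of `S`, and every vertex of `S` lies in exactly one member. -/
def IsPM {n : ℕ} (S : Finset (Fin n)) (F : Finset (Sym2 (Fin n))) : Prop :=
  (∀ e ∈ F, ¬ e.IsDiag ∧ ∀ v ∈ e, v ∈ S) ∧ ∀ v ∈ S, ∃! e, e ∈ F ∧ v ∈ e

/-- The ordered pairs `(F, F')` of distinct perfect matchings of the complete graph on `S`. -/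
noncomputable def pmPairs {n : ℕ} (S : Finset (Fin n)) :
    Finset (Finset (Sym2 (Fin n)) × Finset (Sym2 (Fin n))) :=
  univ.filter fun p => IsPM S p.1 ∧ IsPM S p.2 ∧ p.1 ≠ p.2

/-- The attempted switch: if all edges of `F` are present in `G` and all edges of `F'` are absent,
replace `F` by `F'`; otherwise keep `G`. -/
noncomputable def switch {n : ℕ} (G : SimpleGraph (Fin n)) (F F' : Finset (Sym2 (Fin n))) :
    SimpleGraph (Fin n) :=
  if (∀ e ∈ F, e ∈ G.edgeSet) ∧ (∀ e ∈ F', e ∉ G.edgeSet) then
    SimpleGraph.fromEdgeSet ((G.edgeSet \ (F : Set (Sym2 (Fin n)))) ∪ (F' : Set (Sym2 (Fin n))))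
  else G

/-- The transition matrix of the lazy switch chain: with probability `1/2` stay; otherwise choose a
uniform 4-element vertex set `S`, then one of the six ordered pairs `(F, F')` of distinct perfect
matchings on `S` uniformly, and attempt the switch. -/
noncomputable def P (n : ℕ) (d : Fin n → ℕ) : Matrix (Omega n d) (Omega n d) ℝ :=
  Matrix.of fun G H =>
    (1 / 2) * (if G = H then 1 else 0) +
    (1 / 2) * ∑ S ∈ powersetCard 4 (univ : Finset (Fin n)), (1 / (n.choose 4 : ℝ)) *
      ∑ p ∈ pmPairs S, (1 / 6) * (if switch G.1 p.1 p.2 = H.1 then 1 else 0)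

/-- Total variation distance between the law after `t` steps from `G` and the uniform law. -/
noncomputable def tv (n : ℕ) (d : Fin n → ℕ) (t : ℕ) (G : Omega n d) : ℝ :=
  (1 / 2) * ∑ H : Omega n d, |(P n d ^ t) G H - 1 / (Fintype.card (Omega n d) : ℝ)|

/-- The mixing time: the least `t` with total variation distance at most `1/4` from every start
(it would be `⊤` if there were no such `t`). -/
noncomputable def tmix (n : ℕ) (d : Fin n → ℕ) : ℕ∞ :=
  ⨅ (t : ℕ) (_ : ∀ G : Omega n d, tv n d t G ≤ 1 / 4), (t : ℕ∞)

end Vale.Agent.P335
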