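import Vale.Agent.P335.Spec

/-! The abstract inequality for two almost commuting averaging operators. -/

namespace Vale.Agent.P335

open Finset
open scoped Classical

variable {Ω : Type*} [Fintype Ω]

lemma ip_ext {a b : Ω → ℝ} (h : ∀ g, ip a g = ip b g) : a = b := by
  have : ip (a - b) (a - b) = 0 := by rw [ip_sub_left, h, sub_self]
  exact sub_eq_zero.1 (eq_zero_of_ip_self this)

lemma E_comm {β γ : Type*} {κ : Ω → β} {B : Ω → γ} (h : ∀ φ, Meas B φ → Meas B (E κ φ))
    (g : Ω → ℝ) : E B (E κ g) = E κ (E B g) := by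
  have h1 : ∀ g, E B (E κ (E B g)) = E κ (E B g) := fun g => E_of_meas (h _ (meas_E _ _))
  rw [← h1]
  apply ip_ext
  intro k
  rw [E_symm, E_symm, E_symm, E_symm, E_symm, h1]

lemma E_apply_of_const {β : Type*} {κ : Ω → β} {f : Ω → ℝ} {ω : Ω}
    (h : ∀ η, κ η = κ ω → f η = f ω) : E κ f ω = f ω := by
  unfold E
  rw [sum_congr rfl (fun η hη => h η (mem_cls.1 hη)), sum_const, nsmul_eq_mul]
  field_simp [(cls_card_pos κ ω).ne']

lemma block_le {β γ : Type*} {κ : Ω → β} {B : Ω → γ} {D : Ω → Prop}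
    (hD : ∀ ω η, B η = B ω → (D η ↔ D ω))
    (hW : ∀ ω η, D ω → D η → κ η = κ ω → B η = B ω) (g : Ω → ℝ) :
    ∑ ω, (if D ω then E B g ω * E B g ω else 0) ≤
      ip (fun ω => if D ω then E (fun η => (κ η, D η)) g ω else 0)
        (fun ω => if D ω then E (fun η => (κ η, D η)) g ω else 0) := by
  have gen : ∀ {δ : Type _} (k : Ω → δ), (∀ ω η, k η = k ω → (D η ↔ D ω)) →
      (fun ω => if D ω then E k g ω else 0) = E k (fun ω => if D ω then g ω else 0) := by
    intro δ k hk
    funext ω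
    unfold E
    split_ifs with h
    · congr 1
      refine sum_congr rfl fun η hη => ?_
      exact (if_pos ((hk ω η (mem_cls.1 hη)).2 h)).symm
    · rw [sum_eq_zero, zero_div]
      intro η hη
      exact if_neg (fun hc => h ((hk ω η (mem_cls.1 hη)).1 hc))
  have gen' : (fun ω => if D ω then E (fun η => (κ η, D η)) g ω else 0) =
      E (fun η => (κ η, D η)) (fun ω => if D ω then g ω else 0) := by
    funext ω
    unfold E
    split_ifs with h
    · congr 1
      refine sum_congr rfl fun η hη => ?_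
      have := (Prod.ext_iff.1 (mem_cls.1 hη)).2
      simp only at this
      exact (if_pos (this ▸ h)).symm
    · rw [sum_eq_zero, zero_div]
      intro η hη
      have := (Prod.ext_iff.1 (mem_cls.1 hη)).2
      simp only at this
      exact if_neg (this ▸ h)
  have h1 : E B (E (fun η => (κ η, D η)) (fun ω => if D ω then g ω else 0)) =
      E B (fun ω => if D ω then g ω else 0) := by
    apply ip_ext
    intro k
    rw [E_symm, E_symm, E_symm]
    unfold ip
    refine sum_congr rfl fun ω _ => ?_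
    by_cases h : D ω
    · congr 1
      apply E_apply_of_const
      intro η hη
      have := Prod.ext_iff.1 hη
      simp only at this
      exact meas_E _ _ _ _ (hW ω η h (this.2 ▸ h) this.1)
    · simp [h]
  rw [gen']
  refine le_trans (le_of_eq ?_) (ip_E_le B _)
  rw [h1, ← gen B hD]
  unfold ip
  refine sum_congr rfl fun ω _ => ?_
  by_cases h : D ω <;> simp [h]

theorem disj_ineq {βa βb γ : Type*} (κa : Ω → βa) (κb : Ω → βb) (B : Ω → γ) (D : Ω → Prop)
    (τ : Ω → Ω) (hτ : ∀ ω, τ (τ ω) = ω) (τa : ∀ ω, κa (τ ω) = κa ω) (τb : ∀ ω, κb (τ ω) = κb ω)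
    (τB : ∀ ω, B (τ ω) = B ω)
    (ha : ∀ φ, Meas B φ → Meas B (E κa φ)) (hb : ∀ φ, Meas B φ → Meas B (E κb φ))
    (hind : ∀ u v, Meas κa u → Meas κb v → ip u v = ip u (E B v))
    (hD : ∀ ω η, B η = B ω → (D η ↔ D ω))
    (hZ : ∀ ω, ¬ D ω → (∀ η, κa η = κa ω → B η = B ω) ∨ (∀ η, κb η = κb ω → B η = B ω))
    (hWa : ∀ ω η, D ω → D η → κa η = κa ω → B η = B ω)
    (hWb : ∀ ω η, D ω → D η → κb η = κb ω → B η = B ω) (f : Ω → ℝ) :
    ip (fun ω => (f ω - f (τ ω)) / 2) (fun ω => (f ω - f (τ ω)) / 2) -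
      (ip (fun ω => if D ω then E (fun η => (κa η, D η)) (Q κa f) ω else 0)
        (fun ω => if D ω then E (fun η => (κa η, D η)) (Q κa f) ω else 0) +
      ip (fun ω => if D ω then E (fun η => (κb η, D η)) (Q κb f) ω else 0)
        (fun ω => if D ω then E (fun η => (κb η, D η)) (Q κb f) ω else 0)) / 2 ≤
      ip (Q κa f) (Q κb f) := by
  set f0 := E B f with hf0
  set f1 := Q B f with hf1
  have hf : f = f1 + f0 := by simp [hf0, hf1, Q]
  have m0 : Meas B f0 := meas_E _ _
  have mQa : Meas B (Q κa f0) := fun ω η h => by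
    simp only [Q, Pi.sub_apply, m0 ω η h, ha f0 m0 ω η h]
  have mQb : Meas B (Q κb f0) := fun ω η h => by
    simp only [Q, Pi.sub_apply, m0 ω η h, hb f0 m0 ω η h]
  have za : E B (Q κa f1) = 0 := by
    rw [Q, E_sub, E_comm ha, hf1, E_Q]; simp
  have zb : E B (Q κb f1) = 0 := by
    rw [Q, E_sub, E_comm hb, hf1, E_Q]; simp
  have c1 : ip (Q κa f1) (Q κb f0) = 0 := by
    rw [← ip_E_meas _ mQb, za, ip_zero_left]
  have c2 : ip (Q κa f0) (Q κb f1) = 0 := by
    rw [ip_comm, ← ip_E_meas _ mQa, zb, ip_zero_left]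
  have huv : ip (E κa f1) (E κb f1) = 0 := by
    rw [hind _ _ (meas_E _ _) (meas_E _ _), E_comm hb, hf1, E_Q]; simp
  set e := f1 - E κa f1 - E κb f1 with he
  have c3 : ip (Q κa f1) (Q κb f1) = ip e e := by
    have a1 := ip_E_E κa f1 f1
    have a2 := ip_E_E κb f1 f1
    simp only [he, Q, ip_sub_left, ip_sub_right]
    rw [ip_comm (E κb f1) (E κa f1), ip_comm (E κa f1) f1, ip_comm (E κb f1) f1]
    linarith
  have c4 : ip (fun ω => (f ω - f (τ ω)) / 2) (fun ω => (f ω - f (τ ω)) / 2) ≤ ip e e := by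
    have a1 : (fun ω => (f ω - f (τ ω)) / 2) = (1 / 2 : ℝ) • (e - fun ω => e (τ ω)) := by
      funext ω
      have b1 := congrFun hf ω
      have b2 := congrFun hf (τ ω)
      simp only [he, Pi.smul_apply, Pi.sub_apply, Pi.add_apply, smul_eq_mul,
        meas_E κa f1 _ _ (τa ω), meas_E κb f1 _ _ (τb ω), m0 _ _ (τB ω)] at b1 b2 ⊢
      linarith
    have a2 := ip_self_nonneg (e + fun ω => e (τ ω))
    have a3 := ip_comp_self τ hτ e
    rw [a1]
    simp only [ip_smul_left, ip_smul_right, ip_sub_left, ip_sub_right, ip_add_left,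
      ip_add_right] at a2 ⊢
    linarith
  have qa : Q κa f0 = E B (Q κa f) := by
    conv_rhs => rw [hf, Q_add, E_add, za, zero_add, E_of_meas mQa]
  have qb : Q κb f0 = E B (Q κb f) := by
    conv_rhs => rw [hf, Q_add, E_add, zb, zero_add, E_of_meas mQb]
  have c5 := block_le hD hWa (Q κa f)
  have c6 := block_le hD hWb (Q κb f)
  rw [← qa] at c5
  rw [← qb] at c6
  have c7 : -((∑ ω, (if D ω then Q κa f0 ω * Q κa f0 ω else 0)) +
      ∑ ω, (if D ω then Q κb f0 ω * Q κb f0 ω else 0)) / 2 ≤ ip (Q κa f0) (Q κb f0) := by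
    unfold ip
    rw [← sum_add_distrib, ← sum_neg_distrib, sum_div]
    refine sum_le_sum fun ω _ => ?_
    by_cases h : D ω
    · simp only [if_pos h]
      nlinarith [mul_self_nonneg (Q κa f0 ω + Q κb f0 ω)]
    · simp only [if_neg h]
      rcases hZ ω h with h1 | h1
      · have : Q κa f0 ω = 0 := by
          simp only [Q, Pi.sub_apply]
          rw [E_apply_of_const (fun η hη => m0 ω η (h1 η hη)), sub_self]
        simp [this]
      · have : Q κb f0 ω = 0 := by
          simp only [Q, Pi.sub_apply]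
          rw [E_apply_of_const (fun η hη => m0 ω η (h1 η hη)), sub_self]
        simp [this]
  have c8 : ip (Q κa f) (Q κb f) = ip e e + ip (Q κa f0) (Q κb f0) := by
    conv_lhs => rw [hf, Q_add, Q_add, ip_add_left, ip_add_right, ip_add_right, c1, c2, c3]
    ring
  rw [c8]
  linarith

/-- Independence from an involution on pairs. -/
lemma indep_of_mix {βa βb γ : Type*} (κa : Ω → βa) (κb : Ω → βb) (B : Ω → γ) (mix : Ω → Ω → Ω)
    (h1 : ∀ ω η, B η = B ω → B (mix ω η) = B ω) (h2 : ∀ ω η, B η = B ω → κa (mix ω η) = κa η)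
    (h3 : ∀ ω η, B η = B ω → κb (mix ω η) = κb ω)
    (h4 : ∀ ω η, B η = B ω → mix (mix ω η) (mix η ω) = ω)
    (u v : Ω → ℝ) (hu : Meas κa u) (hv : Meas κb v) : ip u v = ip u (E B v) := by
  let Φ : Ω × Ω → Ω × Ω := fun q => if B q.2 = B q.1 then (mix q.1 q.2, mix q.2 q.1) else q
  have hΦ : Function.Involutive Φ := by
    rintro ⟨ω, η⟩
    by_cases h : B η = B ω
    · have a1 := h1 ω η h
      have a2 := h1 η ω h.symm
      simp only [Φ, if_pos h]
      rw [if_pos (by rw [a1, a2, h]), h4 ω η h, h4 η ω h.symm]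
    · simp only [Φ, if_neg h]
  have e1 : ip u v = ∑ q : Ω × Ω,
      if B q.2 = B q.1 then u q.1 * v q.1 / (cls B q.1).card else 0 := by
    rw [Fintype.sum_prod_type]
    unfold ip
    refine sum_congr rfl fun ω _ => ?_
    simp only
    rw [← sum_filter, sum_const, nsmul_eq_mul]
    change _ = ((cls B ω).card : ℝ) * _
    field_simp [(cls_card_pos B ω).ne']
  have e2 : ip u (E B v) = ∑ q : Ω × Ω,
      if B q.2 = B q.1 then u q.2 * v q.1 / (cls B q.1).card else 0 := by
    rw [Fintype.sum_prod_type_right]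
    unfold ip E
    refine sum_congr rfl fun η _ => ?_
    simp only
    rw [← sum_filter, sum_div, mul_sum]
    refine sum_congr (by ext ω; simp [cls, eq_comm]) fun ω hω => ?_
    have : B ω = B η := ((mem_filter.1 hω).2).symm
    rw [cls_eq this]; ring
  rw [e1, e2, ← Equiv.sum_comp hΦ.toPerm]
  refine sum_congr rfl fun q _ => ?_
  obtain ⟨ω, η⟩ := q
  simp only [Function.Involutive.coe_toPerm, Φ]
  by_cases h : B η = B ω
  · have a1 := h1 ω η h
    have a2 := h1 η ω h.symm
    simp only [if_pos h]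
    rw [if_pos (by rw [a1, a2, h]), hu _ _ (h2 ω η h), hv _ _ (h3 ω η h), cls_eq a1]
  · simp only [if_neg h]

end Vale.Agent.P335
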