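import Vale.Agent.P335.Spec

/-! The maximum principle on Johnson fibres. -/

namespace Vale.Agent.P335

open Finset
open scoped Classical

/-- An abstract two-row structure. -/
structure PairStr (Ω β V : Type*) [Fintype V] [DecidableEq V] where
  κ : Ω → β
  D : Ω → V → Prop
  S : Ω → V → Prop
  τ : V → V → Ω → Ω
  hD : ∀ ω η, κ η = κ ω → ∀ x, D η x ↔ D ω x
  inj : ∀ ω η, κ η = κ ω → (∀ x, D ω x → (S η x ↔ S ω x)) → η = ω
  hcard : ∀ ω η, κ η = κ ω →
    (univ.filter fun x => D ω x ∧ S η x).card = (univ.filter fun x => D ω x ∧ S ω x).card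
  τ_key : ∀ x y ω, κ (τ x y ω) = κ ω
  τ_S : ∀ x y ω, D ω x → D ω y → ∀ z, D ω z → (S (τ x y ω) z ↔ S ω (Equiv.swap x y z))
  τ_id : ∀ x y ω, ¬ (D ω x ∧ D ω y) → τ x y ω = ω

namespace PairStr

variable {Ω β V : Type*} [Fintype Ω] [Fintype V] [DecidableEq V] (p : PairStr Ω β V)

def diff (ω : Ω) (x y : V) : Prop := p.D ω x ∧ p.D ω y ∧ ¬ (p.S ω x ↔ p.S ω y)

noncomputable def A (x y : V) (f : Ω → ℝ) : Ω → ℝ := fun ω => (f ω - f (p.τ x y ω)) / 2

def κ' (x y : V) (ω : Ω) : β × Prop := (p.κ ω, p.diff ω x y)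

noncomputable def W (x y : V) (g : Ω → ℝ) : Ω → ℝ :=
  fun ω => if p.diff ω x y then E (p.κ' x y) g ω else 0

omit [Fintype Ω] in
lemma D_swap {ω : Ω} {x y : V} (hx : p.D ω x) (hy : p.D ω y) (z : V) :
    p.D ω (Equiv.swap x y z) ↔ p.D ω z := by
  by_cases h1 : z = x
  · subst h1; simp [hx, hy]
  by_cases h2 : z = y
  · subst h2; simp [hx, hy]
  rw [Equiv.swap_apply_of_ne_of_ne h1 h2]

omit [Fintype Ω] in
lemma D_τ (x y : V) (ω : Ω) (z : V) : p.D (p.τ x y ω) z ↔ p.D ω z :=
  p.hD ω _ (p.τ_key x y ω) z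

omit [Fintype Ω] in
lemma τ_of_not_diff {x y : V} {ω : Ω} (h : ¬ p.diff ω x y) : p.τ x y ω = ω := by
  by_cases hD : p.D ω x ∧ p.D ω y
  · apply p.inj ω _ (p.τ_key x y ω)
    intro z hz
    rw [p.τ_S x y ω hD.1 hD.2 z hz]
    have hxy : p.S ω x ↔ p.S ω y := by
      by_contra hc; exact h ⟨hD.1, hD.2, hc⟩
    by_cases h1 : z = x
    · subst h1; simp [hxy]
    by_cases h2 : z = y
    · subst h2; simp [hxy]
    rw [Equiv.swap_apply_of_ne_of_ne h1 h2]
  · exact p.τ_id x y ω hD

omit [Fintype Ω] in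
lemma τ_τ (x y : V) (ω : Ω) : p.τ x y (p.τ x y ω) = ω := by
  by_cases hD : p.D ω x ∧ p.D ω y
  · apply p.inj ω _ (by rw [p.τ_key, p.τ_key])
    intro z hz
    rw [p.τ_S x y _ ((p.D_τ x y ω x).2 hD.1) ((p.D_τ x y ω y).2 hD.2) z ((p.D_τ x y ω z).2 hz),
      p.τ_S x y ω hD.1 hD.2 _ ((p.D_swap hD.1 hD.2 z).2 hz), Equiv.swap_apply_self]
  · rw [p.τ_id x y ω hD, p.τ_id x y ω hD]

omit [Fintype Ω] in
lemma τ_conj {z w : V} {ω : Ω} (hz : p.D ω z) (hw : p.D ω w) (x y : V) :
    p.τ (Equiv.swap z w x) (Equiv.swap z w y) (p.τ z w ω) = p.τ z w (p.τ x y ω) := by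
  by_cases hD : p.D ω x ∧ p.D ω y
  · apply p.inj _ _ (by simp only [p.τ_key])
    intro t ht
    rw [p.D_τ, p.D_τ] at ht
    have hx' : p.D ω (Equiv.swap z w x) := (p.D_swap hz hw x).2 hD.1
    have hy' : p.D ω (Equiv.swap z w y) := (p.D_swap hz hw y).2 hD.2
    rw [p.τ_S _ _ _ ((p.D_τ _ _ _ _).2 hx') ((p.D_τ _ _ _ _).2 hy') t ((p.D_τ _ _ _ _).2 ht),
      p.τ_S z w ω hz hw _ ((p.D_swap hx' hy' t).2 ht),
      p.τ_S z w _ ((p.D_τ _ _ _ _).2 hz) ((p.D_τ _ _ _ _).2 hw) t ((p.D_τ _ _ _ _).2 ht),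
      p.τ_S x y ω hD.1 hD.2 _ ((p.D_swap hz hw t).2 ht)]
    have : Equiv.swap z w (Equiv.swap (Equiv.swap z w x) (Equiv.swap z w y) t)
        = Equiv.swap x y (Equiv.swap z w t) := by
      rw [← (Equiv.swap z w).injective.swap_apply]
      simp
    rw [this]
  · rw [p.τ_id x y ω hD, p.τ_id]
    rw [p.D_τ, p.D_τ, p.D_swap hz hw, p.D_swap hz hw]
    exact hD

omit [Fintype Ω] in
lemma diff_τ {z w : V} {ω : Ω} (hz : p.D ω z) (hw : p.D ω w) (x y : V) :
    p.diff (p.τ z w ω) (Equiv.swap z w x) (Equiv.swap z w y) ↔ p.diff ω x y := by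
  unfold diff
  rw [p.D_τ, p.D_τ, p.D_swap hz hw, p.D_swap hz hw]
  refine and_congr_right fun hx => and_congr_right fun hy => ?_
  rw [p.τ_S z w ω hz hw _ ((p.D_swap hz hw x).2 hx), p.τ_S z w ω hz hw _ ((p.D_swap hz hw y).2 hy)]
  simp

omit [Fintype Ω] in
lemma diff_symm {ω : Ω} {x y : V} : p.diff ω x y ↔ p.diff ω y x := by
  unfold diff; tauto

omit [Fintype Ω] in
lemma diff_τ_self (ω : Ω) (x y : V) : p.diff (p.τ x y ω) x y ↔ p.diff ω x y := by
  by_cases h : p.diff ω x y
  · have := p.diff_τ h.1 h.2.1 y x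
    simp only [Equiv.swap_apply_left, Equiv.swap_apply_right] at this
    rw [this, p.diff_symm]
  · rw [p.τ_of_not_diff h]

lemma A_symm (x y : V) (f g : Ω → ℝ) : ip (p.A x y f) g = ip f (p.A x y g) := by
  have h1 : p.A x y f = (1 / 2 : ℝ) • (f - fun ω => f (p.τ x y ω)) := by
    funext ω; simp [A]; ring
  have h2 : p.A x y g = (1 / 2 : ℝ) • (g - fun ω => g (p.τ x y ω)) := by
    funext ω; simp [A]; ring
  rw [h1, h2, ip_smul_left, ip_smul_right, ip_sub_left, ip_sub_right,
    ip_comp_invol _ (p.τ_τ x y)]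

omit [Fintype Ω] in
lemma A_A (x y : V) (f : Ω → ℝ) : p.A x y (p.A x y f) = p.A x y f := by
  funext ω; simp only [A, p.τ_τ]; ring

lemma ip_A_A (x y : V) (f : Ω → ℝ) : ip (p.A x y f) (p.A x y f) = ip f (p.A x y f) := by
  rw [p.A_symm, p.A_A]

lemma W_eq (x y : V) (g : Ω → ℝ) :
    p.W x y g = E (p.κ' x y) (fun ω => if p.diff ω x y then g ω else 0) := by
  funext ω
  unfold W E
  split_ifs with h
  · congr 1
    refine sum_congr rfl fun η hη => ?_
    have := (Prod.ext_iff.1 (mem_cls.1 hη)).2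
    simp only [κ'] at this
    exact (if_pos (this ▸ h)).symm
  · rw [sum_eq_zero, zero_div]
    intro η hη
    have := (Prod.ext_iff.1 (mem_cls.1 hη)).2
    simp only [κ'] at this
    rw [if_neg (this ▸ h)]

lemma W_symm (x y : V) (f g : Ω → ℝ) : ip (p.W x y f) g = ip f (p.W x y g) := by
  rw [p.W_eq x y f, E_symm]
  unfold ip W
  refine sum_congr rfl fun ω _ => ?_
  by_cases h : p.diff ω x y <;> simp [h]

lemma meas_W (x y : V) (f : Ω → ℝ) : Meas (p.κ' x y) (p.W x y f) := by
  rw [p.W_eq]; exact meas_E _ _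

lemma W_W (x y : V) (f : Ω → ℝ) : p.W x y (p.W x y f) = p.W x y f := by
  funext ω
  conv_lhs => unfold W
  rw [show (fun ω => if p.diff ω x y then E (p.κ' x y) f ω else 0) = p.W x y f from rfl,
    E_of_meas (p.meas_W x y f)]
  unfold W
  split_ifs <;> rfl

omit [Fintype Ω] in
lemma meas_of_inv {f : Ω → ℝ} (h : ∀ x y ω, f (p.τ x y ω) = f ω) : Meas p.κ f := by
  intro ω
  suffices H : ∀ m : ℕ, ∀ η, p.κ η = p.κ ω →
      (univ.filter fun x => p.D ω x ∧ p.S η x ∧ ¬ p.S ω x).card = m → f η = f ω from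
    fun η hη => H _ η hη rfl
  intro m
  induction m using Nat.strong_induction_on with
  | _ m ih =>
    intro η hη hm
    have hc := p.hcard ω η hη
    by_cases hex : ∃ x, p.D ω x ∧ p.S η x ∧ ¬ p.S ω x
    · obtain ⟨x, hx1, hx2, hx3⟩ := hex
      have hey : ∃ y, p.D ω y ∧ p.S ω y ∧ ¬ p.S η y := by
        by_contra hne
        push Not at hne
        have : (univ.filter fun x => p.D ω x ∧ p.S ω x) ⊂ (univ.filter fun x => p.D ω x ∧ p.S η x) := by
          rw [ssubset_iff_of_subset]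
          · exact ⟨x, by simp [hx1, hx2], by simp [hx3]⟩
          · intro t ht
            simp only [mem_filter, mem_univ, true_and] at ht ⊢
            exact ⟨ht.1, hne t ht.1 ht.2⟩
        have := card_lt_card this
        omega
      obtain ⟨y, hy1, hy2, hy3⟩ := hey
      rw [← h x y η]
      refine ih _ ?_ (p.τ x y η) (by rw [p.τ_key, hη]) rfl
      rw [← hm]
      apply card_lt_card
      have hx' := (p.hD ω η hη x).2 hx1
      have hy' := (p.hD ω η hη y).2 hy1
      rw [ssubset_iff_of_subset]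
      · refine ⟨x, by simp [hx1, hx2, hx3], ?_⟩
        simp only [mem_filter, mem_univ, true_and, not_and]
        intro _ h2
        rw [p.τ_S x y η hx' hy' x hx'] at h2
        simp [hy3] at h2
      · intro t ht
        simp only [mem_filter, mem_univ, true_and] at ht ⊢
        obtain ⟨h1, h2, h3⟩ := ht
        refine ⟨h1, ?_, h3⟩
        rw [p.τ_S x y η hx' hy' t ((p.hD ω η hη t).2 h1)] at h2
        by_cases e1 : t = x
        · subst e1; exact hx2
        by_cases e2 : t = y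
        · subst e2; exact absurd hy2 h3
        rwa [Equiv.swap_apply_of_ne_of_ne e1 e2] at h2
    · push Not at hex
      have hsub : (univ.filter fun x => p.D ω x ∧ p.S η x) ⊆ (univ.filter fun x => p.D ω x ∧ p.S ω x) := by
        intro t ht
        simp only [mem_filter, mem_univ, true_and] at ht ⊢
        exact ⟨ht.1, hex t ht.1 ht.2⟩
      have heq := eq_of_subset_of_card_le hsub hc.ge
      have : η = ω := by
        apply p.inj ω η hη
        intro t ht
        have := Finset.ext_iff.1 heq t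
        simpa [ht] using this
      rw [this]

noncomputable def B (f : Ω → ℝ) : Ω → ℝ :=
  (∑ x, ∑ y, (p.A x y f - Q p.κ (p.W x y (Q p.κ f)))) - (2 : ℝ) • Q p.κ f

lemma B_symm (f g : Ω → ℝ) : ip (p.B f) g = ip f (p.B g) := by
  unfold B
  simp only [ip_sub_left, ip_sub_right, ip_smul_left, ip_smul_right, ip_sum_left, ip_sum_right]
  rw [Q_symm]
  congr 1
  refine sum_congr rfl fun x _ => sum_congr rfl fun y _ => ?_
  rw [p.A_symm, Q_symm, p.W_symm, Q_symm]

omit [Fintype Ω] in
lemma flip {z w x y : V} {η : Ω} (hxy : p.diff η x y)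
    (h1 : ((x = z ∨ x = w) ∧ y ≠ z ∧ y ≠ w) ∨ ((y = z ∨ y = w) ∧ x ≠ z ∧ x ≠ w)) :
    ¬ (p.diff η z w ∧ p.diff (p.τ x y η) z w) := by
  rintro ⟨⟨hz, hw, h2⟩, ⟨_, _, h3⟩⟩
  obtain ⟨hx, hy, h4⟩ := hxy
  have hzw : z ≠ w := by rintro rfl; exact h2 Iff.rfl
  rw [p.τ_S x y η hx hy z hz, p.τ_S x y η hx hy w hw] at h3
  rcases h1 with ⟨rfl | rfl, e1, e2⟩ | ⟨rfl | rfl, e1, e2⟩
  · rw [Equiv.swap_apply_left, Equiv.swap_apply_of_ne_of_ne hzw.symm e2.symm] at h3; tauto
  · rw [Equiv.swap_apply_left, Equiv.swap_apply_of_ne_of_ne hzw e1.symm] at h3; tauto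
  · rw [Equiv.swap_apply_right, Equiv.swap_apply_of_ne_of_ne e2.symm hzw.symm] at h3; tauto
  · rw [Equiv.swap_apply_right, Equiv.swap_apply_of_ne_of_ne e1.symm hzw] at h3; tauto

lemma B_diff (f : Ω → ℝ) {z w : V} {ω : Ω} (hz : p.D ω z) (hw : p.D ω w) :
    p.B f ω - p.B f (p.τ z w ω) =
      (∑ x, ∑ y, (((f ω - f (p.τ z w ω)) - (f (p.τ x y ω) - f (p.τ z w (p.τ x y ω)))) / 2 -
        (if p.diff ω x y then E (p.κ' x y) (fun η => f η - f (p.τ z w η)) ω else 0)))
      - 2 * (f ω - f (p.τ z w ω)) := by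
  have hE : ∀ g : Ω → ℝ, ∀ η, E p.κ g (p.τ z w η) = E p.κ g η :=
    fun g η => meas_E _ _ _ _ (p.τ_key z w η)
  have h1 : p.B f ω = (∑ x, ∑ y, (p.A x y f ω - p.W x y (Q p.κ f) ω
      + E p.κ (p.W x y (Q p.κ f)) ω)) - 2 * (f ω - E p.κ f ω) := by
    simp only [B, Q, Pi.sub_apply, Finset.sum_apply, Pi.smul_apply, smul_eq_mul]
    congr 1
    refine sum_congr rfl fun x _ => sum_congr rfl fun y _ => by ring
  have h2 : p.B f (p.τ z w ω) = (∑ x, ∑ y, (p.A (Equiv.swap z w x) (Equiv.swap z w y) f (p.τ z w ω)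
      - p.W (Equiv.swap z w x) (Equiv.swap z w y) (Q p.κ f) (p.τ z w ω))
      + ∑ x, ∑ y, E p.κ (p.W x y (Q p.κ f)) ω) - 2 * (f (p.τ z w ω) - E p.κ f ω) := by
    have e1 : (∑ x, ∑ y, (p.A (Equiv.swap z w x) (Equiv.swap z w y) f (p.τ z w ω)
      - p.W (Equiv.swap z w x) (Equiv.swap z w y) (Q p.κ f) (p.τ z w ω))) =
        ∑ x, ∑ y, (p.A x y f (p.τ z w ω) - p.W x y (Q p.κ f) (p.τ z w ω)) := by
      rw [← Equiv.sum_comp (Equiv.swap z w)
        (fun x => ∑ y, (p.A x y f (p.τ z w ω) - p.W x y (Q p.κ f) (p.τ z w ω)))]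
      refine sum_congr rfl fun x _ => ?_
      rw [← Equiv.sum_comp (Equiv.swap z w) (fun y => (p.A (Equiv.swap z w x) y f (p.τ z w ω)
        - p.W (Equiv.swap z w x) y (Q p.κ f) (p.τ z w ω)))]
    rw [e1]
    simp only [B, Q, Pi.sub_apply, Finset.sum_apply, Pi.smul_apply, smul_eq_mul, hE]
    congr 1
    rw [← sum_add_distrib]
    refine sum_congr rfl fun x _ => ?_
    rw [← sum_add_distrib]
    refine sum_congr rfl fun y _ => by ring
  rw [h1, h2]
  have h3 : ∀ x y, (p.A x y f ω - p.W x y (Q p.κ f) ω) -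
      (p.A (Equiv.swap z w x) (Equiv.swap z w y) f (p.τ z w ω)
      - p.W (Equiv.swap z w x) (Equiv.swap z w y) (Q p.κ f) (p.τ z w ω)) =
      (((f ω - f (p.τ z w ω)) - (f (p.τ x y ω) - f (p.τ z w (p.τ x y ω)))) / 2 -
        (if p.diff ω x y then E (p.κ' x y) (fun η => f η - f (p.τ z w η)) ω else 0)) := by
    intro x y
    unfold A W
    rw [p.τ_conj hz hw, p.diff_τ hz hw]
    split_ifs with hd
    · have hb : E (p.κ' (Equiv.swap z w x) (Equiv.swap z w y)) (Q p.κ f) (p.τ z w ω) =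
          E (p.κ' x y) (fun η => Q p.κ f (p.τ z w η)) ω := by
        unfold E
        have hs : ∀ F : Ω → ℝ, ∑ η ∈ cls (p.κ' (Equiv.swap z w x) (Equiv.swap z w y)) (p.τ z w ω), F η
            = ∑ η ∈ cls (p.κ' x y) ω, F (p.τ z w η) := by
          intro F
          symm
          refine sum_nbij' (p.τ z w) (p.τ z w) ?_ ?_ ?_ ?_ ?_
          · intro η hη
            have hη := Prod.ext_iff.1 (mem_cls.1 hη)
            simp only [κ'] at hη
            apply mem_cls.2
            simp only [κ', p.τ_key, hη.1]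
            rw [p.diff_τ hz hw, p.diff_τ ((p.hD ω η hη.1 z).2 hz) ((p.hD ω η hη.1 w).2 hw), hη.2]
          · intro η hη
            have hη := Prod.ext_iff.1 (mem_cls.1 hη)
            simp only [κ', p.τ_key] at hη
            apply mem_cls.2
            simp only [κ', p.τ_key, hη.1]
            have h5 := p.diff_τ ((p.hD ω η hη.1 z).2 hz) ((p.hD ω η hη.1 w).2 hw)
              (Equiv.swap z w x) (Equiv.swap z w y)
            simp only [Equiv.swap_apply_self] at h5
            rw [h5, hη.2, p.diff_τ hz hw]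
          · intro η _; exact p.τ_τ z w η
          · intro η _; exact p.τ_τ z w η
          · intro η _; rfl
        have hc := hs (fun _ => 1)
        simp only [sum_const, nsmul_eq_mul, mul_one] at hc
        rw [hs, hc]
      rw [hb]
      have h6 : (fun η => f η - f (p.τ z w η)) = Q p.κ f - fun η => Q p.κ f (p.τ z w η) := by
        funext η; simp only [Q, Pi.sub_apply, hE]; ring
      rw [h6, E_sub, Pi.sub_apply]
      ring
    · ring
  simp only [← h3, sum_add_distrib, sum_sub_distrib]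
  ring

lemma B_eig {θ : ℝ} {f : Ω → ℝ} (hf : f ≠ 0) (hB : p.B f = θ • f) : 0 ≤ θ := by
  by_contra hθ
  push Not at hθ
  have hne : Nonempty Ω := by
    by_contra h
    apply hf; funext ω; exact absurd ⟨ω⟩ h
  have key : ∀ z w ω, f ω - f (p.τ z w ω) ≤ 0 := by
    intro z w
    obtain ⟨ω, -, hmax⟩ := exists_max_image univ (fun ω => f ω - f (p.τ z w ω)) univ_nonempty
    suffices h : f ω - f (p.τ z w ω) ≤ 0 from fun η => (hmax η (mem_univ _)).trans h
    by_contra hM
    push Not at hM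
    set h : Ω → ℝ := fun η => f η - f (p.τ z w η) with hh
    have hmax' : ∀ η, h η ≤ h ω := fun η => hmax η (mem_univ _)
    have hM' : 0 < h ω := hM
    have hzero : ∀ η, ¬ p.diff η z w → h η = 0 := by
      intro η hη; simp only [hh, p.τ_of_not_diff hη, sub_self]
    have hanti : ∀ η, h (p.τ z w η) = - h η := by
      intro η; simp only [hh, p.τ_τ]; ring
    have hd : p.diff ω z w := by
      by_contra hc; rw [hzero ω hc] at hM'; exact lt_irrefl _ hM'
    have hzw : z ≠ w := by rintro rfl; exact hd.2.2 Iff.rfl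
    have hdiff := p.B_diff f hd.1 hd.2.1
    rw [hB] at hdiff
    simp only [Pi.smul_apply, smul_eq_mul] at hdiff
    -- the averaged term vanishes when the swap preserves the class
    have hE0 : ∀ x y, (∀ η, p.κ η = p.κ ω → (p.diff (p.τ z w η) x y ↔ p.diff η x y)) →
        E (p.κ' x y) h ω = 0 := by
      intro x y hxy
      have hk : ∀ η, p.κ' x y η = p.κ' x y ω → p.κ' x y (p.τ z w η) = p.κ' x y ω := by
        intro η hη
        have hη' := Prod.ext_iff.1 hη
        simp only [κ'] at hη'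
        rw [← hη]
        simp only [κ', p.τ_key, hxy η hη'.1]
      have h1 : E (p.κ' x y) h ω = E (p.κ' x y) ((-1 : ℝ) • h) ω :=
        E_bij (p.τ z w) (p.τ z w) hk hk (fun η _ => p.τ_τ z w η) (fun η _ => p.τ_τ z w η)
          (fun η _ => by simp [hanti])
      rw [E_smul] at h1
      simp only [Pi.smul_apply, smul_eq_mul] at h1
      linarith
    have hterm : ∀ x y, (if (x = z ∧ y = w) ∨ (x = w ∧ y = z) then h ω else 0) ≤
        (h ω - h (p.τ x y ω)) / 2 - (if p.diff ω x y then E (p.κ' x y) h ω else 0) := by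
      intro x y
      by_cases hc : (x = z ∧ y = w) ∨ (x = w ∧ y = z)
      · rw [if_pos hc]
        rcases hc with ⟨rfl, rfl⟩ | ⟨rfl, rfl⟩
        · rw [if_pos hd, hE0 _ _ (fun η _ => p.diff_τ_self η _ _), hanti]; linarith
        · rw [if_pos (p.diff_symm.1 hd), hE0 _ _ (fun η _ => by
            rw [p.diff_symm, p.diff_τ_self, p.diff_symm])]
          have : p.τ x y ω = p.τ y x ω := by
            have := p.τ_conj hd.1 hd.2.1 y x
            simp only [Equiv.swap_apply_left, Equiv.swap_apply_right, p.τ_τ] at this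
            have h2 := congrArg (p.τ x y) this
            rw [p.τ_τ] at h2
            exact h2.symm
          rw [this, hanti]; linarith
      · rw [if_neg hc]
        by_cases hxy : p.diff ω x y
        · rw [if_pos hxy]
          have hne' : x ≠ y := by rintro rfl; exact hxy.2.2 Iff.rfl
          by_cases h1 : ((x = z ∨ x = w) ∧ y ≠ z ∧ y ≠ w) ∨ ((y = z ∨ y = w) ∧ x ≠ z ∧ x ≠ w)
          · have h0 : h (p.τ x y ω) = 0 :=
              hzero _ (fun hc => p.flip hxy h1 ⟨hd, hc⟩)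
            have hk : ∀ η, p.κ' x y η = p.κ' x y ω → p.κ' x y (p.τ x y η) = p.κ' x y ω := by
              intro η hη
              rw [← hη]
              simp only [κ', p.τ_key, p.diff_τ_self]
            have h2 : E (p.κ' x y) h ω = E (p.κ' x y) (fun η => h (p.τ x y η)) ω :=
              E_bij (p.τ x y) (p.τ x y) hk hk (fun η _ => p.τ_τ x y η) (fun η _ => p.τ_τ x y η)
                (fun η _ => by simp only [p.τ_τ])
            have h3 : E (p.κ' x y) (h + fun η => h (p.τ x y η)) ω ≤ h ω := by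
              apply E_le
              intro η hη
              have hη' := (Prod.ext_iff.1 hη).2
              simp only [κ'] at hη'
              have hdη : p.diff η x y := hη' ▸ hxy
              have := p.flip hdη h1
              simp only [Pi.add_apply]
              by_cases h4 : p.diff η z w
              · rw [hzero _ (fun hc => this ⟨h4, hc⟩), add_zero]; exact hmax' _
              · rw [hzero _ h4, zero_add]; exact hmax' _
            rw [E_add, Pi.add_apply, ← h2] at h3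
            rw [h0]; linarith
          · have hx : x ≠ z ∧ x ≠ w ∧ y ≠ z ∧ y ≠ w := by
              by_cases e1 : x = z <;> by_cases e2 : x = w <;> by_cases e3 : y = z <;>
                by_cases e4 : y = w <;> simp_all
            rw [hE0 x y]
            · have := hmax' (p.τ x y ω); linarith
            · intro η hη
              have := p.diff_τ ((p.hD ω η hη z).2 hd.1) ((p.hD ω η hη w).2 hd.2.1) x y
              rwa [Equiv.swap_apply_of_ne_of_ne hx.1 hx.2.1,
                Equiv.swap_apply_of_ne_of_ne hx.2.2.1 hx.2.2.2] at this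
        · rw [if_neg hxy, p.τ_of_not_diff hxy]; simp
    have hsum : 2 * h ω ≤ ∑ x, ∑ y,
        ((h ω - h (p.τ x y ω)) / 2 - (if p.diff ω x y then E (p.κ' x y) h ω else 0)) := by
      refine le_trans (le_of_eq ?_) (sum_le_sum fun x _ => sum_le_sum fun y _ => hterm x y)
      have : ∀ x y, (if (x = z ∧ y = w) ∨ (x = w ∧ y = z) then h ω else 0) =
          (if x = z then if y = w then h ω else 0 else 0) +
          (if x = w then if y = z then h ω else 0 else 0) := by
        intro x y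
        by_cases e1 : x = z <;> by_cases e2 : x = w <;> by_cases e3 : y = z <;>
          by_cases e4 : y = w <;> simp_all
      simp only [this, sum_add_distrib, sum_ite_irrel, sum_ite_eq', mem_univ, if_true,
        sum_const_zero]
      ring
    have : θ * f ω - θ * f (p.τ z w ω) = θ * h ω := by simp only [hh]; ring
    rw [this] at hdiff
    have h7 : θ * h ω < 0 := mul_neg_of_neg_of_pos hθ hM'
    change θ * h ω = (∑ x, ∑ y,
        ((h ω - h (p.τ x y ω)) / 2 - (if p.diff ω x y then E (p.κ' x y) h ω else 0))) - 2 * h ω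
      at hdiff
    linarith
  have hinv : ∀ x y ω, f (p.τ x y ω) = f ω := by
    intro x y ω
    have h1 := key x y ω
    have h2 := key x y (p.τ x y ω)
    rw [p.τ_τ] at h2
    linarith
  have hQ : Q p.κ f = 0 := Q_of_meas (p.meas_of_inv hinv)
  have hB0 : p.B f = 0 := by
    unfold B
    rw [hQ, smul_zero, sub_zero]
    refine sum_eq_zero fun x _ => sum_eq_zero fun y _ => ?_
    have h1 : p.A x y f = 0 := by funext ω; simp [A, hinv]
    have h2 : p.W x y 0 = 0 := by funext ω; simp [W]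
    rw [h1, h2, Q, E_zero]; simp
  rw [hB0] at hB
  exact hf ((smul_eq_zero.1 hB.symm).resolve_left hθ.ne)

/-- The Johnson inequality. -/
theorem johnson (f : Ω → ℝ) :
    (∑ x, ∑ y, ip (p.W x y (Q p.κ f)) (p.W x y (Q p.κ f))) + 2 * ip f (Q p.κ f) ≤
      ∑ x, ∑ y, ip (p.A x y f) (p.A x y f) := by
  have h := form_nonneg_of_eig p.B p.B_symm (fun θ v hv hB => p.B_eig hv hB) f
  unfold B at h
  simp only [ip_sub_right, ip_smul_right, ip_sum_right, sum_sub_distrib] at h
  have h1 : ∀ x y, ip f (Q p.κ (p.W x y (Q p.κ f))) = ip (p.W x y (Q p.κ f)) (p.W x y (Q p.κ f)) := by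
    intro x y
    rw [← Q_symm, p.W_symm, p.W_W]
  simp only [h1, ← p.ip_A_A] at h
  linarith

end PairStr

end Vale.Agent.P335
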