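import Vale.Agent.P335.Defs
import Vale.Agent.P335.Johnson
import Vale.Agent.P335.Disj

/-! Graph surgery and the pair structure. -/

namespace Vale.Agent.P335

open Finset
open scoped Classical

variable {n : ℕ} {d : Fin n → ℕ}

noncomputable def ad (G : SimpleGraph (Fin n)) (p q : Fin n) : ℕ := if G.Adj p q then 1 else 0

lemma ad_comm (G : SimpleGraph (Fin n)) (p q : Fin n) : ad G p q = ad G q p := by
  unfold ad; rw [G.adj_comm]

lemma ad_congr {G H : SimpleGraph (Fin n)} {p q r s : Fin n} (h : H.Adj p q ↔ G.Adj r s) :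
    ad H p q = ad G r s := by
  unfold ad; rw [h]

lemma degree_eq_sum (G : SimpleGraph (Fin n)) (p : Fin n) : G.degree p = ∑ q, ad G p q := by
  rw [← SimpleGraph.card_neighborFinset_eq_degree, SimpleGraph.neighborFinset_eq_filter,
    card_filter]
  rfl

lemma Omega.deg (G : Omega n d) (p : Fin n) : ∑ q, ad G.1 p q = d p := by
  rw [← degree_eq_sum]; exact G.2 p

def Omega.mk' (G : SimpleGraph (Fin n)) (h : ∀ p, ∑ q, ad G p q = d p) : Omega n d :=
  ⟨G, fun p => by rw [degree_eq_sum]; exact h p⟩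

lemma Omega.ext' {G H : Omega n d} (h : ∀ p q, H.1.Adj p q ↔ G.1.Adj p q) : H = G := by
  apply Subtype.ext
  ext p q
  exact h p q

lemma sum_split {M : Type*} [AddCommMonoid M] {s t : Fin n} (hst : s ≠ t) (F : Fin n → M) :
    ∑ q, F q = F s + F t + ∑ q, if q ≠ s ∧ q ≠ t then F q else 0 := by
  rw [← sum_filter, ← sum_pair hst, ← sum_filter_add_sum_filter_not univ (fun q => q = s ∨ q = t)]
  congr 1
  · congr 1; ext q; simp
  · congr 1; ext q; simp

lemma sum_two {s t : Fin n} (hst : s ≠ t) (F G : Fin n → ℕ)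
    (h : ∀ q, q ≠ s → q ≠ t → F q = G q) : ∑ q, F q + (G s + G t) = ∑ q, G q + (F s + F t) := by
  rw [sum_split hst F, sum_split hst G]
  have : (∑ q, if q ≠ s ∧ q ≠ t then F q else 0) = ∑ q, if q ≠ s ∧ q ≠ t then G q else 0 := by
    refine sum_congr rfl fun q _ => ?_
    split_ifs with hq
    · exact h q hq.1 hq.2
    · rfl
  omega

/-- The graph off the cut around the pair `u, v`. -/
def kap (u v : Fin n) (G : Omega n d) : Fin n → Fin n → Prop :=
  fun p q => ((p = u ∨ p = v) ↔ (q = u ∨ q = v)) ∧ G.1.Adj p q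

lemma kap_iff {u v : Fin n} {G H : Omega n d} : kap u v H = kap u v G ↔
    ∀ p q, ((p = u ∨ p = v) ↔ (q = u ∨ q = v)) → (H.1.Adj p q ↔ G.1.Adj p q) := by
  constructor
  · intro h p q hpq
    have := congrFun (congrFun h p) q
    simp only [kap, hpq, true_and] at this
    exact iff_of_eq this
  · intro h
    funext p q
    simp only [kap]
    exact propext (and_congr_right (h p q))

lemma kap_swap (u v : Fin n) (G : Omega n d) : kap u v G = kap v u G := by
  funext p q; simp only [kap, or_comm]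

lemma col_eq {u v : Fin n} (huv : u ≠ v) {G H : Omega n d} (h : kap u v H = kap u v G) {x : Fin n}
    (hu : x ≠ u) (hv : x ≠ v) : ad H.1 x u + ad H.1 x v = ad G.1 x u + ad G.1 x v := by
  have := sum_two huv (ad H.1 x) (ad G.1 x) fun q h1 h2 =>
    ad_congr (kap_iff.1 h x q (by simp [hu, hv, h1, h2]))
  rw [H.deg, G.deg] at this
  omega

structure Dist (u v x y : Fin n) : Prop where
  uv : u ≠ v
  ux : u ≠ x
  uy : u ≠ y
  vx : v ≠ x
  vy : v ≠ y
  xy : x ≠ y

lemma Dist.flip {u v x y : Fin n} (h : Dist u v x y) : Dist x y u v :=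
  ⟨h.xy, h.ux.symm, h.vx.symm, h.uy.symm, h.vy.symm, h.uv⟩

/-- Mixing two graphs. -/
def mixG {u v x y : Fin n} (h : Dist u v x y) (σ : Fin n → Fin n) (G1 G2 : SimpleGraph (Fin n)) :
    SimpleGraph (Fin n) where
  Adj p q := if (p = u ∨ p = v) ∧ (q = x ∨ q = y) then G1.Adj p (σ q)
    else if (p = x ∨ p = y) ∧ (q = u ∨ q = v) then G1.Adj q (σ p)
    else if (p = x ∨ p = y) ∨ (q = x ∨ q = y) then G2.Adj p q else G1.Adj p q
  symm := ⟨by
    obtain ⟨h1, h2, h3, h4, h5, h6⟩ := h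
    intro p q
    have := G1.adj_comm p q
    have := G2.adj_comm p q
    grind⟩
  loopless := ⟨by
    obtain ⟨h1, h2, h3, h4, h5, h6⟩ := h
    intro p
    have := G1.irrefl (v := p)
    have := G2.irrefl (v := p)
    grind⟩

section mix

variable {u v x y : Fin n} (h : Dist u v x y) (σ : Fin n → Fin n) (G1 G2 : SimpleGraph (Fin n))

lemma mixG_adj (p q : Fin n) : (mixG h σ G1 G2).Adj p q ↔
    if (p = u ∨ p = v) ∧ (q = x ∨ q = y) then G1.Adj p (σ q)
    else if (p = x ∨ p = y) ∧ (q = u ∨ q = v) then G1.Adj q (σ p)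
    else if (p = x ∨ p = y) ∨ (q = x ∨ q = y) then G2.Adj p q else G1.Adj p q := Iff.rfl

lemma mixG_AB {p q : Fin n} (hp : p = u ∨ p = v) (hq : q = x ∨ q = y) :
    (mixG h σ G1 G2).Adj p q ↔ G1.Adj p (σ q) := by
  rw [mixG_adj, if_pos ⟨hp, hq⟩]

lemma mixG_A {p q : Fin n} (hp : p = u ∨ p = v) (hq : ¬ (q = x ∨ q = y)) :
    (mixG h σ G1 G2).Adj p q ↔ G1.Adj p q := by
  obtain ⟨h1, h2, h3, h4, h5, h6⟩ := id h
  rw [mixG_adj]; grind

lemma mixG_B {p q : Fin n} (hp : p = x ∨ p = y) (hq : ¬ (q = u ∨ q = v)) :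
    (mixG h σ G1 G2).Adj p q ↔ G2.Adj p q := by
  obtain ⟨h1, h2, h3, h4, h5, h6⟩ := id h
  rw [mixG_adj]; grind

lemma mixG_out {p q : Fin n} (hp : ¬ (p = x ∨ p = y)) (hq : ¬ (q = x ∨ q = y)) :
    (mixG h σ G1 G2).Adj p q ↔ G1.Adj p q := by
  rw [mixG_adj]; grind

end mix

lemma mixG_deg {u v x y : Fin n} (h : Dist u v x y) (σ : Fin n → Fin n)
    (hσ : (σ x = x ∧ σ y = y) ∨ (σ x = y ∧ σ y = x)) (G1 G2 : Omega n d)
    (hc : ∀ q, q = x ∨ q = y → ad G1.1 u (σ q) + ad G1.1 v (σ q) = ad G2.1 u q + ad G2.1 v q)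
    (ho : ∀ p, p ≠ u → p ≠ v → p ≠ x → p ≠ y → ad G2.1 p x + ad G2.1 p y = ad G1.1 p x + ad G1.1 p y)
    (p : Fin n) : ∑ q, ad (mixG h σ G1.1 G2.1) p q = d p := by
  by_cases hA : p = u ∨ p = v
  · have := sum_two h.xy (ad (mixG h σ G1.1 G2.1) p) (ad G1.1 p) fun q h1 h2 =>
      ad_congr (mixG_A h σ _ _ hA (by simp [h1, h2]))
    rw [G1.deg, ad_congr (mixG_AB h σ _ _ hA (Or.inl rfl)),
      ad_congr (mixG_AB h σ _ _ hA (Or.inr rfl))] at this
    rcases hσ with ⟨e1, e2⟩ | ⟨e1, e2⟩ <;> rw [e1, e2] at this <;> omega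
  by_cases hB : p = x ∨ p = y
  · have := sum_two h.uv (ad (mixG h σ G1.1 G2.1) p) (ad G2.1 p) fun q h1 h2 =>
      ad_congr (mixG_B h σ _ _ hB (by simp [h1, h2]))
    rw [G2.deg, ad_comm (mixG h σ G1.1 G2.1) p u, ad_comm (mixG h σ G1.1 G2.1) p v,
      ad_congr (mixG_AB h σ _ _ (Or.inl rfl) hB),
      ad_congr (mixG_AB h σ _ _ (Or.inr rfl) hB), hc p hB, ad_comm G2.1 p u, ad_comm G2.1 p v] at this
    omega
  · have := sum_two h.xy (ad (mixG h σ G1.1 G2.1) p) (ad G1.1 p) fun q h1 h2 =>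
      ad_congr (mixG_out h σ _ _ hB (by simp [h1, h2]))
    rw [G1.deg, ad_comm (mixG h σ G1.1 G2.1) p x, ad_comm (mixG h σ G1.1 G2.1) p y,
      ad_congr (mixG_B h σ _ _ (Or.inl rfl) hA),
      ad_congr (mixG_B h σ _ _ (Or.inr rfl) hA), ad_comm G2.1 x p, ad_comm G2.1 y p] at this
    push Not at hA hB
    have := ho p hA.1 hA.2 hB.1 hB.2
    omega

def Dp (u v : Fin n) (G : Omega n d) (x : Fin n) : Prop :=
  x ≠ u ∧ x ≠ v ∧ ¬ (G.1.Adj u x ↔ G.1.Adj v x)

lemma Dp_iff {u v : Fin n} {G : Omega n d} {x : Fin n} :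
    Dp u v G x ↔ x ≠ u ∧ x ≠ v ∧ ad G.1 x u + ad G.1 x v = 1 := by
  unfold Dp ad
  rw [G.1.adj_comm u x, G.1.adj_comm v x]
  by_cases h1 : G.1.Adj x u <;> by_cases h2 : G.1.Adj x v <;> simp [h1, h2]

lemma dist_of_Dp {u v x y : Fin n} (huv : u ≠ v) {G : Omega n d} (hx : Dp u v G x)
    (hy : Dp u v G y) (hxy : x ≠ y) : Dist u v x y :=
  ⟨huv, hx.1.symm, hy.1.symm, hx.2.1.symm, hy.2.1.symm, hxy⟩

/-- The switch as an involution. -/
noncomputable def tau {u v : Fin n} (huv : u ≠ v) (x y : Fin n) (G : Omega n d) : Omega n d :=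
  if h : Dp u v G x ∧ Dp u v G y ∧ x ≠ y then
    Omega.mk' (mixG (dist_of_Dp huv h.1 h.2.1 h.2.2) (Equiv.swap x y) G.1 G.1)
      (mixG_deg _ _ (Or.inr (by simp)) G G (by
        have h1 := (Dp_iff.1 h.1).2.2
        have h2 := (Dp_iff.1 h.2.1).2.2
        rw [ad_comm _ x u, ad_comm _ x v] at h1
        rw [ad_comm _ y u, ad_comm _ y v] at h2
        rintro q (rfl | rfl) <;> simp [h1, h2]) (fun _ _ _ _ _ => rfl))
  else G

lemma tau_adj {u v : Fin n} (huv : u ≠ v) {x y : Fin n} {G : Omega n d}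
    (h : Dp u v G x ∧ Dp u v G y ∧ x ≠ y) :
    (tau huv x y G).1 = mixG (dist_of_Dp huv h.1 h.2.1 h.2.2) (Equiv.swap x y) G.1 G.1 := by
  unfold tau; rw [dif_pos h]; rfl

lemma kap_tau {u v : Fin n} (huv : u ≠ v) (x y : Fin n) (G : Omega n d) :
    kap u v (tau huv x y G) = kap u v G := by
  by_cases h : Dp u v G x ∧ Dp u v G y ∧ x ≠ y
  · rw [kap_iff]
    intro p q hpq
    rw [tau_adj huv h, mixG_adj]
    obtain ⟨h1, h2, h3, h4, h5, h6⟩ := dist_of_Dp huv h.1 h.2.1 h.2.2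
    grind
  · unfold tau; rw [dif_neg h]

noncomputable def pairStr {u v : Fin n} (huv : u ≠ v) :
    PairStr (Omega n d) (Fin n → Fin n → Prop) (Fin n) where
  κ := kap u v
  D := Dp u v
  S G x := G.1.Adj u x
  τ := tau huv
  hD := by
    intro G H h x
    rw [Dp_iff, Dp_iff]
    refine and_congr_right fun h1 => and_congr_right fun h2 => ?_
    rw [col_eq huv h h1 h2]
  inj := by
    intro G H h hS
    have key : ∀ q, q ≠ u → q ≠ v → (H.1.Adj u q ↔ G.1.Adj u q) ∧ (H.1.Adj v q ↔ G.1.Adj v q) := by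
      intro q h1 h2
      have e1 := col_eq huv h h1 h2
      have e2 := hS q
      rw [ad_comm _ q u, ad_comm _ q v, ad_comm _ q u, ad_comm _ q v] at e1
      unfold Dp at e2
      unfold ad at e1
      by_cases a1 : G.1.Adj u q <;> by_cases a2 : G.1.Adj v q <;> by_cases a3 : H.1.Adj u q <;>
        by_cases a4 : H.1.Adj v q <;> simp_all
    apply Omega.ext'
    intro p q
    by_cases hpq : (p = u ∨ p = v) ↔ (q = u ∨ q = v)
    · exact kap_iff.1 h p q hpq
    · by_cases hp : p = u ∨ p = v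
      · have hq : q ≠ u ∧ q ≠ v := by tauto
        rcases hp with rfl | rfl
        · exact (key q hq.1 hq.2).1
        · exact (key q hq.1 hq.2).2
      · have hq : q = u ∨ q = v := by tauto
        push Not at hp
        rw [H.1.adj_comm, G.1.adj_comm]
        rcases hq with rfl | rfl
        · exact (key p hp.1 hp.2).1
        · exact (key p hp.1 hp.2).2
  hcard := by
    intro G H h
    have e : ∀ K : Omega n d, kap u v K = kap u v G →
        (univ.filter fun x => Dp u v G x ∧ K.1.Adj u x).card +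
          ∑ x, (if Dp u v G x then 0 else ad G.1 u x) = d u := by
      intro K hK
      rw [← K.deg u, card_filter, ← sum_add_distrib]
      refine sum_congr rfl fun x _ => ?_
      by_cases hx : x = u ∨ x = v
      · have : ¬ Dp u v G x := by unfold Dp; tauto
        simp only [this, false_and, if_false, zero_add]
        exact (ad_congr (kap_iff.1 hK u x (by tauto))).symm
      · push Not at hx
        have e1 := col_eq huv hK hx.1 hx.2
        rw [ad_comm _ x u, ad_comm _ x v, ad_comm _ x u, ad_comm _ x v] at e1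
        unfold Dp
        unfold ad at e1 ⊢
        by_cases a1 : G.1.Adj u x <;> by_cases a2 : G.1.Adj v x <;> by_cases a3 : K.1.Adj u x <;>
          by_cases a4 : K.1.Adj v x <;> simp_all
    have e1 := e H h
    have e2 := e G rfl
    convert (by omega : _ = _) using 0
    omega
  τ_key := kap_tau huv
  τ_S := by
    intro x y G hx hy z hz
    by_cases hxy : x = y
    · subst hxy
      unfold tau
      rw [dif_neg (by simp)]; simp
    · rw [tau_adj huv ⟨hx, hy, hxy⟩]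
      by_cases hz' : z = x ∨ z = y
      · exact mixG_AB _ _ _ _ (Or.inl rfl) hz'
      · rw [mixG_A _ _ _ _ (Or.inl rfl) hz']
        push Not at hz'
        rw [Equiv.swap_apply_of_ne_of_ne hz'.1 hz'.2]
  τ_id := by
    intro x y G h
    unfold tau
    rw [dif_neg (by tauto)]

end Vale.Agent.P335
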