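import Vale.Agent.P335.Graph

/-! The disjoint-pair inequality for graphs. -/

namespace Vale.Agent.P335

open Finset
open scoped Classical

variable {n : ℕ} {d : Fin n → ℕ}

noncomputable def Jk (u v x y : Fin n) (G : Omega n d) :
    (Fin n → Fin n → Prop) × (Fin n → ℕ) × (Fin n → ℕ) :=
  (fun p q => ((p = u ∨ p = v) ↔ (q = u ∨ q = v)) ∧ ((p = x ∨ p = y) ↔ (q = x ∨ q = y)) ∧ G.1.Adj p q,
   fun p => if p ≠ u ∧ p ≠ v ∧ p ≠ x ∧ p ≠ y then ad G.1 p u + ad G.1 p v else 0,
   fun p => if p ≠ u ∧ p ≠ v ∧ p ≠ x ∧ p ≠ y then ad G.1 p x + ad G.1 p y else 0)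

lemma Jk_iff {u v x y : Fin n} {G H : Omega n d} : Jk u v x y H = Jk u v x y G ↔
    (∀ p q, ((p = u ∨ p = v) ↔ (q = u ∨ q = v)) → ((p = x ∨ p = y) ↔ (q = x ∨ q = y)) →
      (H.1.Adj p q ↔ G.1.Adj p q)) ∧
    (∀ p, p ≠ u → p ≠ v → p ≠ x → p ≠ y → ad H.1 p u + ad H.1 p v = ad G.1 p u + ad G.1 p v) ∧
    (∀ p, p ≠ u → p ≠ v → p ≠ x → p ≠ y → ad H.1 p x + ad H.1 p y = ad G.1 p x + ad G.1 p y) := by
  simp only [Jk, Prod.ext_iff, funext_iff, eq_iff_iff]
  refine and_congr (forall_congr' fun p => forall_congr' fun q => by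
      rw [and_congr_right_iff, and_congr_right_iff])
    (and_congr (forall_congr' fun p => ?_) (forall_congr' fun p => ?_))
  · split_ifs with h <;> tauto
  · split_ifs with h <;> tauto

lemma Jk_flip {u v x y : Fin n} {G H : Omega n d} (h : Jk u v x y H = Jk u v x y G) :
    Jk x y u v H = Jk x y u v G := by
  rw [Jk_iff] at h ⊢
  exact ⟨fun p q h1 h2 => h.1 p q h2 h1, fun p h1 h2 h3 h4 => h.2.2 p h3 h4 h1 h2,
    fun p h1 h2 h3 h4 => h.2.1 p h3 h4 h1 h2⟩

lemma Jk_of_kap {u v x y : Fin n} (h : Dist u v x y) {G H : Omega n d}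
    (hk : kap u v H = kap u v G) : Jk u v x y H = Jk u v x y G := by
  rw [Jk_iff]
  refine ⟨fun p q h1 _ => kap_iff.1 hk p q h1, fun p h1 h2 _ _ => col_eq h.uv hk h1 h2,
    fun p h1 h2 _ _ => ?_⟩
  rw [ad_congr (kap_iff.1 hk p x (by simp [h1, h2, h.ux.symm, h.vx.symm])),
    ad_congr (kap_iff.1 hk p y (by simp [h1, h2, h.uy.symm, h.vy.symm]))]

/-- column sum of the block -/
noncomputable def cc (u v : Fin n) (G : Omega n d) (x : Fin n) : ℕ := ad G.1 x u + ad G.1 x v

lemma ad_le (G : SimpleGraph (Fin n)) (p q : Fin n) : ad G p q ≤ 1 := by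
  unfold ad; split_ifs <;> omega

lemma cc_le (u v : Fin n) (G : Omega n d) (x : Fin n) : cc u v G x ≤ 2 := by
  have := ad_le G.1 x u
  have := ad_le G.1 x v
  unfold cc; omega

lemma cc_sum (u v x y : Fin n) (G : Omega n d) :
    cc u v G x + cc u v G y = cc x y G u + cc x y G v := by
  unfold cc
  rw [ad_comm _ x u, ad_comm _ x v, ad_comm _ y u, ad_comm _ y v]; omega

noncomputable def Bk (u v x y : Fin n) (G : Omega n d) :=
  (Jk u v x y G, cc u v G x + cc u v G y, (cc u v G x = cc u v G y), (cc x y G u = cc x y G v))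

lemma Bk_iff {u v x y : Fin n} {G H : Omega n d} : Bk u v x y H = Bk u v x y G ↔
    Jk u v x y H = Jk u v x y G ∧ cc u v H x + cc u v H y = cc u v G x + cc u v G y ∧
    (cc u v H x = cc u v H y ↔ cc u v G x = cc u v G y) ∧
    (cc x y H u = cc x y H v ↔ cc x y G u = cc x y G v) := by
  simp only [Bk, Prod.ext_iff, eq_iff_iff]

lemma Bk_flip {u v x y : Fin n} {G H : Omega n d} (h : Bk u v x y H = Bk u v x y G) :
    Bk x y u v H = Bk x y u v G := by
  rw [Bk_iff] at h ⊢
  refine ⟨Jk_flip h.1, ?_, h.2.2.2, h.2.2.1⟩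
  rw [← cc_sum u v x y, ← cc_sum u v x y, h.2.1]

def Cmp (u v x y : Fin n) (G1 G2 : Omega n d) : Prop :=
  Jk u v x y G2 = Jk u v x y G1 ∧
    ((cc u v G1 x = cc u v G2 x ∧ cc u v G1 y = cc u v G2 y) ∨
     (cc u v G1 y = cc u v G2 x ∧ cc u v G1 x = cc u v G2 y))

noncomputable def sg (u v x y : Fin n) (G1 G2 : Omega n d) : Fin n → Fin n :=
  if cc u v G1 x = cc u v G2 x ∧ cc u v G1 y = cc u v G2 y then id else Equiv.swap x y

lemma sg_cases (u v x y : Fin n) (G1 G2 : Omega n d) :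
    (sg u v x y G1 G2 x = x ∧ sg u v x y G1 G2 y = y) ∨
    (sg u v x y G1 G2 x = y ∧ sg u v x y G1 G2 y = x) := by
  unfold sg; split_ifs <;> simp

lemma sg_cc {u v x y : Fin n} {G1 G2 : Omega n d} (hc : Cmp u v x y G1 G2) (q : Fin n)
    (hq : q = x ∨ q = y) : cc u v G1 (sg u v x y G1 G2 q) = cc u v G2 q := by
  unfold sg
  have := hc.2
  split_ifs with h
  · rcases hq with rfl | rfl
    · exact h.1
    · exact h.2
  · rcases hq with rfl | rfl
    · simp; tauto
    · simp; tauto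

noncomputable def mix {u v x y : Fin n} (h : Dist u v x y) (G1 G2 : Omega n d) : Omega n d :=
  if hc : Cmp u v x y G1 G2 then
    Omega.mk' (mixG h (sg u v x y G1 G2) G1.1 G2.1)
      (mixG_deg h _ (sg_cases u v x y G1 G2) G1 G2 (by
        intro q hq
        have := sg_cc hc q hq
        unfold cc at this
        rw [ad_comm _ u, ad_comm _ v, this, ad_comm _ u, ad_comm _ v]) (Jk_iff.1 hc.1).2.2)
  else G1

section mixfacts

variable {u v x y : Fin n} (h : Dist u v x y) {G1 G2 : Omega n d} (hc : Cmp u v x y G1 G2)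
include hc

lemma mix_val : (mix h G1 G2).1 = mixG h (sg u v x y G1 G2) G1.1 G2.1 := by
  unfold mix; rw [dif_pos hc]; rfl

lemma mix_kapa : kap u v (mix h G1 G2) = kap u v G2 := by
  rw [kap_iff]
  intro p q hpq
  have hJ := (Jk_iff.1 hc.1).1 p q hpq
  rw [mix_val h hc, mixG_adj]
  obtain ⟨h1, h2, h3, h4, h5, h6⟩ := h
  grind

lemma mix_kapb : kap x y (mix h G1 G2) = kap x y G1 := by
  rw [kap_iff]
  intro p q hpq
  have hJ := fun t => (Jk_iff.1 hc.1).1 p q t hpq
  rw [mix_val h hc, mixG_adj]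
  obtain ⟨h1, h2, h3, h4, h5, h6⟩ := h
  grind

lemma mix_col (q : Fin n) (hq : q = x ∨ q = y) : cc u v (mix h G1 G2) q = cc u v G2 q := by
  have := mix_kapa h hc
  apply col_eq h.uv this
  · rcases hq with rfl | rfl
    · exact h.ux.symm
    · exact h.uy.symm
  · rcases hq with rfl | rfl
    · exact h.vx.symm
    · exact h.vy.symm

lemma mix_row (p : Fin n) (hp : p = u ∨ p = v) : cc x y (mix h G1 G2) p = cc x y G1 p := by
  have := mix_kapb h hc
  apply col_eq h.xy this
  · rcases hp with rfl | rfl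
    · exact h.ux
    · exact h.vx
  · rcases hp with rfl | rfl
    · exact h.uy
    · exact h.vy

end mixfacts

lemma cmp_of_Bk {u v x y : Fin n} {G1 G2 : Omega n d} (hB : Bk u v x y G2 = Bk u v x y G1) :
    Cmp u v x y G1 G2 := by
  rw [Bk_iff] at hB
  refine ⟨hB.1, ?_⟩
  obtain ⟨-, h1, h2, -⟩ := hB
  have := cc_le u v G1 x
  have := cc_le u v G1 y
  have := cc_le u v G2 x
  have := cc_le u v G2 y
  omega

lemma mix_Bk {u v x y : Fin n} (h : Dist u v x y) {G1 G2 : Omega n d} (hc : Cmp u v x y G1 G2) :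
    Bk u v x y (mix h G1 G2) = Bk u v x y G1 := by
  rw [Bk_iff]
  refine ⟨(Jk_of_kap h (mix_kapa h hc)).trans hc.1, ?_, ?_, ?_⟩
  · rw [cc_sum, mix_row h hc u (Or.inl rfl), mix_row h hc v (Or.inr rfl), cc_sum]
  · rw [mix_col h hc x (Or.inl rfl), mix_col h hc y (Or.inr rfl)]
    have := hc.2
    omega
  · rw [mix_row h hc u (Or.inl rfl), mix_row h hc v (Or.inr rfl)]

/-- A general cancellation law for `mix`. -/
lemma mix_mix {u v x y : Fin n} (h : Dist u v x y) {G1 G2 G3 : Omega n d}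
    (hc : Cmp u v x y G1 G2) (hk : kap u v G3 = kap u v G1) : mix h (mix h G1 G2) G3 = G1 := by
  have e1 := col_eq h.uv hk h.ux.symm h.vx.symm
  have e2 := col_eq h.uv hk h.uy.symm h.vy.symm
  change cc u v G3 x = cc u v G1 x at e1
  change cc u v G3 y = cc u v G1 y at e2
  have e3 := mix_col h hc x (Or.inl rfl)
  have e4 := mix_col h hc y (Or.inr rfl)
  have hc' : Cmp u v x y (mix h G1 G2) G3 := by
    refine ⟨(Jk_of_kap h hk).trans ((Jk_of_kap h (mix_kapa h hc)).trans hc.1).symm, ?_⟩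
    have := hc.2
    omega
  have hσ : sg u v x y (mix h G1 G2) G3 = sg u v x y G1 G2 := by
    unfold sg
    rw [e1, e2, e3, e4]
    simp only [eq_comm]
  have hs := sg_cases u v x y G1 G2
  have AB : ∀ p q, (p = u ∨ p = v) → (q = x ∨ q = y) →
      ((mix h (mix h G1 G2) G3).1.Adj p q ↔ G1.1.Adj p q) := by
    intro p q hp hq
    rw [mix_val h hc', mixG_AB h _ _ _ hp hq, hσ, mix_val h hc,
      mixG_AB h _ _ _ hp (by grind)]
    have : sg u v x y G1 G2 (sg u v x y G1 G2 q) = q := by grind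
    rw [this]
  apply Omega.ext'
  intro p q
  by_cases hpq : (p = u ∨ p = v) ↔ (q = u ∨ q = v)
  · exact kap_iff.1 ((mix_kapa h hc').trans hk) p q hpq
  by_cases hpq' : (p = x ∨ p = y) ↔ (q = x ∨ q = y)
  · exact kap_iff.1 ((mix_kapb h hc').trans (mix_kapb h hc)) p q hpq'
  obtain ⟨h1, h2, h3, h4, h5, h6⟩ := id h
  by_cases hp : p = u ∨ p = v
  · exact AB p q hp (by grind)
  · by_cases hp' : p = x ∨ p = y
    · rw [SimpleGraph.adj_comm, G1.1.adj_comm]
      exact AB q p (by grind) hp'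
    · exfalso; grind

lemma meas_E_Bk {u v x y : Fin n} (h : Dist u v x y) (φ : Omega n d → ℝ)
    (hφ : Meas (Bk u v x y) φ) : Meas (Bk u v x y) (E (kap u v) φ) := by
  intro G1 G2 hB
  have hcol : ∀ G H : Omega n d, kap u v H = kap u v G →
      cc u v H x = cc u v G x ∧ cc u v H y = cc u v G y := fun G H hk =>
    ⟨col_eq h.uv hk h.ux.symm h.vx.symm, col_eq h.uv hk h.uy.symm h.vy.symm⟩
  by_cases he : cc u v G1 x = cc u v G1 y
  · have hB' := Bk_iff.1 hB
    have c1 : ∀ η, kap u v η = kap u v G2 → Cmp u v x y η G1 := by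
      intro η hη
      refine ⟨((Jk_of_kap h hη).trans hB'.1).symm, ?_⟩
      have := hcol _ _ hη
      omega
    have c2 : ∀ η, kap u v η = kap u v G1 → Cmp u v x y η G2 := by
      intro η hη
      refine ⟨hB'.1.trans (Jk_of_kap h hη).symm, ?_⟩
      have := hcol _ _ hη
      omega
    refine E_bij (fun η => mix h η G1) (fun η => mix h η G2) (fun η hη => mix_kapa h (c1 η hη))
      (fun η hη => mix_kapa h (c2 η hη)) (fun η hη => mix_mix h (c1 η hη) hη.symm)
      (fun η hη => mix_mix h (c2 η hη) hη.symm) (fun η hη => ?_)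
    exact (hφ _ _ (mix_Bk h (c1 η hη))).symm
  · have key : ∀ G : Omega n d, cc u v G x ≠ cc u v G y → E (kap u v) φ G = φ G := by
      intro G hG
      apply E_apply_of_const
      intro η hη
      apply hφ
      rw [Bk_iff]
      have a1 := hcol _ _ hη
      have a2 := cc_sum u v x y G
      have a3 := cc_sum u v x y η
      refine ⟨Jk_of_kap h hη, by omega, by omega, ?_⟩
      have := ad_le G.1 x u
      have := ad_le G.1 x v
      have := ad_le G.1 y u
      have := ad_le G.1 y v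
      have := ad_le η.1 x u
      have := ad_le η.1 x v
      have := ad_le η.1 y u
      have := ad_le η.1 y v
      unfold cc at *
      rw [ad_comm G.1 u x, ad_comm G.1 u y, ad_comm G.1 v x, ad_comm G.1 v y,
        ad_comm η.1 u x, ad_comm η.1 u y, ad_comm η.1 v x, ad_comm η.1 v y]
      omega
    rw [key G1 he, key G2 (by have := (Bk_iff.1 hB).2.2.1; tauto), hφ _ _ hB]

lemma diff_iff {u v x y : Fin n} (h : Dist u v x y) (G : Omega n d) :
    (pairStr h.uv).diff G x y ↔ cc u v G x + cc u v G y = 2 ∧ cc u v G x = cc u v G y ∧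
      cc x y G u = cc x y G v := by
  change (Dp u v G x ∧ Dp u v G y ∧ ¬ (G.1.Adj u x ↔ G.1.Adj u y)) ↔ _
  unfold Dp cc ad
  rw [G.1.adj_comm x u, G.1.adj_comm x v, G.1.adj_comm y u, G.1.adj_comm y v]
  have := h.ux.symm
  have := h.vx.symm
  have := h.uy.symm
  have := h.vy.symm
  by_cases a1 : G.1.Adj u x <;> by_cases a2 : G.1.Adj u y <;> by_cases a3 : G.1.Adj v x <;>
    by_cases a4 : G.1.Adj v y <;> simp [*]

lemma diff_flip {u v x y : Fin n} (h : Dist u v x y) (G : Omega n d) :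
    (pairStr h.xy).diff G u v ↔ (pairStr h.uv).diff G x y := by
  rw [diff_iff h, diff_iff h.flip, cc_sum]
  tauto

lemma kapb_tau {u v x y : Fin n} (h : Dist u v x y) (G : Omega n d) :
    kap x y (tau h.uv x y G) = kap x y G := by
  by_cases hd : Dp u v G x ∧ Dp u v G y ∧ x ≠ y
  · rw [kap_iff]
    intro p q hpq
    rw [tau_adj h.uv hd, mixG_adj]
    obtain ⟨h1, h2, h3, h4, h5, h6⟩ := h
    grind
  · unfold tau; rw [dif_neg hd]

lemma Bk_of_kap_diff {u v x y : Fin n} (h : Dist u v x y) {G H : Omega n d}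
    (h1 : (pairStr h.uv).diff G x y) (h2 : (pairStr h.uv).diff H x y)
    (hJ : Jk u v x y H = Jk u v x y G) : Bk u v x y H = Bk u v x y G := by
  rw [diff_iff h] at h1 h2
  rw [Bk_iff]
  refine ⟨hJ, by omega, by omega, by omega⟩

theorem graph_disj {u v x y : Fin n} (h : Dist u v x y) (f : Omega n d → ℝ) :
    ip ((pairStr h.uv).A x y f) ((pairStr h.uv).A x y f) -
      (ip ((pairStr h.uv).W x y (Q (kap u v) f)) ((pairStr h.uv).W x y (Q (kap u v) f)) +
       ip ((pairStr h.xy).W u v (Q (kap x y) f)) ((pairStr h.xy).W u v (Q (kap x y) f))) / 2 ≤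
      ip (Q (kap u v) f) (Q (kap x y) f) := by
  have hcol : ∀ G H : Omega n d, kap u v H = kap u v G →
      cc u v H x = cc u v G x ∧ cc u v H y = cc u v G y := fun G H hk =>
    ⟨col_eq h.uv hk h.ux.symm h.vx.symm, col_eq h.uv hk h.uy.symm h.vy.symm⟩
  have hrow : ∀ G H : Omega n d, kap x y H = kap x y G →
      cc x y H u = cc x y G u ∧ cc x y H v = cc x y G v := fun G H hk =>
    ⟨col_eq h.xy hk h.ux h.uy, col_eq h.xy hk h.vx h.vy⟩
  have main := disj_ineq (kap u v) (kap x y) (Bk u v x y) (fun G => (pairStr h.uv).diff G x y)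
    (tau h.uv x y) ((pairStr h.uv).τ_τ x y) (kap_tau h.uv x y) (kapb_tau h) ?_
    (meas_E_Bk h) ?_ ?_ ?_ ?_ ?_ ?_ f
  · have e : (pairStr (d := d) h.xy).W u v (Q (kap x y) f) = fun G =>
        if (pairStr h.uv).diff G x y then
          E (fun η => (kap x y η, (pairStr h.uv).diff η x y)) (Q (kap x y) f) G else 0 := by
      funext G
      unfold PairStr.W PairStr.κ'
      simp only [diff_flip h]
      rfl
    rw [e]
    exact main
  · intro G
    rw [Bk_iff]
    have a1 := hcol _ _ (kap_tau h.uv x y G)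
    have a2 := hrow _ _ (kapb_tau h G)
    exact ⟨Jk_of_kap h (kap_tau h.uv x y G), by omega, by omega, by omega⟩
  · intro φ hφ G H hB
    exact meas_E_Bk h.flip φ (fun G H hB => hφ G H (Bk_flip hB)) G H (Bk_flip hB)
  · refine indep_of_mix _ _ _ (mix h) (fun G H hB => mix_Bk h (cmp_of_Bk hB))
      (fun G H hB => mix_kapa h (cmp_of_Bk hB)) (fun G H hB => mix_kapb h (cmp_of_Bk hB))
      (fun G H hB => mix_mix h (cmp_of_Bk hB) (mix_kapa h (cmp_of_Bk hB.symm)))
  · intro G H hB
    rw [Bk_iff] at hB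
    simp only [diff_iff h]
    omega
  · intro G hG
    simp only [diff_iff h] at hG
    have b1 := cc_sum u v x y G
    have := cc_le u v G x
    have := cc_le u v G y
    have := cc_le x y G u
    have := cc_le x y G v
    have loc : ∀ G : Omega n d, (cc u v G x ≠ cc u v G y → cc x y G u ≠ cc x y G v →
          cc u v G x + cc u v G y ≠ 2) ∧
        (cc u v G x + cc u v G y ≠ 2 → (cc u v G x = cc u v G y ↔ cc x y G u = cc x y G v)) := by
      intro G
      have := ad_le G.1 x u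
      have := ad_le G.1 x v
      have := ad_le G.1 y u
      have := ad_le G.1 y v
      unfold cc
      rw [ad_comm G.1 u x, ad_comm G.1 u y, ad_comm G.1 v x, ad_comm G.1 v y]
      omega
    by_cases hR : cc u v G x + cc u v G y = 2 ∧ cc u v G x = cc u v G y
    · right
      intro η hη
      have a2 := hrow _ _ hη
      have b2 := cc_sum u v x y η
      have := loc η
      rw [Bk_iff]
      exact ⟨Jk_flip (Jk_of_kap h.flip hη), by omega, by omega, by omega⟩
    · left
      intro η hη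
      have a1 := hcol _ _ hη
      have := loc η
      have := loc G
      rw [Bk_iff]
      exact ⟨Jk_of_kap h hη, by omega, by omega, by omega⟩
  · intro G H h1 h2 hk
    exact Bk_of_kap_diff h h1 h2 (Jk_of_kap h hk)
  · intro G H h1 h2 hk
    exact Bk_of_kap_diff h h1 h2 (Jk_flip (Jk_of_kap h.flip hk))

end Vale.Agent.P335
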