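import Vale.Agent.P335.Spec

/-! Comparison of averages over two levels of the Boolean lattice. -/

namespace Vale.Agent.P335

open Finset
open scoped Classical

lemma biregular {α γ : Type*} (A : Finset α) (B : Finset γ) (r : α → γ → Prop) (a b : ℕ)
    (ha : 0 < a) (hB : B.Nonempty)
    (hA : ∀ x ∈ A, (B.filter fun y => r x y).card = a)
    (hb : ∀ y ∈ B, (A.filter fun x => r x y).card = b)
    (ψ : α → ℝ) (φ : γ → ℝ) (M : ℝ) (h : ∀ x ∈ A, ∀ y ∈ B, r x y → ψ x ≤ φ y + M) :
    ∑ x ∈ A, (ψ x - ((∑ y ∈ B, φ y) / B.card + M)) ≤ 0 := by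
  have hBpos : (0 : ℝ) < B.card := by exact_mod_cast card_pos.2 hB
  set c : ℝ := (∑ y ∈ B, φ y) / B.card with hc
  have h1 : (a : ℝ) * ∑ x ∈ A, (ψ x - (c + M)) =
      ∑ x ∈ A, ∑ y ∈ B, if r x y then ψ x - (c + M) else 0 := by
    rw [mul_sum]
    refine sum_congr rfl fun x hx => ?_
    rw [← sum_filter, sum_const, hA x hx, nsmul_eq_mul]
  have h2 : ∑ x ∈ A, ∑ y ∈ B, (if r x y then φ y - c else 0) = 0 := by
    rw [sum_comm]
    have : ∀ y ∈ B, ∑ x ∈ A, (if r x y then φ y - c else 0) = (b : ℝ) * (φ y - c) := by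
      intro y hy
      rw [← sum_filter, sum_const, hb y hy, nsmul_eq_mul]
    rw [sum_congr rfl this, ← mul_sum, sum_sub_distrib, sum_const, nsmul_eq_mul, hc]
    field_simp
    ring
  have h3 : (a : ℝ) * ∑ x ∈ A, (ψ x - (c + M)) ≤ 0 := by
    rw [h1]
    refine le_trans (sum_le_sum fun x hx => sum_le_sum fun y hy => ?_) h2.le
    split_ifs with hr
    · have := h x hx y hy hr; linarith
    · exact le_rfl
  have ha' : (0 : ℝ) < a := by exact_mod_cast ha
  by_contra hneg
  push Not at hneg
  have := mul_pos ha' hneg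
  linarith

lemma level {C : Type*} (D : Finset C) (j k : ℕ) (hk : k ≤ D.card) (ψ φ : Finset C → ℝ) (M : ℝ)
    (h : ∀ J ∈ powersetCard j D, ∀ K ∈ powersetCard k D, (J ⊆ K ∨ K ⊆ J) → ψ J ≤ φ K + M) :
    ∑ J ∈ powersetCard j D,
      (ψ J - ((∑ K ∈ powersetCard k D, φ K) / (powersetCard k D).card + M)) ≤ 0 := by
  have hB : (powersetCard k D).Nonempty := powersetCard_nonempty.2 hk
  have hsub : ∀ (m : ℕ) (T : Finset C), T ⊆ D →
      ((powersetCard m D).filter fun U => U ⊆ T).card = T.card.choose m := by
    intro m T hT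
    rw [← card_powersetCard]
    congr 1
    ext U
    simp only [mem_filter, mem_powersetCard]
    exact ⟨fun h => ⟨h.2, h.1.2⟩, fun h => ⟨⟨h.1.trans hT, h.2⟩, h.1⟩⟩
  rcases le_total j k with hjk | hjk
  · refine biregular _ _ (fun J K => J ⊆ K) ((D.card - j).choose (k - j)) (k.choose j)
      (Nat.choose_pos (by omega)) hB ?_ ?_ ψ φ M (fun J hJ K hK hr => h J hJ K hK (Or.inl hr))
    · intro J hJ
      obtain ⟨h1, h2⟩ := mem_powersetCard.1 hJ
      have := card_filter_powersetCard_subset J D k h1 (by omega)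
      rw [h2] at this
      convert this
    · intro K hK
      obtain ⟨h1, h2⟩ := mem_powersetCard.1 hK
      have := hsub j K h1
      rw [h2] at this
      convert this
  · refine biregular _ _ (fun J K => K ⊆ J) (j.choose k) ((D.card - k).choose (j - k))
      (Nat.choose_pos hjk) hB ?_ ?_ ψ φ M (fun J hJ K hK hr => h J hJ K hK (Or.inr hr))
    · intro J hJ
      obtain ⟨h1, h2⟩ := mem_powersetCard.1 hJ
      have := hsub k J h1
      rw [h2] at this
      convert this
    · intro K hK
      obtain ⟨h1, h2⟩ := mem_powersetCard.1 hK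
      have := card_filter_powersetCard_subset K D j h1 (by omega)
      rw [h2] at this
      convert this

/-- Averages over level `k + 1` of `D ∪ {x, y}` against level `k` of `D`. -/
lemma level_two {C : Type*} (D : Finset C) (x y : C) (hx : x ∉ D) (hy : y ∉ D) (hxy : x ≠ y)
    (k : ℕ) (hk : k ≤ D.card) (ψ φ : Finset C → ℝ) (M : ℝ)
    (h0 : ∀ J ∈ powersetCard (k + 1) D, ∀ K ∈ powersetCard k D, K ⊆ J → ψ J ≤ φ K + M)
    (h1 : ∀ K ∈ powersetCard k D, ψ (insert x K) ≤ φ K + M)
    (h2 : ∀ K ∈ powersetCard k D, ψ (insert y K) ≤ φ K + M)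
    (h3 : ∀ J ⊆ D, J.card + 1 = k → ∀ K ∈ powersetCard k D, J ⊆ K →
      ψ (insert x (insert y J)) ≤ φ K + M) :
    (∑ J ∈ powersetCard (k + 1) (insert x (insert y D)), ψ J) /
        (powersetCard (k + 1) (insert x (insert y D))).card ≤
      (∑ K ∈ powersetCard k D, φ K) / (powersetCard k D).card + M := by
  set c : ℝ := (∑ K ∈ powersetCard k D, φ K) / (powersetCard k D).card + M with hc
  have hxy' : x ∉ insert y D := by simp [hx, hxy]
  have hpos : (0 : ℝ) < (powersetCard (k + 1) (insert x (insert y D))).card := by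
    have : (powersetCard (k + 1) (insert x (insert y D))).Nonempty := by
      apply powersetCard_nonempty.2
      rw [card_insert_of_notMem hxy', card_insert_of_notMem hy]; omega
    exact_mod_cast card_pos.2 this
  rw [div_le_iff₀ hpos]
  suffices H : ∑ J ∈ powersetCard (k + 1) (insert x (insert y D)), (ψ J - c) ≤ 0 by
    rw [sum_sub_distrib, sum_const, nsmul_eq_mul] at H; linarith
  rw [powersetCard_eq_filter, sum_filter, sum_powerset_insert hxy', sum_powerset_insert hy,
    sum_powerset_insert hy]
  have eqs : ∀ K ∈ powersetCard k D, ∀ J ∈ powersetCard k D, (J ⊆ K ∨ K ⊆ J) → J = K := by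
    intro K hK J hJ hr
    have e1 := (mem_powersetCard.1 hK).2
    have e2 := (mem_powersetCard.1 hJ).2
    rcases hr with hr | hr
    · exact eq_of_subset_of_card_le hr (by omega)
    · exact (eq_of_subset_of_card_le hr (by omega)).symm
  have s0 : ∑ t ∈ D.powerset, (if t.card = k + 1 then ψ t - c else 0) ≤ 0 := by
    rw [← sum_filter, ← powersetCard_eq_filter]
    refine level D (k + 1) k hk ψ φ M fun J hJ K hK hr => ?_
    rcases hr with hr | hr
    · have := card_le_card hr
      rw [(mem_powersetCard.1 hJ).2, (mem_powersetCard.1 hK).2] at this; omega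
    · exact h0 J hJ K hK hr
  have s1 : ∀ z, z ∉ D → (∀ K ∈ powersetCard k D, ψ (insert z K) ≤ φ K + M) →
      ∑ t ∈ D.powerset, (if (insert z t).card = k + 1 then ψ (insert z t) - c else 0) ≤ 0 := by
    intro z hz hψ
    have : ∀ t ∈ D.powerset, (if (insert z t).card = k + 1 then ψ (insert z t) - c else 0) =
        (if t.card = k then ψ (insert z t) - c else 0) := by
      intro t ht
      rw [card_insert_of_notMem (fun h => hz (mem_powerset.1 ht h))]
      simp
    rw [sum_congr rfl this, ← sum_filter, ← powersetCard_eq_filter]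
    refine level D k k hk (fun t => ψ (insert z t)) φ M fun J hJ K hK hr => ?_
    rw [eqs K hK J hJ hr]; exact hψ K hK
  have s3 : ∑ t ∈ D.powerset, (if (insert x (insert y t)).card = k + 1 then
      ψ (insert x (insert y t)) - c else 0) ≤ 0 := by
    have hcard : ∀ t ∈ D.powerset, (insert x (insert y t)).card = t.card + 2 := by
      intro t ht
      have h4 : y ∉ t := fun h => hy (mem_powerset.1 ht h)
      have h5 : x ∉ insert y t := by
        simp only [mem_insert, not_or]; exact ⟨hxy, fun h => hx (mem_powerset.1 ht h)⟩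
      rw [card_insert_of_notMem h5, card_insert_of_notMem h4]
    rcases k with _ | k
    · refine sum_nonpos fun t ht => ?_
      rw [if_neg]; rw [hcard t ht]; omega
    · have : ∀ t ∈ D.powerset, (if (insert x (insert y t)).card = k + 1 + 1 then
          ψ (insert x (insert y t)) - c else 0) =
          (if t.card = k then ψ (insert x (insert y t)) - c else 0) := by
        intro t ht
        rw [hcard t ht]
        simp
      rw [sum_congr rfl this, ← sum_filter, ← powersetCard_eq_filter]
      refine level D k (k + 1) hk (fun t => ψ (insert x (insert y t))) φ M fun J hJ K hK hr => ?_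
      rcases hr with hr | hr
      · exact h3 J (mem_powersetCard.1 hJ).1 (by rw [(mem_powersetCard.1 hJ).2]) K hK hr
      · have := card_le_card hr
        rw [(mem_powersetCard.1 hJ).2, (mem_powersetCard.1 hK).2] at this; omega
  have := s1 x hx h1
  have := s1 y hy h2
  linarith

end Vale.Agent.P335
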