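import Mathlib.Analysis.Matrix.Spectrum

/-! Finite spectral lemma and conditional averaging operators. -/

namespace Vale.Agent.P335

open Finset
open scoped Classical

variable {Ω : Type*} [Fintype Ω]

/-- The counting inner product. -/
def ip (f g : Ω → ℝ) : ℝ := ∑ ω, f ω * g ω

lemma ip_comm (f g : Ω → ℝ) : ip f g = ip g f := by
  unfold ip; exact sum_congr rfl fun _ _ => mul_comm _ _

lemma ip_add_left (f g h : Ω → ℝ) : ip (f + g) h = ip f h + ip g h := by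
  simp [ip, add_mul, sum_add_distrib]

lemma ip_add_right (f g h : Ω → ℝ) : ip h (f + g) = ip h f + ip h g := by
  simp [ip, mul_add, sum_add_distrib]

lemma ip_sub_left (f g h : Ω → ℝ) : ip (f - g) h = ip f h - ip g h := by
  simp [ip, sub_mul, sum_sub_distrib]

lemma ip_sub_right (f g h : Ω → ℝ) : ip h (f - g) = ip h f - ip h g := by
  simp [ip, mul_sub, sum_sub_distrib]

lemma ip_smul_left (c : ℝ) (f h : Ω → ℝ) : ip (c • f) h = c * ip f h := by
  simp [ip, mul_sum, mul_assoc]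

lemma ip_smul_right (c : ℝ) (f h : Ω → ℝ) : ip h (c • f) = c * ip h f := by
  rw [ip_comm, ip_smul_left, ip_comm]

lemma ip_sum_left {ι : Type*} (s : Finset ι) (F : ι → Ω → ℝ) (h : Ω → ℝ) :
    ip (∑ i ∈ s, F i) h = ∑ i ∈ s, ip (F i) h := by
  unfold ip
  simp only [Finset.sum_apply, sum_mul]
  exact sum_comm

lemma ip_sum_right {ι : Type*} (s : Finset ι) (F : ι → Ω → ℝ) (h : Ω → ℝ) :
    ip h (∑ i ∈ s, F i) = ∑ i ∈ s, ip h (F i) := by
  rw [ip_comm, ip_sum_left]; exact sum_congr rfl fun _ _ => ip_comm _ _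

lemma ip_self_nonneg (f : Ω → ℝ) : 0 ≤ ip f f :=
  sum_nonneg fun _ _ => mul_self_nonneg _

@[simp] lemma ip_zero_left (f : Ω → ℝ) : ip 0 f = 0 := by simp [ip]

@[simp] lemma ip_zero_right (f : Ω → ℝ) : ip f 0 = 0 := by simp [ip]

lemma eq_zero_of_ip_self {f : Ω → ℝ} (h : ip f f = 0) : f = 0 := by
  funext ω
  have := (sum_eq_zero_iff_of_nonneg (fun ω _ => mul_self_nonneg (f ω))).1 h ω (mem_univ _)
  simpa using this

lemma ip_comp_invol (τ : Ω → Ω) (hτ : ∀ ω, τ (τ ω) = ω) (f g : Ω → ℝ) :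
    ip (fun ω => f (τ ω)) g = ip f (fun ω => g (τ ω)) := by
  unfold ip
  have hb : Function.Bijective τ := Function.Involutive.bijective hτ
  refine Fintype.sum_bijective τ hb _ _ ?_
  intro ω; simp only [hτ]

lemma ip_comp_self (τ : Ω → Ω) (hτ : ∀ ω, τ (τ ω) = ω) (f : Ω → ℝ) :
    ip (fun ω => f (τ ω)) (fun ω => f (τ ω)) = ip f f := by
  rw [ip_comp_invol τ hτ]; simp only [hτ]

/-- Spectral theorem for a symmetric operator on functions. -/
theorem spectral (T : (Ω → ℝ) → (Ω → ℝ)) (hT : ∀ f g, ip (T f) g = ip f (T g)) :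
    ∃ (θ : Ω → ℝ) (v : Ω → Ω → ℝ), (∀ i, v i ≠ 0 ∧ T (v i) = θ i • v i) ∧
      ∀ f g, ip f g = ∑ i, ip (v i) f * ip (v i) g := by
  let M : Matrix Ω Ω ℝ := Matrix.of fun ω η => T (Pi.single ω 1) η
  have hM : ∀ f, T f = M.mulVec f := by
    intro f; funext ω
    have h1 : ip (T f) (Pi.single ω 1) = T f ω := by
      simp [ip, Pi.single_apply]
    rw [← h1, hT]
    simp [ip, M, Matrix.mulVec, dotProduct, mul_comm]
  have hH : M.IsHermitian := by
    ext ω η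
    have h1 : ip (T (Pi.single η 1)) (Pi.single ω 1) = T (Pi.single η 1) ω := by
      simp [ip, Pi.single_apply]
    have h2 : ip (Pi.single η 1) (T (Pi.single ω 1)) = T (Pi.single ω 1) η := by
      simp [ip, Pi.single_apply]
    simp only [Matrix.conjTranspose_apply, M, Matrix.of_apply, star_trivial]
    rw [← h1, hT, h2]
  refine ⟨hH.eigenvalues, fun i => ⇑(hH.eigenvectorBasis i), fun i => ⟨?_, ?_⟩, ?_⟩
  · intro h
    have := hH.eigenvectorBasis.orthonormal.ne_zero i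
    apply this
    ext ω
    exact congrFun h ω
  · rw [hM]; exact hH.mulVec_eigenvectorBasis i
  · intro f g
    have := hH.eigenvectorBasis.sum_inner_mul_inner (WithLp.toLp 2 f) (WithLp.toLp 2 g)
    simp only [PiLp.inner_apply, RCLike.inner_apply, conj_trivial] at this
    unfold ip
    rw [show (∑ ω, f ω * g ω) = ∑ ω, g ω * f ω from sum_congr rfl fun _ _ => mul_comm _ _, ← this]
    refine sum_congr rfl fun i _ => ?_
    congr 1
    exact sum_congr rfl fun _ _ => mul_comm _ _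

/-- If every eigenvalue is nonnegative the form is nonnegative. -/
theorem form_nonneg_of_eig (T : (Ω → ℝ) → (Ω → ℝ)) (hT : ∀ f g, ip (T f) g = ip f (T g))
    (h : ∀ (θ : ℝ) (v : Ω → ℝ), v ≠ 0 → T v = θ • v → 0 ≤ θ) (f : Ω → ℝ) : 0 ≤ ip f (T f) := by
  obtain ⟨θ, v, hv, hs⟩ := spectral T hT
  rw [hs]
  refine sum_nonneg fun i _ => ?_
  rw [← hT, (hv i).2, ip_smul_left]
  have := h _ _ (hv i).1 (hv i).2
  nlinarith [mul_self_nonneg (ip (v i) f)]

/-- If every eigenvalue satisfies `θ ≤ θ ^ 2` then `⟨f, T f⟩ ≤ ⟨T f, T f⟩`. -/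
theorem form_le_sq_of_eig (T : (Ω → ℝ) → (Ω → ℝ)) (hT : ∀ f g, ip (T f) g = ip f (T g))
    (h : ∀ (θ : ℝ) (v : Ω → ℝ), v ≠ 0 → T v = θ • v → θ ≤ θ * θ) (f : Ω → ℝ) :
    ip f (T f) ≤ ip (T f) (T f) := by
  obtain ⟨θ, v, hv, hs⟩ := spectral T hT
  rw [hs, hs (T f)]
  refine sum_le_sum fun i _ => ?_
  rw [← hT, (hv i).2, ip_smul_left]
  have := h _ _ (hv i).1 (hv i).2
  nlinarith [mul_self_nonneg (ip (v i) f)]

/-- Bochner: `c T ≤ T ^ 2`, `T ≥ 0` and constant kernel give the gap `c`. -/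
theorem gap_of_bochner (T : (Ω → ℝ) → (Ω → ℝ)) (hT : ∀ f g, ip (T f) g = ip f (T g)) (c : ℝ)
    (h0 : ∀ f, 0 ≤ ip f (T f)) (hB : ∀ f, c * ip f (T f) ≤ ip (T f) (T f))
    (hker : ∀ v, T v = 0 → ∀ ω η, v ω = v η) (f : Ω → ℝ) (hf : ∑ ω, f ω = 0) :
    c * ip f f ≤ ip f (T f) := by
  obtain ⟨θ, v, hv, hs⟩ := spectral T hT
  rw [hs, hs f (T f), mul_sum]
  refine sum_le_sum fun i _ => ?_
  rw [← hT, (hv i).2, ip_smul_left]
  have hpos : 0 < ip (v i) (v i) := by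
    rcases (ip_self_nonneg (v i)).lt_or_eq with h | h
    · exact h
    · exact absurd (eq_zero_of_ip_self h.symm) (hv i).1
  by_cases hθ : θ i = 0
  · have hc := hker (v i) (by rw [(hv i).2, hθ, zero_smul])
    have : ip (v i) f = 0 := by
      unfold ip
      rw [show (∑ ω, v i ω * f ω) = ∑ ω, v i i * f ω from
        sum_congr rfl fun ω _ => by rw [hc ω i], ← mul_sum, hf, mul_zero]
    simp [this]
  · have h1 := h0 (v i)
    have h2 := hB (v i)
    rw [(hv i).2, ip_smul_right] at h1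
    rw [(hv i).2, ip_smul_right, ip_smul_left, ip_smul_right] at h2
    have h3 : 0 ≤ θ i := by
      by_contra hneg
      push Not at hneg
      nlinarith
    have h4 : 0 < θ i := lt_of_le_of_ne h3 (Ne.symm hθ)
    have h5 : c ≤ θ i := by
      by_contra hneg
      push Not at hneg
      have : 0 < θ i * ip (v i) (v i) := mul_pos h4 hpos
      nlinarith
    nlinarith [mul_self_nonneg (ip (v i) f)]

/-- A symmetric operator with form between `0` and `r` is an `r`-contraction. -/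
theorem contraction_of_form (T : (Ω → ℝ) → (Ω → ℝ)) (hT : ∀ f g, ip (T f) g = ip f (T g)) (r : ℝ)
    (h0 : ∀ f, 0 ≤ ip f (T f)) (h1 : ∀ f, ip f (T f) ≤ r * ip f f) (f : Ω → ℝ) :
    ip (T f) (T f) ≤ r ^ 2 * ip f f := by
  obtain ⟨θ, v, hv, hs⟩ := spectral T hT
  rw [hs, hs f f, mul_sum]
  refine sum_le_sum fun i _ => ?_
  rw [← hT, (hv i).2, ip_smul_left]
  have hpos : 0 < ip (v i) (v i) := by
    rcases (ip_self_nonneg (v i)).lt_or_eq with h | h
    · exact h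
    · exact absurd (eq_zero_of_ip_self h.symm) (hv i).1
  have h2 := h0 (v i)
  have h3 := h1 (v i)
  rw [(hv i).2, ip_smul_right] at h2 h3
  have h4 : 0 ≤ θ i := by
    by_contra hneg
    push Not at hneg
    nlinarith
  have h5 : θ i ≤ r := by
    by_contra hneg
    push Not at hneg
    nlinarith
  have h6 : θ i ^ 2 ≤ r ^ 2 := by nlinarith
  nlinarith [mul_self_nonneg (ip (v i) f)]

section Avg

variable {β : Type*}

/-- The class of `ω` for the key `κ`. -/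
noncomputable def cls (κ : Ω → β) (ω : Ω) : Finset Ω := univ.filter fun η => κ η = κ ω

lemma mem_cls {κ : Ω → β} {ω η : Ω} : η ∈ cls κ ω ↔ κ η = κ ω := by simp [cls]

lemma self_mem_cls (κ : Ω → β) (ω : Ω) : ω ∈ cls κ ω := mem_cls.2 rfl

lemma cls_card_pos (κ : Ω → β) (ω : Ω) : (0 : ℝ) < (cls κ ω).card := by
  exact_mod_cast card_pos.2 ⟨ω, self_mem_cls κ ω⟩

lemma cls_eq {κ : Ω → β} {ω η : Ω} (h : κ η = κ ω) : cls κ η = cls κ ω := by
  ext ζ; simp [mem_cls, h]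

/-- Average over the class. -/
noncomputable def E (κ : Ω → β) (f : Ω → ℝ) (ω : Ω) : ℝ :=
  (∑ η ∈ cls κ ω, f η) / (cls κ ω).card

/-- `f` is measurable for the key `κ`. -/
def Meas (κ : Ω → β) (f : Ω → ℝ) : Prop := ∀ ω η, κ η = κ ω → f η = f ω

lemma meas_E (κ : Ω → β) (f : Ω → ℝ) : Meas κ (E κ f) := by
  intro ω η h; unfold E; rw [cls_eq h]

lemma E_of_meas {κ : Ω → β} {f : Ω → ℝ} (h : Meas κ f) : E κ f = f := by
  funext ω; unfold E
  rw [sum_congr rfl (fun η hη => h ω η (mem_cls.1 hη)), sum_const, nsmul_eq_mul]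
  field_simp [(cls_card_pos κ ω).ne']

lemma E_E (κ : Ω → β) (f : Ω → ℝ) : E κ (E κ f) = E κ f := E_of_meas (meas_E κ f)

lemma E_add (κ : Ω → β) (f g : Ω → ℝ) : E κ (f + g) = E κ f + E κ g := by
  funext ω; simp [E, sum_add_distrib, add_div]

lemma E_sub (κ : Ω → β) (f g : Ω → ℝ) : E κ (f - g) = E κ f - E κ g := by
  funext ω; simp [E, sum_sub_distrib, sub_div]

lemma E_smul (κ : Ω → β) (c : ℝ) (f : Ω → ℝ) : E κ (c • f) = c • E κ f := by
  funext ω; simp [E, ← mul_sum, mul_div_assoc]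

lemma E_sum {ι : Type*} (κ : Ω → β) (s : Finset ι) (F : ι → Ω → ℝ) :
    E κ (∑ i ∈ s, F i) = ∑ i ∈ s, E κ (F i) := by
  funext ω
  simp only [E, Finset.sum_apply]
  rw [sum_comm, sum_div]

@[simp] lemma E_zero (κ : Ω → β) : E κ 0 = 0 := by funext ω; simp [E]

lemma E_symm (κ : Ω → β) (f g : Ω → ℝ) : ip (E κ f) g = ip f (E κ g) := by
  unfold ip E
  simp only [div_eq_mul_inv, sum_mul, mul_sum]
  rw [sum_comm' (s' := fun η => cls κ η) (t' := univ)]
  · refine sum_congr rfl fun η _ => sum_congr rfl fun ω hω => ?_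
    rw [cls_eq (mem_cls.1 hω)]; ring
  · intro ω η; simp [mem_cls, eq_comm]

lemma ip_E_meas {κ : Ω → β} (f : Ω → ℝ) {g : Ω → ℝ} (hg : Meas κ g) : ip (E κ f) g = ip f g := by
  rw [E_symm, E_of_meas hg]

lemma ip_E_E (κ : Ω → β) (f g : Ω → ℝ) : ip (E κ f) (E κ g) = ip f (E κ g) :=
  ip_E_meas f (meas_E κ g)

lemma ip_E_le (κ : Ω → β) (f : Ω → ℝ) : ip (E κ f) (E κ f) ≤ ip f f := by
  have h := ip_self_nonneg (f - E κ f)
  rw [ip_sub_left, ip_sub_right, ip_sub_right, ip_E_E, ip_comm (E κ f) f] at h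
  rw [ip_E_E]; linarith

lemma E_congr_key {γ : Type*} {κ : Ω → β} {κ' : Ω → γ} (h : ∀ ω η, κ η = κ ω ↔ κ' η = κ' ω) :
    E κ = E κ' := by
  funext f ω
  have : cls κ ω = cls κ' ω := by ext η; simp [mem_cls, h]
  unfold E; rw [this]

lemma E_le {κ : Ω → β} {f : Ω → ℝ} {ω : Ω} {M : ℝ} (h : ∀ η, κ η = κ ω → f η ≤ M) :
    E κ f ω ≤ M := by
  unfold E
  rw [div_le_iff₀ (cls_card_pos κ ω), mul_comm, ← nsmul_eq_mul, ← sum_const]
  exact sum_le_sum fun η hη => h η (mem_cls.1 hη)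

/-- Averages are transported along a bijection between classes. -/
lemma E_bij {κ : Ω → β} {f g : Ω → ℝ} {ω ω' : Ω} (φ ψ : Ω → Ω)
    (h1 : ∀ η, κ η = κ ω → κ (φ η) = κ ω') (h2 : ∀ η, κ η = κ ω' → κ (ψ η) = κ ω)
    (h3 : ∀ η, κ η = κ ω → ψ (φ η) = η) (h4 : ∀ η, κ η = κ ω' → φ (ψ η) = η)
    (h5 : ∀ η, κ η = κ ω → f η = g (φ η)) : E κ f ω = E κ g ω' := by
  unfold E
  have hs : ∀ F G : Ω → ℝ, (∀ η, κ η = κ ω → F η = G (φ η)) →
      ∑ η ∈ cls κ ω, F η = ∑ η ∈ cls κ ω', G η := by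
    intro F G h
    refine sum_nbij' φ ψ ?_ ?_ ?_ ?_ ?_
    · intro η hη; exact mem_cls.2 (h1 η (mem_cls.1 hη))
    · intro η hη; exact mem_cls.2 (h2 η (mem_cls.1 hη))
    · intro η hη; exact h3 η (mem_cls.1 hη)
    · intro η hη; exact h4 η (mem_cls.1 hη)
    · intro η hη; exact h η (mem_cls.1 hη)
  have hc := hs (fun _ => 1) (fun _ => 1) (fun _ _ => rfl)
  simp only [sum_const, nsmul_eq_mul, mul_one] at hc
  rw [hs f g h5, hc]

/-- The complementary projection. -/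
noncomputable def Q (κ : Ω → β) (f : Ω → ℝ) : Ω → ℝ := f - E κ f

lemma Q_symm (κ : Ω → β) (f g : Ω → ℝ) : ip (Q κ f) g = ip f (Q κ g) := by
  unfold Q; rw [ip_sub_left, ip_sub_right, E_symm]

lemma E_Q (κ : Ω → β) (f : Ω → ℝ) : E κ (Q κ f) = 0 := by
  unfold Q; rw [E_sub, E_E, sub_self]

lemma Q_Q (κ : Ω → β) (f : Ω → ℝ) : Q κ (Q κ f) = Q κ f := by
  rw [Q, E_Q, sub_zero]

lemma ip_Q_Q (κ : Ω → β) (f g : Ω → ℝ) : ip (Q κ f) (Q κ g) = ip f (Q κ g) := by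
  rw [Q_symm, Q_Q]

lemma ip_Q_meas {κ : Ω → β} (f : Ω → ℝ) {g : Ω → ℝ} (hg : Meas κ g) : ip (Q κ f) g = 0 := by
  unfold Q; rw [ip_sub_left, ip_E_meas f hg, sub_self]

lemma Q_add (κ : Ω → β) (f g : Ω → ℝ) : Q κ (f + g) = Q κ f + Q κ g := by
  unfold Q; rw [E_add]; abel

lemma Q_sub (κ : Ω → β) (f g : Ω → ℝ) : Q κ (f - g) = Q κ f - Q κ g := by
  unfold Q; rw [E_sub]; abel

lemma Q_of_meas {κ : Ω → β} {f : Ω → ℝ} (h : Meas κ f) : Q κ f = 0 := by
  unfold Q; rw [E_of_meas h, sub_self]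

lemma ip_Q_nonneg (κ : Ω → β) (f : Ω → ℝ) : 0 ≤ ip f (Q κ f) := by
  rw [← ip_Q_Q]; exact ip_self_nonneg _

end Avg

end Vale.Agent.P335
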