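import Vale.Agent.P335.Level

/-! The three-row inequality. -/

namespace Vale.Agent.P335

open Finset
open scoped Classical

noncomputable def ind {C : Type*} (z : C) (S : Finset C) : ℕ := if z ∈ S then 1 else 0

noncomputable def cs {C : Type*} (R : Fin 3 → Finset C) (z : C) : ℕ := ∑ i, ind z (R i)

lemma sum3 {M : Type*} [AddCommMonoid M] (F : Fin 3 → M) {i j k : Fin 3} (hij : i ≠ j)
    (hik : i ≠ k) (hjk : j ≠ k) : ∑ l, F l = F i + F j + F k := by
  have : (univ : Finset (Fin 3)) = {i, j, k} := by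
    revert i j k; decide
  rw [this, sum_insert (by simp [hij, hik]), sum_pair hjk, add_assoc]

lemma exists_others (i : Fin 3) : ∃ j k : Fin 3, i ≠ j ∧ i ≠ k ∧ j ≠ k := by
  revert i; decide

lemma fin3_cases {i j k : Fin 3} (hij : i ≠ j) (hik : i ≠ k) (hjk : j ≠ k) (l : Fin 3) :
    l = i ∨ l = j ∨ l = k := by
  revert i j k l; decide

structure ThreeStr (Ω β C : Type*) where
  K : Ω → β
  R : Ω → Fin 3 → Finset C
  inj : ∀ ω η, K η = K ω → R η = R ω → η = ω
  rowc : ∀ ω η, K η = K ω → ∀ i, (R η i).card = (R ω i).card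
  colc : ∀ ω η, K η = K ω → ∀ z, cs (R η) z = cs (R ω) z
  ext : ∀ ω (R' : Fin 3 → Finset C), (∀ i, (R' i).card = (R ω i).card) →
    (∀ z, cs R' z = cs (R ω) z) → ∃ η, K η = K ω ∧ R η = R'

namespace ThreeStr

variable {Ω β C : Type*} (p : ThreeStr Ω β C)

def key (i : Fin 3) (ω : Ω) : β × Finset C := (p.K ω, p.R ω i)

lemma key_iff {i : Fin 3} {ω η : Ω} :
    p.key i η = p.key i ω ↔ p.K η = p.K ω ∧ p.R η i = p.R ω i := Prod.ext_iff

noncomputable def perm (x y : C) (ω : Ω) : C ≃ C :=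
  if cs (p.R ω) x = cs (p.R ω) y then Equiv.swap x y else Equiv.refl C

lemma perm_perm (x y : C) (ω : Ω) (z : C) : p.perm x y ω (p.perm x y ω z) = z := by
  unfold perm; split_ifs <;> simp

lemma perm_symm (x y : C) (ω : Ω) (z : C) : (p.perm x y ω).symm z = p.perm x y ω z := by
  rw [Equiv.symm_apply_eq, p.perm_perm]

lemma perm_congr (x y : C) {ω η : Ω} (h : p.K η = p.K ω) : p.perm x y η = p.perm x y ω := by
  unfold perm; rw [p.colc ω η h, p.colc ω η h]

lemma cs_perm (x y : C) (ω : Ω) (z : C) : cs (p.R ω) (p.perm x y ω z) = cs (p.R ω) z := by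
  unfold perm
  split_ifs with h
  · by_cases h1 : z = x
    · subst h1; simp [h]
    by_cases h2 : z = y
    · subst h2; simp [h]
    rw [Equiv.swap_apply_of_ne_of_ne h1 h2]
  · rfl

lemma exists_sw (x y : C) (ω : Ω) : ∃ η, p.K η = p.K ω ∧
    p.R η = fun i => (p.R ω i).map (p.perm x y ω).toEmbedding := by
  apply p.ext
  · intro i; simp
  · intro z
    rw [← p.cs_perm x y ω z]
    unfold cs ind
    simp only [mem_map_equiv, p.perm_symm]

noncomputable def sw (x y : C) (ω : Ω) : Ω := (p.exists_sw x y ω).choose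

lemma sw_K (x y : C) (ω : Ω) : p.K (p.sw x y ω) = p.K ω := (p.exists_sw x y ω).choose_spec.1

lemma mem_sw (x y : C) (ω : Ω) (i : Fin 3) (z : C) :
    z ∈ p.R (p.sw x y ω) i ↔ p.perm x y ω z ∈ p.R ω i := by
  unfold sw
  rw [(p.exists_sw x y ω).choose_spec.2]
  simp only [mem_map_equiv, p.perm_symm]

lemma sw_sw (x y : C) (ω : Ω) : p.sw x y (p.sw x y ω) = ω := by
  apply p.inj
  · rw [p.sw_K, p.sw_K]
  · funext i; ext z
    rw [p.mem_sw, p.mem_sw, p.perm_congr x y (p.sw_K x y ω), p.perm_perm]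

lemma key_sw (x y : C) {i : Fin 3} {ω η : Ω} (h : p.key i η = p.key i ω) :
    p.key i (p.sw x y η) = p.key i (p.sw x y ω) := by
  rw [key_iff] at h ⊢
  refine ⟨by rw [p.sw_K, p.sw_K, h.1], ?_⟩
  ext z
  rw [p.mem_sw, p.mem_sw, p.perm_congr x y h.1, h.2]

lemma key_sw_self {x y : C} {i : Fin 3} {ω : Ω}
    (h : cs (p.R ω) x = cs (p.R ω) y → (x ∈ p.R ω i ↔ y ∈ p.R ω i)) :
    p.key i (p.sw x y ω) = p.key i ω := by
  rw [key_iff]
  refine ⟨p.sw_K x y ω, ?_⟩
  ext z
  rw [p.mem_sw]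
  unfold perm
  split_ifs with hc
  · by_cases h1 : z = x
    · subst h1; simp [h hc]
    by_cases h2 : z = y
    · subst h2; simp [h hc]
    rw [Equiv.swap_apply_of_ne_of_ne h1 h2]
  · rfl

variable [Fintype Ω]

lemma E_sw (x y : C) (i : Fin 3) (g : Ω → ℝ) (ω : Ω) :
    E (p.key i) g (p.sw x y ω) = E (p.key i) (fun η => g (p.sw x y η)) ω := by
  refine E_bij (p.sw x y) (p.sw x y) ?_ ?_ (fun η _ => p.sw_sw x y η) (fun η _ => p.sw_sw x y η)
    (fun η _ => by rw [p.sw_sw])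
  · intro η hη
    have := p.key_sw x y hη
    rwa [p.sw_sw] at this
  · intro η hη; exact p.key_sw x y hη

/-- Step 1: eigen-triples are invariant under swaps of columns with equal sums. -/
lemma step1 [Nonempty Ω] (f : Fin 3 → Ω → ℝ) (hm : ∀ i, Meas (p.key i) (f i)) (l : ℝ) (hl : 1 < l)
    (he : ∀ i j k, i ≠ j → i ≠ k → j ≠ k → l • f i = E (p.key i) (f j + f k))
    (x y : C) (i : Fin 3) (ω : Ω) : f i (p.sw x y ω) = f i ω := by
  have key : ∀ i ω, f i ω - f i (p.sw x y ω) ≤ 0 := by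
    obtain ⟨⟨i, ω⟩, -, hmax⟩ := exists_max_image (univ : Finset (Fin 3 × Ω))
      (fun q => f q.1 q.2 - f q.1 (p.sw x y q.2)) univ_nonempty
    suffices h : f i ω - f i (p.sw x y ω) ≤ 0 from
      fun j η => (hmax (j, η) (mem_univ _)).trans h
    by_contra hM
    push Not at hM
    obtain ⟨j, k, hij, hik, hjk⟩ := exists_others i
    have hmax' : ∀ j η, f j η - f j (p.sw x y η) ≤ f i ω - f i (p.sw x y ω) :=
      fun j η => hmax (j, η) (mem_univ _)
    have hd : ¬ (cs (p.R ω) x = cs (p.R ω) y → (x ∈ p.R ω i ↔ y ∈ p.R ω i)) := by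
      intro h
      rw [hm i _ _ (p.key_sw_self h), sub_self] at hM
      exact lt_irrefl _ hM
    have h1 := congrFun (he i j k hij hik hjk) ω
    have h2 := congrFun (he i j k hij hik hjk) (p.sw x y ω)
    rw [p.E_sw] at h2
    have h3 : E (p.key i) ((f j + f k) - fun η => (f j + f k) (p.sw x y η)) ω ≤
        f i ω - f i (p.sw x y ω) := by
      apply E_le
      intro η hη
      rw [key_iff] at hη
      simp only [Pi.sub_apply, Pi.add_apply]
      have hx := p.colc ω η hη.1 x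
      have hy := p.colc ω η hη.1 y
      rw [_root_.not_imp, ← hx, ← hy, ← hη.2] at hd
      have hpar : (x ∈ p.R η j ↔ y ∈ p.R η j) ∨ (x ∈ p.R η k ↔ y ∈ p.R η k) := by
        have h4 := hd.1
        have h5 := hd.2
        unfold cs at h4
        rw [sum3 _ hij hik hjk, sum3 _ hij hik hjk] at h4
        unfold ind at h4
        by_cases a1 : x ∈ p.R η i <;> by_cases a2 : y ∈ p.R η i <;>
          by_cases a3 : x ∈ p.R η j <;> by_cases a4 : y ∈ p.R η j <;>
          by_cases a5 : x ∈ p.R η k <;> by_cases a6 : y ∈ p.R η k <;> simp_all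
      rcases hpar with h | h
      · rw [hm j _ _ (p.key_sw_self fun _ => h)]
        have := hmax' k η; linarith
      · rw [hm k _ _ (p.key_sw_self fun _ => h)]
        have := hmax' j η; linarith
    rw [E_sub, Pi.sub_apply, ← h1, ← h2] at h3
    simp only [Pi.smul_apply, smul_eq_mul] at h3
    nlinarith
  have h1 := key i ω
  have h2 := key i (p.sw x y ω)
  rw [p.sw_sw] at h2
  linarith

variable [Fintype C]

noncomputable def Ds (i : Fin 3) (ω : Ω) : Finset C :=
  univ.filter fun z => cs (p.R ω) z = ind z (p.R ω i) + 1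

noncomputable def Cm (i : Fin 3) (ω : Ω) : Finset C :=
  univ.filter fun z => cs (p.R ω) z = ind z (p.R ω i) + 2

omit [Fintype Ω] in
lemma mem_Ds' {i : Fin 3} {ω : Ω} {z : C} :
    z ∈ p.Ds i ω ↔ cs (p.R ω) z = ind z (p.R ω i) + 1 := by
  simp only [Ds, mem_filter, mem_univ, true_and]

omit [Fintype Ω] in
lemma mem_Cm' {i : Fin 3} {ω : Ω} {z : C} :
    z ∈ p.Cm i ω ↔ cs (p.R ω) z = ind z (p.R ω i) + 2 := by
  simp only [Cm, mem_filter, mem_univ, true_and]

omit [Fintype Ω] in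
lemma mem_Ds {i j k : Fin 3} (hij : i ≠ j) (hik : i ≠ k) (hjk : j ≠ k) {ω ζ : Ω}
    (h : p.key i ζ = p.key i ω) (z : C) : z ∈ p.Ds i ω ↔ ¬ (z ∈ p.R ζ j ↔ z ∈ p.R ζ k) := by
  rw [key_iff] at h
  simp only [Ds, mem_filter, mem_univ, true_and]
  rw [← p.colc ω ζ h.1, ← h.2, cs, sum3 _ hij hik hjk]
  unfold ind
  by_cases a1 : z ∈ p.R ζ i <;> by_cases a2 : z ∈ p.R ζ j <;> by_cases a3 : z ∈ p.R ζ k <;>
    simp [a1, a2, a3]

omit [Fintype Ω] in
lemma mem_Cm {i j k : Fin 3} (hij : i ≠ j) (hik : i ≠ k) (hjk : j ≠ k) {ω ζ : Ω}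
    (h : p.key i ζ = p.key i ω) (z : C) : z ∈ p.Cm i ω ↔ (z ∈ p.R ζ j ∧ z ∈ p.R ζ k) := by
  rw [key_iff] at h
  simp only [Cm, mem_filter, mem_univ, true_and]
  rw [← p.colc ω ζ h.1, ← h.2, cs, sum3 _ hij hik hjk]
  unfold ind
  by_cases a1 : z ∈ p.R ζ i <;> by_cases a2 : z ∈ p.R ζ j <;> by_cases a3 : z ∈ p.R ζ k <;>
    simp [a1, a2, a3]

omit [Fintype Ω] in
lemma row_j {i j k : Fin 3} (hij : i ≠ j) (hik : i ≠ k) (hjk : j ≠ k) {ω ζ : Ω}
    (h : p.key i ζ = p.key i ω) : p.R ζ j = p.Cm i ω ∪ (p.R ζ j ∩ p.Ds i ω) := by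
  ext z
  simp only [mem_union, mem_inter, p.mem_Cm hij hik hjk h, p.mem_Ds hij hik hjk h]
  tauto

omit [Fintype Ω] in
lemma row_k {i j k : Fin 3} (hij : i ≠ j) (hik : i ≠ k) (hjk : j ≠ k) {ω ζ : Ω}
    (h : p.key i ζ = p.key i ω) : p.R ζ k = p.Cm i ω ∪ (p.Ds i ω \ (p.R ζ j ∩ p.Ds i ω)) := by
  ext z
  simp only [mem_union, mem_inter, mem_sdiff, p.mem_Cm hij hik hjk h, p.mem_Ds hij hik hjk h]
  tauto

omit [Fintype Ω] in
lemma disj_Cm_Ds (i : Fin 3) (ω : Ω) : Disjoint (p.Cm i ω) (p.Ds i ω) := by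
  rw [disjoint_left]
  intro z h1 h2
  simp only [Cm, Ds, mem_filter, mem_univ, true_and] at h1 h2
  omega

noncomputable def kk (i j : Fin 3) (ω : Ω) : ℕ := (p.R ω j ∩ p.Ds i ω).card

omit [Fintype Ω] in
lemma kk_le (i j : Fin 3) (ω : Ω) : p.kk i j ω ≤ (p.Ds i ω).card :=
  card_le_card inter_subset_right

omit [Fintype Ω] in
lemma card_row_j {i j k : Fin 3} (hij : i ≠ j) (hik : i ≠ k) (hjk : j ≠ k) {ω ζ : Ω}
    (h : p.key i ζ = p.key i ω) :
    (p.R ζ j).card = (p.Cm i ω).card + (p.R ζ j ∩ p.Ds i ω).card := by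
  conv_lhs => rw [p.row_j hij hik hjk h]
  exact card_union_of_disjoint ((p.disj_Cm_Ds i ω).mono_right inter_subset_right)

omit [Fintype Ω] in
lemma exists_build {i j k : Fin 3} (hij : i ≠ j) (hik : i ≠ k) (hjk : j ≠ k) (ω : Ω)
    (J : Finset C) (hJ : J ∈ powersetCard (p.kk i j ω) (p.Ds i ω)) :
    ∃ ζ, p.key i ζ = p.key i ω ∧ p.R ζ j = p.Cm i ω ∪ J ∧ p.R ζ k = p.Cm i ω ∪ (p.Ds i ω \ J) := by
  obtain ⟨hJ1, hJ2⟩ := mem_powersetCard.1 hJ
  have hd := p.disj_Cm_Ds i ω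
  obtain ⟨ζ, h1, h2⟩ := p.ext ω
    (fun l => if l = i then p.R ω i else if l = j then p.Cm i ω ∪ J else p.Cm i ω ∪ (p.Ds i ω \ J))
    (by
      intro l
      rcases fin3_cases hij hik hjk l with rfl | rfl | rfl
      · simp
      · simp only [if_neg hij.symm, if_true]
        rw [card_union_of_disjoint (hd.mono_right hJ1), hJ2, p.card_row_j hij hik hjk rfl, kk]
      · simp only [if_neg hik.symm, if_neg hjk.symm]
        conv_rhs => rw [p.row_k hij hik hjk rfl]
        rw [card_union_of_disjoint (hd.mono_right sdiff_subset),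
          card_union_of_disjoint (hd.mono_right sdiff_subset), card_sdiff_of_subset hJ1,
          card_sdiff_of_subset inter_subset_right, hJ2, kk])
    (by
      intro z
      have e1 := p.mem_Cm hij hik hjk (ω := ω) rfl z
      have e2 := p.mem_Ds hij hik hjk (ω := ω) rfl z
      have e3 : z ∈ J → z ∈ p.Ds i ω := fun h => hJ1 h
      unfold cs
      rw [sum3 _ hij hik hjk, sum3 _ hij hik hjk]
      simp only [if_true, if_neg hij.symm, if_neg hik.symm, if_neg hjk.symm]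
      unfold ind
      simp only [mem_union, mem_sdiff, e1, e2] at e3 ⊢
      by_cases a2 : z ∈ p.R ω j <;> by_cases a3 : z ∈ p.R ω k <;> by_cases a4 : z ∈ J <;>
        simp_all)
  refine ⟨ζ, ?_, ?_, ?_⟩
  · rw [key_iff, h2]; simp [h1]
  · rw [h2]; simp [hij.symm]
  · rw [h2]; simp [hik.symm, hjk.symm]

noncomputable def build (i j k : Fin 3) (ω : Ω) (J : Finset C) : Ω :=
  if h : ∃ ζ, p.key i ζ = p.key i ω ∧ p.R ζ j = p.Cm i ω ∪ J ∧ p.R ζ k = p.Cm i ω ∪ (p.Ds i ω \ J)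
  then h.choose else ω

lemma build_spec {i j k : Fin 3} (hij : i ≠ j) (hik : i ≠ k) (hjk : j ≠ k) (ω : Ω)
    (J : Finset C) (hJ : J ∈ powersetCard (p.kk i j ω) (p.Ds i ω)) :
    p.key i (p.build i j k ω J) = p.key i ω ∧ p.R (p.build i j k ω J) j = p.Cm i ω ∪ J ∧
      p.R (p.build i j k ω J) k = p.Cm i ω ∪ (p.Ds i ω \ J) := by
  have h := p.exists_build hij hik hjk ω J hJ
  unfold build
  rw [dif_pos h]
  exact h.choose_spec

lemma E_param {i j k : Fin 3} (hij : i ≠ j) (hik : i ≠ k) (hjk : j ≠ k) (ω : Ω) (G : Ω → ℝ) :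
    E (p.key i) G ω = (∑ J ∈ powersetCard (p.kk i j ω) (p.Ds i ω), G (p.build i j k ω J)) /
      (powersetCard (p.kk i j ω) (p.Ds i ω)).card := by
  have hs : ∀ G : Ω → ℝ, ∑ ζ ∈ cls (p.key i) ω, G ζ =
      ∑ J ∈ powersetCard (p.kk i j ω) (p.Ds i ω), G (p.build i j k ω J) := by
    intro G
    have hmem : ∀ ζ ∈ cls (p.key i) ω,
        p.R ζ j ∩ p.Ds i ω ∈ powersetCard (p.kk i j ω) (p.Ds i ω) := by
      intro ζ hζ
      have hζ := mem_cls.1 hζ
      refine mem_powersetCard.2 ⟨inter_subset_right, ?_⟩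
      have e1 := p.card_row_j hij hik hjk hζ
      have e2 := p.card_row_j hij hik hjk (ω := ω) rfl
      have e3 := p.rowc ω ζ (p.key_iff.1 hζ).1 j
      unfold kk; omega
    have hinv : ∀ ζ ∈ cls (p.key i) ω, p.build i j k ω (p.R ζ j ∩ p.Ds i ω) = ζ := by
      intro ζ hζ
      obtain ⟨b1, b2, b3⟩ := p.build_spec hij hik hjk ω _ (hmem ζ hζ)
      have hζ := mem_cls.1 hζ
      rw [← hζ, key_iff] at b1
      apply p.inj _ _ b1.1
      funext l
      rcases fin3_cases hij hik hjk l with rfl | rfl | rfl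
      · exact b1.2
      · rw [b2, ← p.row_j hij hik hjk hζ]
      · rw [b3, ← p.row_k hij hik hjk hζ]
    refine sum_nbij' (fun ζ => p.R ζ j ∩ p.Ds i ω) (p.build i j k ω) hmem ?_ hinv ?_ ?_
    · intro J hJ; exact mem_cls.2 (p.build_spec hij hik hjk ω J hJ).1
    · intro J hJ
      rw [(p.build_spec hij hik hjk ω J hJ).2.1]
      have h1 := (mem_powersetCard.1 hJ).1
      have h2 := p.disj_Cm_Ds i ω
      rw [union_inter_distrib_right, disjoint_iff_inter_eq_empty.1 h2, empty_union,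
        inter_eq_left.2 h1]
    · intro ζ hζ; rw [hinv ζ hζ]
  have hc := hs (fun _ => 1)
  simp only [sum_const, nsmul_eq_mul, mul_one] at hc
  unfold E
  rw [hs, hc]

/-- One exchange in row `l`. -/
def Mv (l : Fin 3) (ζ ζ' : Ω) (a b : C) : Prop :=
  p.K ζ' = p.K ζ ∧ a ∈ p.R ζ l ∧ b ∉ p.R ζ l ∧ p.R ζ' l = insert b ((p.R ζ l).erase a)

omit [Fintype Ω] [Fintype C] in
lemma Mv.symm {p : ThreeStr Ω β C} {l : Fin 3} {ζ ζ' : Ω} {a b : C} (h : p.Mv l ζ ζ' a b) :
    p.Mv l ζ' ζ b a := by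
  obtain ⟨h1, h2, h3, h4⟩ := h
  have hab : a ≠ b := by rintro rfl; exact h3 h2
  refine ⟨h1.symm, by simp [h4], by simp [h4, hab], ?_⟩
  rw [h4]; ext z
  simp only [mem_insert, mem_erase]
  constructor
  · intro hz
    by_cases e : z = a
    · exact Or.inl e
    · exact Or.inr ⟨fun e2 => h3 (e2 ▸ hz), Or.inr ⟨e, hz⟩⟩
  · rintro (rfl | ⟨e1, e2 | e2⟩)
    · exact h2
    · exact absurd e2 e1
    · exact e2.2

def Good (l : Fin 3) (g : Ω → ℝ) (M : ℝ) : Prop :=
  Meas (p.key l) g ∧ ∀ ζ ζ' a b, p.Mv l ζ ζ' a b →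
    g ζ' ≤ g ζ + M ∧ (cs (p.R ζ) a = cs (p.R ζ) b → g ζ' = g ζ)

/-- Step 2: the coupling estimate for a mixed exchange. -/
lemma step2 {i j k : Fin 3} (hij : i ≠ j) (hik : i ≠ k) (hjk : j ≠ k) {a b : Ω → ℝ} {M : ℝ}
    (ha : p.Good j a M) (hb : p.Good k b M) {ω η : Ω} {x y : C} (h : p.Mv i ω η x y)
    (hx : cs (p.R ω) x = 1) (hy : cs (p.R ω) y = 2) :
    E (p.key i) (a + b) η ≤ E (p.key i) (a + b) ω + M := by
  obtain ⟨hK, hx1, hy1, hR⟩ := h
  have hxy : x ≠ y := by rintro rfl; omega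
  have hcs : ∀ z, cs (p.R η) z = cs (p.R ω) z := p.colc ω η hK
  have hxD : x ∉ p.Ds i ω := by rw [p.mem_Ds']; simp [ind, hx, hx1]
  have hyD : y ∉ p.Ds i ω := by rw [p.mem_Ds']; simp [ind, hy, hy1]
  have hxC : x ∉ p.Cm i ω := by rw [p.mem_Cm']; simp [ind, hx, hx1]
  have hyC : y ∈ p.Cm i ω := by rw [p.mem_Cm']; simp [ind, hy, hy1]
  have hD' : p.Ds i η = insert x (insert y (p.Ds i ω)) := by
    ext z
    simp only [p.mem_Ds', mem_insert, hcs, hR, ind, mem_erase]
    by_cases e1 : z = x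
    · subst e1; simp [hx, hxy]
    by_cases e2 : z = y
    · subst e2; simp [hy]
    simp [e1, e2]
  have hC' : p.Cm i η = (p.Cm i ω).erase y := by
    ext z
    simp only [p.mem_Cm', mem_insert, hcs, hR, ind, mem_erase]
    by_cases e1 : z = x
    · subst e1; simp [hx, hxy, hx1]
    by_cases e2 : z = y
    · subst e2; simp [hy]
    simp [e1, e2]
  have hk' : p.kk i j η = p.kk i j ω + 1 := by
    have e1 := p.card_row_j hij hik hjk (ω := η) rfl
    have e2 := p.card_row_j hij hik hjk (ω := ω) rfl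
    have e3 := p.rowc ω η hK j
    have e4 := card_erase_add_one hyC
    rw [hC'] at e1
    unfold kk; omega
  have hdis := disjoint_left.1 (p.disj_Cm_Ds i ω)
  have hz12 : ∀ z ∈ p.Ds i ω, cs (p.R ω) z = 1 ∨ cs (p.R ω) z = 2 := by
    intro z hz
    simp only [p.mem_Ds', ind] at hz
    split_ifs at hz <;> omega
  rw [p.E_param hij hik hjk η, p.E_param hij hik hjk ω]
  have hb1 := p.build_spec hij hik hjk ω
  have hb2 := p.build_spec hij hik hjk η
  rw [hk', hD', hC'] at hb2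
  rw [hk', hD']
  set D := p.Ds i ω
  set Cm := p.Cm i ω
  set m := p.kk i j ω
  have hKK : ∀ J ∈ powersetCard (m + 1) (insert x (insert y D)), ∀ K ∈ powersetCard m D,
      p.K (p.build i j k η J) = p.K (p.build i j k ω K) := by
    intro J hJ K hK'
    rw [(p.key_iff.1 (hb2 J hJ).1).1, (p.key_iff.1 (hb1 K hK').1).1, hK]
  have hcsb : ∀ K ∈ powersetCard m D, ∀ z, cs (p.R (p.build i j k ω K)) z = cs (p.R ω) z :=
    fun K hK' => p.colc ω _ (p.key_iff.1 (hb1 K hK').1).1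
  refine level_two D x y hxD hyD hxy m (p.kk_le i j ω) _ _ M ?_ ?_ ?_ ?_
  · intro J hJ K hK' hKJ
    obtain ⟨hJ1, hJ2⟩ := mem_powersetCard.1 hJ
    obtain ⟨hK1, hK2⟩ := mem_powersetCard.1 hK'
    obtain ⟨z, hz1, rfl⟩ : ∃ z, z ∉ K ∧ insert z K = J :=
      (exists_eq_insert_iff).2 ⟨hKJ, by omega⟩
    have hzD : z ∈ D := hJ1 (mem_insert_self _ _)
    have hJ' : insert z K ∈ powersetCard (m + 1) (insert x (insert y D)) :=
      powersetCard_mono (fun t ht => mem_insert_of_mem (mem_insert_of_mem ht)) hJ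
    have m1 : p.Mv j (p.build i j k ω K) (p.build i j k η (insert z K)) y z := by
      refine ⟨hKK _ hJ' _ hK', ?_, ?_, ?_⟩
      · rw [(hb1 K hK').2.1]; simp [hyC]
      · rw [(hb1 K hK').2.1]; simp only [mem_union, not_or]; exact ⟨fun h => hdis h hzD, hz1⟩
      · rw [(hb1 K hK').2.1, (hb2 _ hJ').2.1]
        ext t; have := @hK1 t; simp only [mem_union, mem_insert, mem_erase]; grind
    have m2 : p.Mv k (p.build i j k ω K) (p.build i j k η (insert z K)) z x := by
      refine ⟨hKK _ hJ' _ hK', ?_, ?_, ?_⟩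
      · rw [(hb1 K hK').2.2]; simp [hzD, hz1]
      · rw [(hb1 K hK').2.2]; simp [hxC, hxD]
      · rw [(hb1 K hK').2.2, (hb2 _ hJ').2.2]
        ext t; have := @hK1 t; have := @hdis t
        simp only [mem_union, mem_insert, mem_erase, mem_sdiff]; grind
    have r1 := ha.2 _ _ _ _ m1
    have r2 := hb.2 _ _ _ _ m2
    rw [hcsb K hK', hcsb K hK'] at r1 r2
    simp only [Pi.add_apply]
    rcases hz12 z hzD with e | e
    · have := r2.2 (by omega); linarith [r1.1]
    · have := r1.2 (by omega); linarith [r2.1]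
  · intro K hK'
    obtain ⟨hK1, hK2⟩ := mem_powersetCard.1 hK'
    have hxK : x ∉ K := fun h => hxD (hK1 h)
    have hJ' : insert x K ∈ powersetCard (m + 1) (insert x (insert y D)) :=
      mem_powersetCard.2 ⟨insert_subset_insert _ (hK1.trans (subset_insert _ _)),
        by rw [card_insert_of_notMem hxK, hK2]⟩
    have m1 : p.Mv j (p.build i j k ω K) (p.build i j k η (insert x K)) y x := by
      refine ⟨hKK _ hJ' _ hK', ?_, ?_, ?_⟩
      · rw [(hb1 K hK').2.1]; simp [hyC]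
      · rw [(hb1 K hK').2.1]; simp [hxC, hxK]
      · rw [(hb1 K hK').2.1, (hb2 _ hJ').2.1]
        ext t; have := @hK1 t; simp only [mem_union, mem_insert, mem_erase]; grind
    have m2 : b (p.build i j k η (insert x K)) = b (p.build i j k ω K) := by
      apply hb.1
      rw [key_iff]
      refine ⟨hKK _ hJ' _ hK', ?_⟩
      rw [(hb1 K hK').2.2, (hb2 _ hJ').2.2]
      ext t; have := @hK1 t; have := @hdis t
      simp only [mem_union, mem_insert, mem_erase, mem_sdiff]; grind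
    have r1 := ha.2 _ _ _ _ m1
    simp only [Pi.add_apply]
    linarith [r1.1]
  · intro K hK'
    obtain ⟨hK1, hK2⟩ := mem_powersetCard.1 hK'
    have hyK : y ∉ K := fun h => hyD (hK1 h)
    have hJ' : insert y K ∈ powersetCard (m + 1) (insert x (insert y D)) :=
      mem_powersetCard.2 ⟨(insert_subset_insert _ hK1).trans (subset_insert _ _),
        by rw [card_insert_of_notMem hyK, hK2]⟩
    have m1 : a (p.build i j k η (insert y K)) = a (p.build i j k ω K) := by
      apply ha.1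
      rw [key_iff]
      refine ⟨hKK _ hJ' _ hK', ?_⟩
      rw [(hb1 K hK').2.1, (hb2 _ hJ').2.1]
      ext t; simp only [mem_union, mem_insert, mem_erase]; grind
    have m2 : p.Mv k (p.build i j k ω K) (p.build i j k η (insert y K)) y x := by
      refine ⟨hKK _ hJ' _ hK', ?_, ?_, ?_⟩
      · rw [(hb1 K hK').2.2]; simp [hyC]
      · rw [(hb1 K hK').2.2]; simp [hxC, hxD]
      · rw [(hb1 K hK').2.2, (hb2 _ hJ').2.2]
        ext t; have := @hK1 t; have := @hdis t
        simp only [mem_union, mem_insert, mem_erase, mem_sdiff]; grind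
    have r2 := hb.2 _ _ _ _ m2
    simp only [Pi.add_apply]
    linarith [r2.1]
  · intro J hJ1 hJ2 K hK' hJK
    obtain ⟨hK1, hK2⟩ := mem_powersetCard.1 hK'
    obtain ⟨z, hz1, rfl⟩ : ∃ z, z ∉ J ∧ insert z J = K :=
      (exists_eq_insert_iff).2 ⟨hJK, by omega⟩
    have hzD : z ∈ D := hK1 (mem_insert_self _ _)
    have hxJ : x ∉ J := fun h => hxD (hJ1 h)
    have hyJ : y ∉ J := fun h => hyD (hJ1 h)
    have hJ' : insert x (insert y J) ∈ powersetCard (m + 1) (insert x (insert y D)) :=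
      mem_powersetCard.2 ⟨insert_subset_insert _ (insert_subset_insert _ hJ1),
        by rw [card_insert_of_notMem (by simp [hxy, hxJ]), card_insert_of_notMem hyJ, hJ2]⟩
    have m1 : p.Mv j (p.build i j k ω (insert z J)) (p.build i j k η (insert x (insert y J))) z x := by
      refine ⟨hKK _ hJ' _ hK', ?_, ?_, ?_⟩
      · rw [(hb1 _ hK').2.1]; simp
      · rw [(hb1 _ hK').2.1]
        simp only [mem_union, not_or]; exact ⟨hxC, fun h => hxD (hK1 h)⟩
      · rw [(hb1 _ hK').2.1, (hb2 _ hJ').2.1]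
        ext t; have := @hdis t; simp only [mem_union, mem_insert, mem_erase]; grind
    have m2 : p.Mv k (p.build i j k ω (insert z J)) (p.build i j k η (insert x (insert y J))) y z := by
      refine ⟨hKK _ hJ' _ hK', ?_, ?_, ?_⟩
      · rw [(hb1 _ hK').2.2]; simp [hyC]
      · rw [(hb1 _ hK').2.2]
        simp only [mem_union, mem_sdiff, mem_insert, true_or, not_true, and_false, or_false]
        exact fun h => hdis h hzD
      · rw [(hb1 _ hK').2.2, (hb2 _ hJ').2.2]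
        ext t; have := @hJ1 t; have := @hdis t
        simp only [mem_union, mem_insert, mem_erase, mem_sdiff]; grind
    have r1 := ha.2 _ _ _ _ m1
    have r2 := hb.2 _ _ _ _ m2
    rw [hcsb _ hK', hcsb _ hK'] at r1 r2
    simp only [Pi.add_apply]
    rcases hz12 z hzD with e | e
    · have := r1.2 (by omega); linarith [r2.1]
    · have := r2.2 (by omega); linarith [r1.1]

end ThreeStr

end Vale.Agent.P335
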